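import Vale.Agent.P192.H124.PMBase
import Vale.Agent.P192.H663.Calc

/-!
# P192: ultraproducts of linear orders
-/

namespace Vale.Agent.P192.PMUnif

open Filter PM

section UP

variable {ι : Type} (U : Ultrafilter ι) (X : ι → Type)

/-- the ultraproduct -/
def UP : Type := Quotient (Filter.productSetoid (U : Filter ι) X)

variable {X}

/-- the class of a family -/
def mk (f : ∀ i, X i) : UP U X := Quotient.mk (Filter.productSetoid (U : Filter ι) X) f

theorem mk_eq {f g : ∀ i, X i} : mk U f = mk U g ↔ ∀ᶠ i in (U : Filter ι), f i = g i :=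
  Quotient.eq

theorem exists_mk (x : UP U X) : ∃ f, mk U f = x := Quotient.exists_rep x

variable [∀ i, LinearOrder (X i)]

/-- the order -/
def le : UP U X → UP U X → Prop :=
  Quotient.lift₂ (fun f g => ∀ᶠ i in (U : Filter ι), f i ≤ g i) (by
    intro a b a' b' h h'
    have h1 : ∀ᶠ i in (U : Filter ι), a i = a' i := h
    have h2 : ∀ᶠ i in (U : Filter ι), b i = b' i := h'
    apply propext
    constructor
    · intro h3
      filter_upwards [h1, h2, h3] with i e1 e2 e3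
      rw [← e1, ← e2]; exact e3
    · intro h3
      filter_upwards [h1, h2, h3] with i e1 e2 e3
      rw [e1, e2]; exact e3)

noncomputable instance : LinearOrder (UP U X) where
  le := le U
  le_refl x := by
    obtain ⟨f, rfl⟩ := exists_mk U x
    exact Eventually.of_forall (fun i => le_refl (f i))
  le_trans x y z := by
    obtain ⟨f, rfl⟩ := exists_mk U x
    obtain ⟨g, rfl⟩ := exists_mk U y
    obtain ⟨h, rfl⟩ := exists_mk U z
    intro (h1 : ∀ᶠ i in (U : Filter ι), f i ≤ g i) (h2 : ∀ᶠ i in (U : Filter ι), g i ≤ h i)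
    change ∀ᶠ i in (U : Filter ι), f i ≤ h i
    filter_upwards [h1, h2] with i e1 e2
    exact e1.trans e2
  le_antisymm x y := by
    obtain ⟨f, rfl⟩ := exists_mk U x
    obtain ⟨g, rfl⟩ := exists_mk U y
    intro (h1 : ∀ᶠ i in (U : Filter ι), f i ≤ g i) (h2 : ∀ᶠ i in (U : Filter ι), g i ≤ f i)
    rw [mk_eq]
    filter_upwards [h1, h2] with i e1 e2
    exact le_antisymm e1 e2
  le_total x y := by
    obtain ⟨f, rfl⟩ := exists_mk U x
    obtain ⟨g, rfl⟩ := exists_mk U y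
    change (∀ᶠ i in (U : Filter ι), f i ≤ g i) ∨ (∀ᶠ i in (U : Filter ι), g i ≤ f i)
    rw [← Ultrafilter.eventually_or]
    exact Eventually.of_forall (fun i => le_total (f i) (g i))
  toDecidableLE := Classical.decRel _

theorem mk_le {f g : ∀ i, X i} : mk U f ≤ mk U g ↔ ∀ᶠ i in (U : Filter ι), f i ≤ g i := Iff.rfl

theorem mk_lt {f g : ∀ i, X i} : mk U f < mk U g ↔ ∀ᶠ i in (U : Filter ι), f i < g i := by
  rw [← not_le, mk_le, ← Ultrafilter.eventually_not]
  simp only [not_le]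

end UP

section action

variable {ι : Type} (U : Ultrafilter ι) {X : ι → Type} {Γ : Type} [Group Γ]
  (ρ : ∀ i, Γ →* Equiv.Perm (X i))

/-- the action on the ultraproduct -/
def actFun (g : Γ) : UP U X → UP U X :=
  Quotient.map (fun f i => ρ i g (f i)) (by
    intro a b h
    have h1 : ∀ᶠ i in (U : Filter ι), a i = b i := h
    change ∀ᶠ i in (U : Filter ι), ρ i g (a i) = ρ i g (b i)
    filter_upwards [h1] with i e1
    rw [e1])

theorem actFun_mk (g : Γ) (f : ∀ i, X i) : actFun U ρ g (mk U f) = mk U (fun i => ρ i g (f i)) :=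
  rfl

/-- the action on the ultraproduct -/
def act : Γ →* Equiv.Perm (UP U X) :=
  letI : MulAction Γ (UP U X) :=
    { smul := actFun U ρ
      one_smul := by
        intro x
        obtain ⟨f, rfl⟩ := exists_mk U x
        change actFun U ρ 1 (mk U f) = mk U f
        rw [actFun_mk]
        simp
      mul_smul := by
        intro g h x
        obtain ⟨f, rfl⟩ := exists_mk U x
        change actFun U ρ (g * h) (mk U f) = actFun U ρ g (actFun U ρ h (mk U f))
        rw [actFun_mk, actFun_mk, actFun_mk]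
        simp }
  MulAction.toPermHom Γ (UP U X)

theorem act_mk (g : Γ) (f : ∀ i, X i) : act U ρ g (mk U f) = mk U (fun i => ρ i g (f i)) := rfl

theorem act_eq_one {g : Γ} (hne : ∀ i, Nonempty (X i)) (h : act U ρ g = 1) :
    ∀ᶠ i in (U : Filter ι), ρ i g = 1 := by
  by_contra hcon
  rw [← Ultrafilter.eventually_not] at hcon
  have h1 : ∀ i, ∃ x : X i, ρ i g ≠ 1 → ρ i g x ≠ x := by
    intro i
    by_cases hi : ρ i g = 1
    · exact ⟨(hne i).some, fun h => absurd hi h⟩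
    · by_contra h2
      push Not at h2
      apply hi
      ext x
      exact (h2 x).2
  choose f hf using h1
  have h2 : act U ρ g (mk U f) = mk U f := by rw [h]; rfl
  rw [act_mk, mk_eq] at h2
  obtain ⟨i, hi1, hi2⟩ := (hcon.and h2).exists
  exact hf i hi1 hi2

/-- internal pieces -/
theorem exists_pieces [∀ i, LinearOrder (X i)] (m : ℕ) (g : Γ)
    (h : ∀ i, ∃ C : Fin m → Set (X i), (∀ x, ∃ j, x ∈ C j) ∧ ∀ j, Good (ρ i g) (C j)) :
    ∃ C : Fin m → Set (UP U X), (∀ x, ∃ j, x ∈ C j) ∧ ∀ j, Good (act U ρ g) (C j) := by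
  choose C hC hG using h
  let D : Fin m → Set (UP U X) := fun j => {x | ∃ f, mk U f = x ∧ ∀ᶠ i in (U : Filter ι), f i ∈ C i j}
  have hD : ∀ (j : Fin m) (f : ∀ i, X i), mk U f ∈ D j ↔ ∀ᶠ i in (U : Filter ι), f i ∈ C i j := by
    intro j f
    constructor
    · rintro ⟨f', h1, h2⟩
      rw [mk_eq] at h1
      filter_upwards [h1, h2] with i hi h2
      rw [← hi]
      exact h2
    · intro h
      exact ⟨f, rfl, h⟩
  refine ⟨D, ?_, ?_⟩
  · intro x
    obtain ⟨f, rfl⟩ := exists_mk U x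
    simp only [hD]
    rw [← Ultrafilter.eventually_exists_iff]
    exact Eventually.of_forall (fun i => hC i (f i))
  · intro j
    refine ⟨⟨?_⟩, ⟨?_⟩, ?_⟩
    · intro x hx y hy z hz
      obtain ⟨f, rfl⟩ := exists_mk U x
      obtain ⟨f', rfl⟩ := exists_mk U y
      obtain ⟨f'', rfl⟩ := exists_mk U z
      rw [hD] at hx hy ⊢
      have h1 := (mk_le U).1 hz.1
      have h2 := (mk_le U).1 hz.2
      filter_upwards [hx, hy, h1, h2] with i e1 e2 e3 e4
      exact (hG i j).1.out e1 e2 ⟨e3, e4⟩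
    · rintro _ ⟨x, hx, rfl⟩ _ ⟨y, hy, rfl⟩ z hz
      obtain ⟨f, rfl⟩ := exists_mk U x
      obtain ⟨f', rfl⟩ := exists_mk U y
      obtain ⟨f'', rfl⟩ := exists_mk U z
      rw [hD] at hx hy
      rw [act_mk, act_mk] at hz
      have h1 := (mk_le U).1 hz.1
      have h2 := (mk_le U).1 hz.2
      refine ⟨mk U (fun i => ρ i g⁻¹ (f'' i)), ?_, ?_⟩
      · rw [hD]
        filter_upwards [hx, hy, h1, h2] with i e1 e2 e3 e4
        obtain ⟨w, hw, hwe⟩ := (hG i j).2.1.out ⟨_, e1, rfl⟩ ⟨_, e2, rfl⟩ ⟨e3, e4⟩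
        rw [← hwe]
        simpa using hw
      · rw [act_mk]
        congr 1
        funext i
        simp
    · have h1 : ∀ᶠ i in (U : Filter ι), StrictMonoOn (ρ i g) (C i j) ∨ StrictAntiOn (ρ i g) (C i j) :=
        Eventually.of_forall (fun i => (hG i j).2.2)
      rw [Ultrafilter.eventually_or] at h1
      rcases h1 with h1 | h1
      · left
        intro x hx y hy hxy
        obtain ⟨f, rfl⟩ := exists_mk U x
        obtain ⟨f', rfl⟩ := exists_mk U y
        rw [hD] at hx hy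
        rw [mk_lt] at hxy
        rw [act_mk, act_mk, mk_lt]
        filter_upwards [hx, hy, hxy, h1] with i e1 e2 e3 e4
        exact e4 e1 e2 e3
      · right
        intro x hx y hy hxy
        obtain ⟨f, rfl⟩ := exists_mk U x
        obtain ⟨f', rfl⟩ := exists_mk U y
        rw [hD] at hx hy
        rw [mk_lt] at hxy
        rw [act_mk, act_mk, mk_lt]
        filter_upwards [hx, hy, hxy, h1] with i e1 e2 e3 e4
        exact e4 e1 e2 e3

end action

section subgroup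

variable {K : Type} [LinearOrder K]

/-- piecewise monotone -/
def PW (g : K → K) : Prop :=
  ∃ P : Set (Set K), P.Finite ∧ (∀ x, ∃ C ∈ P, x ∈ C) ∧ ∀ C ∈ P, Good g C

theorem pw_one : PW (1 : Equiv.Perm K) := by
  refine ⟨{Set.univ}, Set.finite_singleton _, fun x => ⟨Set.univ, rfl, trivial⟩, ?_⟩
  rintro C rfl
  refine ⟨Set.ordConnected_univ, ?_, Or.inl (fun x _ y _ h => h)⟩
  have : ((1 : Equiv.Perm K) : K → K) '' Set.univ = Set.univ := by simp
  rw [this]
  exact Set.ordConnected_univ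

theorem pw_mul (g h : Equiv.Perm K) (hg : PW g) (hh : PW h) : PW (g * h : Equiv.Perm K) := by
  obtain ⟨P, hP, hPc, hPg⟩ := hg
  obtain ⟨Q, hQ, hQc, hQg⟩ := hh
  refine ⟨Set.image2 (fun B A => {x | x ∈ A ∧ h x ∈ B}) P Q, hP.image2 _ hQ, ?_, ?_⟩
  · intro x
    obtain ⟨A, hA, hxA⟩ := hQc x
    obtain ⟨B, hB, hxB⟩ := hPc (h x)
    exact ⟨_, ⟨B, hB, A, hA, rfl⟩, hxA, hxB⟩
  · rintro _ ⟨B, hB, A, hA, rfl⟩
    have h1 : {x | x ∈ A ∧ h x ∈ B}.OrdConnected := PM.good_preimage (hQg A hA) (hPg B hB).1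
    have h2 : Good h {x | x ∈ A ∧ h x ∈ B} := PM.good_mono (hQg A hA) (fun x hx => hx.1) h1
    have h3 : Good g (h '' {x | x ∈ A ∧ h x ∈ B}) := by
      refine PM.good_mono (hPg B hB) ?_ h2.2.1
      rintro _ ⟨x, hx, rfl⟩
      exact hx.2
    have h4 := PM.good_comp h2 h3
    exact h4

theorem pw_inv (g : Equiv.Perm K) (hg : PW g) : PW (g⁻¹ : Equiv.Perm K) := by
  obtain ⟨P, hP, hPc, hPg⟩ := hg
  refine ⟨(fun A => g '' A) '' P, hP.image _, ?_, ?_⟩
  · intro x
    obtain ⟨A, hA, hxA⟩ := hPc (g⁻¹ x)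
    exact ⟨_, ⟨A, hA, rfl⟩, ⟨_, hxA, by simp⟩⟩
  · rintro _ ⟨A, hA, rfl⟩
    exact PM.good_inv (hPg A hA) (fun x => by simp)

/-- the group of piecewise monotone bijections -/
def PWG (K : Type) [LinearOrder K] : Subgroup (Equiv.Perm K) where
  carrier := {g | PW g}
  one_mem' := pw_one
  mul_mem' := fun {a b} ha hb => pw_mul a b ha hb
  inv_mem' := fun {a} ha => pw_inv a ha

end subgroup

/-- the uniform version -/
theorem uniform
    (main : ∀ (K : Type) [LinearOrder K] (G : Subgroup (Equiv.Perm K)),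
      (∀ g ∈ G, ∃ P : Set (Set K), P.Finite ∧ (∀ x, ∃ C ∈ P, x ∈ C) ∧ ∀ C ∈ P, Good g C) → FPB G)
    (Γ : Type) [Group Γ] (hΓ : Group.IsFinitelyPresented Γ) (ht : ∀ x : Γ, IsOfFinOrder x)
    (S : Set Γ) (hS : Subgroup.closure S = ⊤) (m : Γ → ℕ) :
    ∃ N : Subgroup Γ, N.Normal ∧ N.FiniteIndex ∧ ∀ (K : Type) [LinearOrder K]
      (ρ : Γ →* Equiv.Perm K), (∀ s ∈ S, ∃ C : Fin (m s) → Set K, (∀ x, ∃ j, x ∈ C j) ∧
        ∀ j, Good (ρ s) (C j)) → ∀ g ∈ N, ρ g = 1 := by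
  by_contra hcon
  have h1 : ∀ N : {N : Subgroup Γ // N.Normal ∧ N.FiniteIndex}, ∃ (K : Type) (_ : LinearOrder K)
      (ρ : Γ →* Equiv.Perm K), (∀ s ∈ S, ∃ C : Fin (m s) → Set K, (∀ x, ∃ j, x ∈ C j) ∧
        ∀ j, Good (ρ s) (C j)) ∧ ∃ g ∈ N.1, ρ g ≠ 1 := by
    intro N
    by_contra h2
    apply hcon
    refine ⟨N.1, N.2.1, N.2.2, ?_⟩
    intro K _ ρ hρ g hg
    by_contra h3
    exact h2 ⟨K, inferInstance, ρ, hρ, g, hg, h3⟩
  choose X iX ρ hρ g hg hne using h1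
  have hdir : IsDirected {N : Subgroup Γ // N.Normal ∧ N.FiniteIndex} (fun a b => a ≥ b) := by
    refine ⟨?_⟩
    rintro ⟨A, hA1, hA2⟩ ⟨B, hB1, hB2⟩
    refine ⟨⟨A ⊓ B, inferInstance, inferInstance⟩, ?_, ?_⟩
    · show A ⊓ B ≤ A
      exact inf_le_left
    · show A ⊓ B ≤ B
      exact inf_le_right
  have : Nonempty {N : Subgroup Γ // N.Normal ∧ N.FiniteIndex} :=
    ⟨⟨⊤, inferInstance, inferInstance⟩⟩
  let U : Ultrafilter {N : Subgroup Γ // N.Normal ∧ N.FiniteIndex} := Ultrafilter.of Filter.atBot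
  have hU : ∀ N0 : {N : Subgroup Γ // N.Normal ∧ N.FiniteIndex},
      ∀ᶠ N in (U : Filter _), N ≤ N0 :=
    fun N0 => (Ultrafilter.of_le Filter.atBot) (Filter.eventually_le_atBot N0)
  let _ := iX
  have hX : ∀ i, Nonempty (X i) := by
    intro i
    by_contra h2
    rw [not_nonempty_iff] at h2
    apply hne i
    ext x
    exact isEmptyElim x
  have hpw : ∀ γ : Γ, PW (act U ρ γ) := by
    have h2 : Subgroup.closure S ≤ (PWG (UP U X)).comap (act U ρ) := by
      rw [Subgroup.closure_le]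
      intro s hs
      obtain ⟨C, hC1, hC2⟩ := exists_pieces U ρ (m s) s (fun i => hρ i s hs)
      exact ⟨Set.range C, Set.finite_range C, fun x => by
        obtain ⟨j, hj⟩ := hC1 x
        exact ⟨C j, ⟨j, rfl⟩, hj⟩, by
        rintro _ ⟨j, rfl⟩
        exact hC2 j⟩
    rw [hS] at h2
    exact fun γ => h2 (Subgroup.mem_top γ)
  have hF : FPB (act U ρ).range := main (UP U X) (act U ρ).range (by
    rintro _ ⟨γ, rfl⟩
    exact hpw γ)
  have hfin : Finite (act U ρ).rangeRestrict.range := hF Γ hΓ ht (act U ρ).rangeRestrict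
  have hker : (act U ρ).ker.FiniteIndex := by
    rw [← MonoidHom.ker_rangeRestrict]
    exact Subgroup.finiteIndex_ker _
  have hΓfg : Group.FG Γ := by
    obtain ⟨n, φ, hφ, -⟩ := hΓ
    exact Group.fg_of_surjective hφ
  have hfg : (act U ρ).ker.FG := (Group.fg_iff_subgroup_fg _).1 (Subgroup.fg_of_index_ne_zero _)
  obtain ⟨T, hT⟩ := hfg
  have h3 : ∀ᶠ i in (U : Filter _), ∀ t ∈ T, ρ i t = 1 := by
    rw [Filter.eventually_all_finset]
    intro t ht'
    apply act_eq_one U ρ hX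
    have h4 : t ∈ (act U ρ).ker := by
      rw [← hT]
      exact Subgroup.subset_closure ht'
    exact h4
  obtain ⟨i, hi1, hi2⟩ := ((hU ⟨(act U ρ).ker, inferInstance, hker⟩).and h3).exists
  apply hne i
  have h4 : (act U ρ).ker ≤ (ρ i).ker := by
    rw [← hT, Subgroup.closure_le]
    intro t ht'
    exact hi2 t ht'
  exact h4 (hi1 (hg i))

section img

variable {K : Type} [LinearOrder K]

/-- the convexity of the images is automatic for groups -/
theorem good_inter (g : Equiv.Perm K) (C C' : Set K) (hC : C.OrdConnected)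
    (hC' : C'.OrdConnected) (h1 : MonotoneOn g C ∨ AntitoneOn g C)
    (h2 : MonotoneOn (g⁻¹ : Equiv.Perm K) C' ∨ AntitoneOn (g⁻¹ : Equiv.Perm K) C') :
    Good g {x | x ∈ C ∧ g x ∈ C'} := by
  have k : ∀ {K' : Type} [LinearOrder K'] (g g' : K' → K') (C C' : Set K') (_ : C.OrdConnected)
      (_ : C'.OrdConnected) (_ : MonotoneOn g C ∨ AntitoneOn g C) (_ : ∀ x, g' (g x) = x),
      {x | x ∈ C ∧ g x ∈ C'}.OrdConnected := by
    intro K' _ g g' C C' hC hC' h1 _
    refine ⟨?_⟩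
    rintro x ⟨hx1, hx2⟩ z ⟨hz1, hz2⟩ y hy
    have hyC := hC.out hx1 hz1 hy
    refine ⟨hyC, ?_⟩
    rcases h1 with h1 | h1
    · exact hC'.out hx2 hz2 ⟨h1 hx1 hyC hy.1, h1 hyC hz1 hy.2⟩
    · exact hC'.out hz2 hx2 ⟨h1 hyC hz1 hy.2, h1 hx1 hyC hy.1⟩
  refine ⟨k g g.symm C C' hC hC' h1 (fun x => g.symm_apply_apply x), ?_, ?_⟩
  · have h3 : g '' {x | x ∈ C ∧ g x ∈ C'} = {x | x ∈ C' ∧ (g⁻¹ : Equiv.Perm K) x ∈ C} := by
      ext x
      constructor
      · rintro ⟨y, ⟨hy1, hy2⟩, rfl⟩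
        exact ⟨hy2, by simpa using hy1⟩
      · rintro ⟨hx1, hx2⟩
        exact ⟨(g⁻¹ : Equiv.Perm K) x, ⟨hx2, by simpa using hx1⟩, by simp⟩
    rw [h3]
    exact k (g⁻¹ : Equiv.Perm K) g C' C hC' hC h2 (fun x => by simp)
  · rcases h1 with h1 | h1
    · exact Or.inl ((h1.mono (fun x hx => hx.1)).strictMonoOn_of_injOn g.injective.injOn)
    · exact Or.inr ((h1.mono (fun x hx => hx.1)).strictAntiOn_of_injOn g.injective.injOn)

end img

/-- **Families.** -/
theorem family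
    (main : ∀ (K : Type) [LinearOrder K] (G : Subgroup (Equiv.Perm K)),
      (∀ g ∈ G, ∃ P : Set (Set K), P.Finite ∧ (∀ x, ∃ C ∈ P, x ∈ C) ∧ ∀ C ∈ P, Good g C) → FPB G)
    (B : Type) (X : B → Type) [∀ b, LinearOrder (X b)] (G : Subgroup (∀ b, Equiv.Perm (X b)))
    (hG : ∀ g ∈ G, ∃ m : ℕ, ∀ b, ∃ C : Fin m → Set (X b), (∀ x, ∃ j, x ∈ C j) ∧
      ∀ j, (C j).OrdConnected ∧ (MonotoneOn (g b) (C j) ∨ AntitoneOn (g b) (C j))) : FPB G := by
  intro Γ _ hΓ ht f
  choose m hG2 using hG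
  let ρ : ∀ b : B, Γ →* Equiv.Perm (X b) := fun b =>
    (Pi.evalMonoidHom (fun b => Equiv.Perm (X b)) b).comp (G.subtype.comp f)
  have hρ : ∀ (b : B) (γ : Γ), ρ b γ = (f γ).1 b := fun _ _ => rfl
  obtain ⟨N, hN, hNf, h⟩ := uniform main Γ hΓ ht Set.univ (by simp)
    (fun γ => m _ (f γ).2 * m _ (f γ⁻¹).2)
  have hNker : N ≤ f.ker := by
    intro γ hγ
    rw [MonoidHom.mem_ker]
    apply Subtype.ext
    funext b
    have h1 := h (X b) (ρ b) (by
      intro s _
      obtain ⟨C, hC1, hC2⟩ := hG2 _ (f s).2 b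
      obtain ⟨C', hC1', hC2'⟩ := hG2 _ (f s⁻¹).2 b
      refine ⟨fun j => {x | x ∈ C (finProdFinEquiv.symm j).1 ∧
        ρ b s x ∈ C' (finProdFinEquiv.symm j).2}, ?_, ?_⟩
      · intro x
        obtain ⟨j, hj⟩ := hC1 x
        obtain ⟨k, hk⟩ := hC1' (ρ b s x)
        exact ⟨finProdFinEquiv (j, k), by simpa using ⟨hj, hk⟩⟩
      · intro j
        refine good_inter (ρ b s) _ _ (hC2 _).1 (hC2' _).1 (hC2 _).2 ?_
        have h5 := (hC2' (finProdFinEquiv.symm j).2).2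
        rw [← hρ, map_inv] at h5
        exact h5) γ hγ
    exact h1
  have hfi : f.ker.FiniteIndex := Subgroup.finiteIndex_of_le hNker
  exact Finite.of_equiv _ (QuotientGroup.quotientKerEquivRange f).toEquiv

/-- one linear order -/
theorem single
    (main : ∀ (K : Type) [LinearOrder K] (G : Subgroup (Equiv.Perm K)),
      (∀ g ∈ G, ∃ P : Set (Set K), P.Finite ∧ (∀ x, ∃ C ∈ P, x ∈ C) ∧ ∀ C ∈ P, Good g C) → FPB G)
    (K : Type) [LinearOrder K] (G : Subgroup (Equiv.Perm K))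
    (hG : ∀ g ∈ G, ∃ P : Set (Set K), P.Finite ∧ ⋃₀ P = Set.univ ∧
      ∀ C ∈ P, C.OrdConnected ∧ (MonotoneOn g C ∨ AntitoneOn g C)) : FPB G := by
  refine main K G ?_
  intro g hg
  obtain ⟨P, hP, hPc, hP2⟩ := hG g hg
  obtain ⟨Q, hQ, hQc, hQ2⟩ := hG g⁻¹ (G.inv_mem hg)
  refine ⟨Set.image2 (fun C C' => {x | x ∈ C ∧ g x ∈ C'}) P Q, hP.image2 _ hQ, ?_, ?_⟩
  · intro x
    have h1 : x ∈ ⋃₀ P := by rw [hPc]; trivial
    have h2 : g x ∈ ⋃₀ Q := by rw [hQc]; trivial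
    obtain ⟨C, hC, hxC⟩ := h1
    obtain ⟨C', hC', hxC'⟩ := h2
    exact ⟨_, ⟨C, hC, C', hC', rfl⟩, hxC, hxC'⟩
  · rintro _ ⟨C, hC, C', hC', rfl⟩
    exact good_inter g C C' (hP2 C hC).1 (hQ2 C' hC').1 (hP2 C hC).2 (hQ2 C' hC').2

end Vale.Agent.P192.PMUnif
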