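import Vale.Agent.P192.H826.Ray

/-!
# P192: arbitrary rays: sections along a ray and off a ray, the groupoid of a ray
-/

namespace Vale.Agent.P192

universe u v w

/-- the shift of a ray -/
def shf {Y : Type v} (ξ : ℕ → Y) : ℕ → Y := fun n => ξ (n + 1)

namespace SS

variable {T : Type u} {Y : Type v} [Group T] (S : SS T Y)

/-! ### the action on rays -/

/-- the section of `g` after `n` letters of the ray `ξ` -/
def st (ξ : ℕ → Y) : ℕ → T → T
  | 0, g => g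
  | n + 1, g => S.sec (st ξ n g) (ξ n)

/-- the image of a ray -/
def ract (g : T) (ξ : ℕ → Y) : ℕ → Y := fun n => S.σ (S.st ξ n g) (ξ n)

theorem st_zero (ξ : ℕ → Y) (g : T) : S.st ξ 0 g = g := rfl

theorem st_succ (ξ : ℕ → Y) (n : ℕ) (g : T) :
    S.st ξ (n + 1) g = S.sec (S.st ξ n g) (ξ n) := rfl

theorem st_one (ξ : ℕ → Y) (n : ℕ) : S.st ξ n 1 = 1 := by
  induction n with
  | zero => rfl
  | succ n ih => rw [S.st_succ, ih, S.sec_one]

theorem st_mul (ξ : ℕ → Y) (n : ℕ) (g h : T) :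
    S.st ξ n (g * h) = S.st (S.ract h ξ) n g * S.st ξ n h := by
  induction n with
  | zero => rfl
  | succ n ih =>
    rw [S.st_succ, ih, S.sec_mul]
    rfl

theorem ract_zero (g : T) (ξ : ℕ → Y) : S.ract g ξ 0 = S.σ g (ξ 0) := rfl

theorem ract_one (ξ : ℕ → Y) : S.ract 1 ξ = ξ := by
  funext n
  change S.σ (S.st ξ n 1) (ξ n) = ξ n
  rw [S.st_one, map_one]; rfl

theorem ract_mul (g h : T) (ξ : ℕ → Y) : S.ract (g * h) ξ = S.ract g (S.ract h ξ) := by
  funext n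
  change S.σ (S.st ξ n (g * h)) (ξ n) = _
  rw [S.st_mul, map_mul]
  rfl

theorem st_inv (ξ : ℕ → Y) (n : ℕ) (g : T) :
    S.st (S.ract g ξ) n g⁻¹ = (S.st ξ n g)⁻¹ := by
  have h := S.st_mul ξ n g⁻¹ g
  rw [inv_mul_cancel, S.st_one] at h
  exact (inv_eq_of_mul_eq_one_left h.symm).symm

theorem ract_inv (g : T) (ξ : ℕ → Y) : S.ract g⁻¹ (S.ract g ξ) = ξ := by
  rw [← S.ract_mul, inv_mul_cancel, S.ract_one]

theorem ract_inv' (g : T) (ξ : ℕ → Y) : S.ract g (S.ract g⁻¹ ξ) = ξ := by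
  rw [← S.ract_mul, mul_inv_cancel, S.ract_one]

theorem st_shf (ξ : ℕ → Y) (n : ℕ) (g : T) :
    S.st (shf ξ) n (S.sec g (ξ 0)) = S.st ξ (n + 1) g := by
  induction n with
  | zero => rfl
  | succ n ih => rw [S.st_succ, ih]; rfl

theorem ract_shf (g : T) (ξ : ℕ → Y) :
    S.ract (S.sec g (ξ 0)) (shf ξ) = shf (S.ract g ξ) := by
  funext n
  change S.σ (S.st (shf ξ) n (S.sec g (ξ 0))) (shf ξ n) = _
  rw [S.st_shf]
  rfl

/-! ### sections off a ray -/

/-- the sections of `g` off the ray `ξ` -/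
def off (ξ : ℕ → Y) (g : T) : Set T := {k | ∃ n y', y' ≠ ξ n ∧ k = S.sec (S.st ξ n g) y'}

theorem off_one (ξ : ℕ → Y) : S.off ξ 1 ⊆ {1} := by
  rintro _ ⟨n, y', _, rfl⟩
  rw [S.st_one, S.sec_one]; rfl

theorem off_mul (ξ : ℕ → Y) (g h : T) :
    S.off ξ (g * h) ⊆ Set.image2 (fun a b => a * b) (S.off (S.ract h ξ) g) (S.off ξ h) := by
  rintro _ ⟨n, y', hy', rfl⟩
  rw [S.st_mul, S.sec_mul]
  refine ⟨_, ⟨n, _, ?_, rfl⟩, _, ⟨n, y', hy', rfl⟩, rfl⟩
  intro h2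
  exact hy' ((S.σ (S.st ξ n h)).injective h2)

theorem off_inv (ξ : ℕ → Y) (g : T) :
    S.off (S.ract g ξ) g⁻¹ ⊆ (fun a => a⁻¹) '' (S.off ξ g) := by
  rintro _ ⟨n, y', hy', rfl⟩
  rw [S.st_inv, S.sec_inv]
  refine ⟨_, ⟨n, _, ?_, rfl⟩, rfl⟩
  intro h2
  apply hy'
  have h3 : S.σ (S.st ξ n g) (S.σ (S.st ξ n g)⁻¹ y') = S.σ (S.st ξ n g) (ξ n) := by rw [h2]
  rw [← Equiv.Perm.mul_apply, ← map_mul, mul_inv_cancel, map_one, Equiv.Perm.one_apply] at h3
  exact h3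

theorem off_sec_subset (ξ : ℕ → Y) (g : T) : S.off (shf ξ) (S.sec g (ξ 0)) ⊆ S.off ξ g := by
  rintro _ ⟨n, y', hy', rfl⟩
  rw [S.st_shf]
  exact ⟨n + 1, y', hy', rfl⟩

theorem off_subset (ξ : ℕ → Y) (g : T) :
    S.off ξ g ⊆ (Set.range (S.sec g)) ∪ S.off (shf ξ) (S.sec g (ξ 0)) := by
  rintro _ ⟨n, y', hy', rfl⟩
  cases n with
  | zero => exact Or.inl ⟨y', rfl⟩
  | succ n =>
    right
    refine ⟨n, y', hy', ?_⟩
    rw [S.st_shf]

theorem off_finite_of_sec [Finite Y] (ξ : ℕ → Y) (g : T)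
    (h : (S.off (shf ξ) (S.sec g (ξ 0))).Finite) : (S.off ξ g).Finite :=
  ((Set.finite_range (S.sec g)).union h).subset (S.off_subset ξ g)

/-- elements with finitely many sections off each ray -/
def finR : Subgroup T where
  carrier := {g | ∀ ξ, (S.off ξ g).Finite}
  one_mem' := fun ξ => (Set.finite_singleton (1 : T)).subset (S.off_one ξ)
  mul_mem' := fun {a b} ha hb ξ => ((ha _).image2 _ (hb ξ)).subset (S.off_mul ξ a b)
  inv_mem' := fun {a} ha ξ => by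
    have h := S.off_inv (S.ract a⁻¹ ξ) a
    rw [S.ract_inv'] at h
    exact ((ha _).image _).subset h

theorem mem_finR {g : T} : g ∈ S.finR ↔ ∀ ξ, (S.off ξ g).Finite := Iff.rfl

theorem finR_of_sec [Finite Y] {g : T} (h : ∀ y, S.sec g y ∈ S.finR) : g ∈ S.finR :=
  fun ξ => S.off_finite_of_sec ξ g (h (ξ 0) _)

theorem finR_sec {g : T} (hg : g ∈ S.finR) (y : Y) : S.sec g y ∈ S.finR := by
  intro ξ
  let η : ℕ → Y := fun n => Nat.casesOn n y ξ
  have h1 : shf η = ξ := rfl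
  have h2 : η 0 = y := rfl
  have := (hg η).subset (S.off_sec_subset η g)
  rwa [h1, h2] at this

/-- finite-state elements have finitely many sections off each ray -/
theorem fs_le_finR : S.fs ≤ S.finR := by
  intro g hg ξ
  obtain ⟨F, hF, hgF, hFc⟩ := S.mem_fs_iff.1 hg
  refine hF.subset ?_
  have hst : ∀ n, S.st ξ n g ∈ F := by
    intro n
    induction n with
    | zero => exact hgF
    | succ n ih => exact hFc _ ih _
  rintro _ ⟨n, y', _, rfl⟩
  exact hFc _ (hst n) _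

/-! ### the groupoid of the rays -/

/-- the elements with finitely many sections off the ray `ξ`, all of them in `H` -/
def Vr (H : Subgroup T) (ξ : ℕ → Y) : Set T := {g | S.off ξ g ⊆ H ∧ (S.off ξ g).Finite}

theorem Vr_one (H : Subgroup T) (ξ : ℕ → Y) : (1 : T) ∈ S.Vr H ξ := by
  refine ⟨(S.off_one ξ).trans ?_, (Set.finite_singleton (1 : T)).subset (S.off_one ξ)⟩
  rintro _ rfl
  exact one_mem _

theorem Vr_mul {H : Subgroup T} {ξ : ℕ → Y} {g g' : T} (hg : g ∈ S.Vr H ξ)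
    (hg' : g' ∈ S.Vr H (S.ract g ξ)) : g' * g ∈ S.Vr H ξ := by
  refine ⟨(S.off_mul ξ g' g).trans ?_, (hg'.2.image2 _ hg.2).subset (S.off_mul ξ g' g)⟩
  rintro _ ⟨a, ha, b, hb, rfl⟩
  exact mul_mem (hg'.1 ha) (hg.1 hb)

theorem Vr_inv {H : Subgroup T} {ξ : ℕ → Y} {g : T} (hg : g ∈ S.Vr H ξ) :
    g⁻¹ ∈ S.Vr H (S.ract g ξ) := by
  refine ⟨(S.off_inv ξ g).trans ?_, (hg.2.image _).subset (S.off_inv ξ g)⟩
  rintro _ ⟨a, ha, rfl⟩
  exact inv_mem (hg.1 ha)

theorem Vr_sec {H : Subgroup T} {ξ : ℕ → Y} {g : T} (hg : g ∈ S.Vr H ξ) :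
    S.sec g (ξ 0) ∈ S.Vr H (shf ξ) :=
  ⟨(S.off_sec_subset ξ g).trans hg.1, hg.2.subset (S.off_sec_subset ξ g)⟩

theorem Vr_sec' {H : Subgroup T} {ξ : ℕ → Y} {g : T} (hg : g ∈ S.Vr H ξ) {y' : Y}
    (h : y' ≠ ξ 0) : S.sec g y' ∈ H := hg.1 ⟨0, y', h, rfl⟩

theorem Vr_mono {H K : Subgroup T} (h : H ≤ K) (ξ : ℕ → Y) : S.Vr H ξ ⊆ S.Vr K ξ :=
  fun _ hg => ⟨fun _ hk => h (hg.1 hk), hg.2⟩

/-- a subgroup closed under sections, with finitely many sections off each ray, and in the class -/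
structure GoodR (H : Subgroup T) : Prop where
  closed : ∀ h ∈ H, ∀ y, S.sec h y ∈ H
  fin : H ≤ S.finR
  fpb : FPB H

theorem GoodF.goodR {S : SS T Y} {H : Subgroup T} (hH : S.GoodF H) : S.GoodR H where
  closed := hH.closed
  fin := hH.fs.trans S.fs_le_finR
  fpb := hH.fpb

theorem st_mem {H : Subgroup T} (hc : ∀ h ∈ H, ∀ y, S.sec h y ∈ H) (ξ : ℕ → Y) (n : ℕ) {h : T}
    (hh : h ∈ H) : S.st ξ n h ∈ H := by
  induction n with
  | zero => exact hh
  | succ n ih => exact hc _ ih _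

theorem H_sub_Vr {H : Subgroup T} (hc : ∀ h ∈ H, ∀ y, S.sec h y ∈ H) (hfin : H ≤ S.finR)
    (ξ : ℕ → Y) {h : T} (hh : h ∈ H) : h ∈ S.Vr H ξ := by
  refine ⟨?_, hfin hh ξ⟩
  rintro _ ⟨n, y', _, rfl⟩
  exact hc _ (S.st_mem hc ξ n hh) _

theorem up_sub_Vr [Finite Y] {H : Subgroup T} (hc : ∀ h ∈ H, ∀ y, S.sec h y ∈ H)
    (hfin : H ≤ S.finR) (ξ : ℕ → Y) {h : T} (hh : h ∈ S.up H) : h ∈ S.Vr H ξ := by
  refine ⟨?_, S.finR_of_sec (fun y => hfin (hh y)) ξ⟩
  refine (S.off_subset ξ h).trans ?_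
  apply Set.union_subset
  · rintro _ ⟨y, rfl⟩
    exact hh y
  · exact (S.H_sub_Vr hc hfin (shf ξ) (hh (ξ 0))).1

/-- an element of `Vr H ξ` has finitely many sections off every ray -/
theorem Vr_sub_finR [Finite Y] {H : Subgroup T} (hfin : H ≤ S.finR) {ξ : ℕ → Y} {g : T}
    (hg : g ∈ S.Vr H ξ) : g ∈ S.finR := by
  have key : ∀ (n : ℕ) (ξ η : ℕ → Y) (g : T), g ∈ S.Vr H ξ → ξ n ≠ η n →
      (S.off η g).Finite := by
    intro n
    induction n with
    | zero =>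
      intro ξ η g hg hn
      exact S.off_finite_of_sec η g (hfin (S.Vr_sec' hg hn.symm) _)
    | succ n ih =>
      intro ξ η g hg hn
      apply S.off_finite_of_sec
      by_cases h0 : η 0 = ξ 0
      · rw [h0]
        exact ih (shf ξ) (shf η) _ (S.Vr_sec hg) hn
      · exact hfin (S.Vr_sec' hg h0) _
  intro η
  by_cases h : ξ = η
  · subst h
    exact hg.2
  · obtain ⟨n, hn⟩ := Function.ne_iff.1 h
    exact key n ξ η g hg hn

/-! ### the stabilizer of a ray -/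

/-- the group of the elements of `Vr H ξ` fixing the ray `ξ` -/
def rs (H : Subgroup T) (ξ : ℕ → Y) : Subgroup T where
  carrier := {g | g ∈ S.Vr H ξ ∧ S.ract g ξ = ξ}
  one_mem' := ⟨S.Vr_one H ξ, S.ract_one ξ⟩
  mul_mem' := by
    intro a b ha hb
    refine ⟨S.Vr_mul hb.1 ?_, ?_⟩
    · rw [hb.2]; exact ha.1
    · rw [S.ract_mul, hb.2, ha.2]
  inv_mem' := by
    intro a ha
    have h1 := S.Vr_inv ha.1
    rw [ha.2] at h1
    refine ⟨h1, ?_⟩
    have h2 := S.ract_inv a ξ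
    rwa [ha.2] at h2

theorem rs_σ {H : Subgroup T} {ξ : ℕ → Y} {g : T} (hg : g ∈ S.rs H ξ) (n : ℕ) :
    S.σ (S.st ξ n g) (ξ n) = ξ n := congrFun hg.2 n

open Classical in
/-- one level of the ray -/
noncomputable def rsHom (H : Subgroup T) (ξ : ℕ → Y) (k : ℕ) : S.rs H ξ →* Wr H Y where
  toFun := fun g => ⟨S.σ (S.st ξ k g.1), fun y' =>
    if h : y' = ξ k then 1 else ⟨S.sec (S.st ξ k g.1) y', g.2.1.1 ⟨k, y', h, rfl⟩⟩⟩
  map_one' := by
    ext y'
    · simp [S.st_one]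
    · by_cases h : y' = ξ k
      · simp [h]
      · simp only [dif_neg h, Wr.one_f, Subgroup.coe_one]
        simp [S.st_one, S.sec_one]
  map_mul' := fun a b => by
    have hab : S.st ξ k (a.1 * b.1) = S.st ξ k a.1 * S.st ξ k b.1 := by
      rw [S.st_mul, b.2.2]
    ext y'
    · change (S.σ (S.st ξ k (a.1 * b.1))) _ = (S.σ (S.st ξ k a.1) * S.σ (S.st ξ k b.1)) _
      rw [hab, map_mul]
    · by_cases h : y' = ξ k
      · have h2 : S.σ (S.st ξ k b.1) y' = ξ k := by rw [h]; exact S.rs_σ b.2 k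
        simp only [Wr.mul_f, dif_pos h, dif_pos h2, mul_one]
      · have h2 : ¬ S.σ (S.st ξ k b.1) y' = ξ k := by
          intro h3
          exact h ((S.σ (S.st ξ k b.1)).injective (h3.trans (S.rs_σ b.2 k).symm))
        simp only [Wr.mul_f, dif_neg h, dif_neg h2]
        change S.sec (S.st ξ k (a.1 * b.1)) y' =
          S.sec (S.st ξ k a.1) (S.σ (S.st ξ k b.1) y') * S.sec (S.st ξ k b.1) y'
        rw [hab, S.sec_mul]

theorem rsHom_eq_one {H : Subgroup T} {ξ : ℕ → Y} {k : ℕ} {g : S.rs H ξ}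
    (h : S.rsHom H ξ k g = 1) : S.σ (S.st ξ k g.1) = 1 ∧
      ∀ y', y' ≠ ξ k → S.sec (S.st ξ k g.1) y' = 1 := by
  classical
  refine ⟨congrArg Wr.p h, fun y' hy' => ?_⟩
  have h2 := congrArg (fun w : Wr H Y => ((w.f y' : H) : T)) h
  simp only [rsHom, MonoidHom.coe_mk, OneHom.coe_mk, dif_neg hy', Wr.one_f,
    Subgroup.coe_one] at h2
  exact h2

theorem rsHom_finite [Finite Y] (H : Subgroup T) (ξ : ℕ → Y) (g : S.rs H ξ) :
    (Set.range (fun k => S.rsHom H ξ k g)).Finite := by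
  classical
  let F : Set H := Subtype.val ⁻¹' (insert 1 (S.off ξ g.1))
  have hF : F.Finite := (g.2.1.2.insert 1).preimage Subtype.val_injective.injOn
  have hpi : {f : Y → H | ∀ i, f i ∈ F}.Finite := Set.Finite.pi' (fun _ => hF)
  refine ((Set.finite_univ (α := Equiv.Perm Y)).image2 (fun p f => (⟨p, f⟩ : Wr H Y))
    hpi).subset ?_
  rintro _ ⟨k, rfl⟩
  refine ⟨_, Set.mem_univ (S.σ (S.st ξ k g.1)), (S.rsHom H ξ k g).f, ?_, rfl⟩
  intro y'
  by_cases h : y' = ξ k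
  · simp only [rsHom, MonoidHom.coe_mk, OneHom.coe_mk, dif_pos h]
    exact Set.mem_insert _ _
  · simp only [rsHom, MonoidHom.coe_mk, OneHom.coe_mk, dif_neg h]
    exact Set.mem_insert_of_mem _ ⟨k, y', h, rfl⟩

theorem fpb_rs [Finite Y] (hf : S.Faithful) {H : Subgroup T} (hH : FPB H) (ξ : ℕ → Y) :
    FPB (S.rs H ξ) := by
  apply fpb_of_local
  intro A hA
  classical
  let F : ℕ → (Subgroup.closure A →* Wr H Y) := fun k =>
    (S.rsHom H ξ k).comp (Subgroup.closure A).subtype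
  have hR : (Set.range F).Finite := by
    let G : (Subgroup.closure A →* Wr H Y) → (A → Wr H Y) := fun f a =>
      f ⟨a.1, Subgroup.subset_closure a.2⟩
    have hG : Function.Injective G := by
      intro f f' hff
      have key : ∀ x (hx : x ∈ Subgroup.closure A), f ⟨x, hx⟩ = f' ⟨x, hx⟩ := by
        intro x hx
        induction hx using Subgroup.closure_induction with
        | mem x hx => exact congrFun hff ⟨x, hx⟩
        | one =>
          exact (map_one f).trans (map_one f').symm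
        | mul x y hx hy h1 h2 =>
          have e1 : f ⟨x * y, mul_mem hx hy⟩ = f ⟨x, hx⟩ * f ⟨y, hy⟩ := map_mul f ⟨x, hx⟩ ⟨y, hy⟩
          have e2 : f' ⟨x * y, mul_mem hx hy⟩ = f' ⟨x, hx⟩ * f' ⟨y, hy⟩ :=
            map_mul f' ⟨x, hx⟩ ⟨y, hy⟩
          rw [e1, e2, h1, h2]
        | inv x hx h1 =>
          have e1 : f ⟨x⁻¹, inv_mem hx⟩ = (f ⟨x, hx⟩)⁻¹ := map_inv f ⟨x, hx⟩
          have e2 : f' ⟨x⁻¹, inv_mem hx⟩ = (f' ⟨x, hx⟩)⁻¹ := map_inv f' ⟨x, hx⟩
          rw [e1, e2, h1]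
      exact MonoidHom.ext (fun x => key x.1 x.2)
    have hAf : Finite A := hA
    refine Set.Finite.of_finite_image (f := G) ?_ hG.injOn
    refine (Set.Finite.pi' (fun a : A => S.rsHom_finite H ξ a.1)).subset ?_
    rintro _ ⟨_, ⟨k, rfl⟩, rfl⟩
    intro a
    exact ⟨k, rfl⟩
  have hRf : Finite (Set.range F) := hR
  let ρ : Subgroup.closure A →* (Set.range F → Wr H Y) :=
    { toFun := fun g r => r.1 g
      map_one' := by
        funext r
        exact map_one _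
      map_mul' := fun a b => by
        funext r
        exact map_mul _ _ _ }
  refine fpb_of_injective ρ ?_ (fpb_pi (fun _ => fpb_wr hH))
  rw [injective_iff_map_eq_one]
  intro g hg
  apply Subtype.ext
  apply Subtype.ext
  have h1 : ∀ k, S.σ (S.st ξ k g.1.1) = 1 ∧ ∀ y', y' ≠ ξ k → S.sec (S.st ξ k g.1.1) y' = 1 :=
    fun k => S.rsHom_eq_one (congrFun hg ⟨F k, k, rfl⟩)
  apply hf
  have key : ∀ (v : List Y) (k : ℕ), S.σ (S.secL (S.st ξ k g.1.1) v) = 1 := by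
    intro v
    induction v with
    | nil => exact fun k => (h1 k).1
    | cons y' v ih =>
      intro k
      change S.σ (S.secL (S.sec (S.st ξ k g.1.1) y') v) = 1
      by_cases hy : y' = ξ k
      · rw [hy, ← S.st_succ]
        exact ih (k + 1)
      · rw [(h1 k).2 y' hy]
        exact S.Kn_secL (n := 0) (one_mem _) v
  exact fun v => key v 0

end SS

end Vale.Agent.P192
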