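import Vale.Agent.P192.H663.Calc

/-!
# P192: almost automorphisms of rooted trees, the bounded depth
-/

namespace Vale.Agent.P192.AA

variable {Ω : Type} (r : ℕ → Setoid Ω)

/-- balls -/
def ball (x : Ω) (n : ℕ) : Set Ω := {y | r n x y}

/-- the standing assumptions -/
structure Tree : Prop where
  anti : ∀ n x y, r (n + 1) x y → r n x y
  fin : ∀ n, Finite (Quotient (r n))
  strict : ∀ n x, ∃ y, r n x y ∧ ¬ r (n + 1) x y

/-- `g` maps the ball of radius `n` at `x` onto the ball of radius `m` at `g x`, as an isomorphism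
of the trees of balls -/
def Gd (g : Equiv.Perm Ω) (x : Ω) (n m : ℕ) : Prop :=
  ∀ y, r n x y → ∀ k z, r (n + k) y z ↔ r (m + k) (g y) (g z)

variable {r} (hT : Tree r)

include hT

theorem Tree.anti_le {n m : ℕ} (h : n ≤ m) {x y : Ω} (hxy : r m x y) : r n x y := by
  induction m, h using Nat.le_induction with
  | base => exact hxy
  | succ m _ ih => exact ih (hT.anti m x y hxy)

theorem Tree.gd_restrict {g : Equiv.Perm Ω} {x y : Ω} {n m : ℕ} (h : Gd r g x n m)
    (hy : r n x y) (k : ℕ) : Gd r g y (n + k) (m + k) := by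
  intro y' hy' j z
  have h1 : r n x y' := (r n).trans hy (hT.anti_le (Nat.le_add_right n k) hy')
  have h2 := h y' h1 (k + j) z
  rw [← add_assoc, ← add_assoc] at h2
  exact h2

theorem Tree.gd_add {g : Equiv.Perm Ω} {x : Ω} {n m : ℕ} (h : Gd r g x n m) (k : ℕ) :
    Gd r g x (n + k) (m + k) :=
  hT.gd_restrict h ((r n).refl x) k

omit hT in
theorem gd_comp {g h : Equiv.Perm Ω} {x : Ω} {n m l : ℕ} (h1 : Gd r h x n m)
    (h2 : Gd r g (h x) m l) : Gd r (g * h) x n l := by
  intro y hy k z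
  have h3 := h1 y hy k z
  have h4 : r m (h x) (h y) := by
    have := (h1 x ((r n).refl x) 0 y).1 hy
    exact this
  have h5 := h2 (h y) h4 k (h z)
  exact h3.trans h5

omit hT in
theorem gd_inv {g : Equiv.Perm Ω} {x : Ω} {n m : ℕ} (h : Gd r g x n m) :
    Gd r g⁻¹ (g x) m n := by
  intro y hy k z
  have h1 : r n x (g⁻¹ y) := by
    have := (h x ((r n).refl x) 0 (g⁻¹ y)).2 (by simpa using hy)
    exact this
  have h2 := h (g⁻¹ y) h1 k (g⁻¹ z)
  simpa using h2.symm

omit hT in
theorem gd_one (x : Ω) (n : ℕ) : Gd r (1 : Equiv.Perm Ω) x n n := by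
  intro y _ k z
  exact Iff.rfl

/-- strictness -/
theorem Tree.lt_of {n m : ℕ} {x : Ω} (h : ∀ y, r n x y → r m x y) : m ≤ n := by
  by_contra hcon
  rw [not_le] at hcon
  obtain ⟨y, h1, h2⟩ := hT.strict n x
  exact h2 (hT.anti_le hcon (h y h1))

theorem Tree.gd_unique {g : Equiv.Perm Ω} {x : Ω} {n m m' : ℕ} (h : Gd r g x n m)
    (h' : Gd r g x n m') : m = m' := by
  have key : ∀ {m m' : ℕ}, Gd r g x n m → Gd r g x n m' → m' ≤ m := by
    intro m m' h h'
    refine hT.lt_of (x := g x) (fun y hy => ?_)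
    have h1 : r n x (g⁻¹ y) := (h x ((r n).refl x) 0 (g⁻¹ y)).2 (by simpa using hy)
    have h2 := (h' x ((r n).refl x) 0 (g⁻¹ y)).1 h1
    simpa using h2
  exact le_antisymm (key h' h) (key h h')

/-- shifts are constant -/
theorem Tree.gd_shift {g : Equiv.Perm Ω} {x : Ω} {n m n' m' : ℕ} (h : Gd r g x n m)
    (h' : Gd r g x n' m') : n + m' = n' + m := by
  rcases le_total n n' with hle | hle
  · obtain ⟨k, rfl⟩ := Nat.exists_eq_add_of_le hle
    have := hT.gd_unique (hT.gd_add h k) h'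
    omega
  · obtain ⟨k, rfl⟩ := Nat.exists_eq_add_of_le hle
    have := hT.gd_unique (hT.gd_add h' k) h
    omega

/-- no contraction -/
theorem Tree.no_contraction {g : Equiv.Perm Ω} (hg : IsOfFinOrder g) {x : Ω} {n d : ℕ}
    (h : Gd r g x n (n + d)) (hx : r n x (g x)) : d = 0 := by
  -- all powers are good
  have key : ∀ k : ℕ, Gd r (g ^ k) x n (n + k * d) ∧ r n x ((g ^ k) x) := by
    intro k
    induction k with
    | zero => exact ⟨by simpa using gd_one x n, by simp⟩
    | succ k ih =>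
      obtain ⟨ih1, ih2⟩ := ih
      have h1 : Gd r g ((g ^ k) x) (n + k * d) (n + d + k * d) := hT.gd_restrict h ih2 (k * d)
      refine ⟨?_, ?_⟩
      · rw [pow_succ']
        have h2 := gd_comp ih1 h1
        have e : n + d + k * d = n + (k + 1) * d := by ring
        rw [e] at h2
        exact h2
      · rw [pow_succ', Equiv.Perm.mul_apply]
        have h3 := (h x ((r n).refl x) 0 ((g ^ k) x)).1 ih2
        exact (r n).trans hx (hT.anti_le (Nat.le_add_right n d) h3)
  obtain ⟨k, hk, hk1⟩ := isOfFinOrder_iff_pow_eq_one.1 hg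
  have h1 := (key k).1
  rw [hk1] at h1
  have h2 := hT.gd_unique (gd_one x n) h1
  have h3 : k * d = 0 := by omega
  rcases Nat.mul_eq_zero.1 h3 with h4 | h4
  · omega
  · exact h4

end Vale.Agent.P192.AA
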