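import Vale.Agent.P192.H826.AA1

/-!
# P192: almost automorphisms of rooted trees, finitely generated periodic groups
-/

namespace Vale.Agent.P192.AA

variable {Ω : Type} {r : ℕ → Setoid Ω} {Γ : Type} [Group Γ] (ρ : Γ →* Equiv.Perm Ω) (S : Set Γ)
  (L : ℕ)

variable (r) in
/-- nonnegative paths -/
inductive Path (z : Ω) : Ω → ℕ → Prop
  | nil : Path z z 0
  | step {x : Ω} {d e : ℕ} (s : Γ) (hs : s ∈ S) (h : Path z x d)
      (hg : Gd r (ρ s) x (L + d) (L + e)) : Path z (ρ s x) e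

variable (r) in
/-- contraction -/
def R (y x : Ω) : Prop := ∃ γ : Γ, ρ γ y = x ∧ ∃ f, 1 ≤ f ∧ Gd r (ρ γ) y L (L + f)

variable (hT : Tree r) (c : ℕ) (hL : ∀ s ∈ S, ∀ x, ∃ m, m ≤ L + c ∧ Gd r (ρ s) x L m)

include hT

theorem R_trans {x y z : Ω} (h1 : R r ρ L x y) (h2 : R r ρ L y z) : R r ρ L x z := by
  obtain ⟨γ, rfl, f, hf, hg⟩ := h1
  obtain ⟨δ, rfl, f', hf', hg'⟩ := h2
  refine ⟨δ * γ, by rw [map_mul]; rfl, f + f', by omega, ?_⟩
  rw [map_mul]
  have h3 := hT.gd_add hg' f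
  have e : L + f' + f = L + (f + f') := by ring
  rw [e] at h3
  exact gd_comp hg h3

theorem R_irrefl (ht : ∀ γ : Γ, IsOfFinOrder γ) {x y : Ω} (h1 : R r ρ L x y)
    (h2 : r L x y) : False := by
  obtain ⟨γ, rfl, f, hf, hg⟩ := h1
  have h3 : IsOfFinOrder (ρ γ) := MonoidHom.isOfFinOrder ρ (ht γ)
  have := hT.no_contraction h3 hg h2
  omega

include hL

theorem last_time {z x : Ω} {d : ℕ} (h : Path r ρ S L z x d) (θ : ℕ) (hθ : θ < d) :
    ∃ y e, Path r ρ S L z y e ∧ e ≤ θ ∧ θ < e + c ∧ ∃ γ : Γ, ρ γ y = x ∧ ∃ f, d = e + f ∧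
      Gd r (ρ γ) y L (L + f) := by
  induction h with
  | nil => omega
  | @step x' d' e' s hs hp hg ih =>
    obtain ⟨m0, hm0, hg0⟩ := hL s hs x'
    have hsh := hT.gd_shift hg0 hg
    by_cases hd : d' ≤ θ
    · refine ⟨x', d', hp, hd, by omega, s, rfl, e' - d', by omega, ?_⟩
      have e : L + (e' - d') = m0 := by omega
      rw [e]
      exact hg0
    · obtain ⟨y, e, h1, h2, h3, γ, h4, f, h5, h6⟩ := ih (by omega)
      refine ⟨y, e, h1, h2, h3, s * γ, ?_, e' - e, by omega, ?_⟩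
      · rw [map_mul, Equiv.Perm.mul_apply, h4]
      · rw [map_mul]
        subst h4
        have h7 := hT.gd_add hg0 f
        have e1 : m0 + f = L + (e' - e) := by omega
        rw [e1] at h7
        exact gd_comp h6 h7

theorem exists_chain {z : Ω} (k : ℕ) : ∀ (x : Ω) (d : ℕ), Path r ρ S L z x d → k * c < d →
    ∃ t : Fin (k + 1) → Ω, (∀ i j, i < j → R r ρ L (t i) (t j)) ∧ t (Fin.last k) = x := by
  induction k with
  | zero =>
    intro x d _ _
    refine ⟨fun _ => x, ?_, rfl⟩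
    intro i j hij
    exact absurd hij (by omega)
  | succ k ih =>
    intro x d hp hd
    have hd' : k * c + c < d := by
      have : (k + 1) * c = k * c + c := by ring
      omega
    obtain ⟨y, e, h1, h2, h3, γ, h4, f, h5, h6⟩ := last_time ρ S L hT c hL hp (d - 1) (by omega)
    obtain ⟨t, ht1, ht2⟩ := ih y e h1 (by omega)
    have hyx : R r ρ L y x := ⟨γ, h4, f, by omega, h6⟩
    refine ⟨Fin.snoc (α := fun _ => Ω) t x, ?_, by simp⟩
    intro i j hij
    refine Fin.lastCases ?_ (fun j' => ?_) j (motive := fun j => i < j →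
      R r ρ L (Fin.snoc (α := fun _ => Ω) t x i) (Fin.snoc (α := fun _ => Ω) t x j)) hij
    · intro hi
      rw [Fin.snoc_last]
      obtain ⟨i', rfl⟩ : ∃ i' : Fin (k + 1), i = i'.castSucc :=
        ⟨⟨i.1, by have := Fin.lt_def.1 hi; simpa using this⟩, rfl⟩
      rw [Fin.snoc_castSucc]
      by_cases hil : i' = Fin.last k
      · rw [hil, ht2]
        exact hyx
      · have h8 : i' < Fin.last k := lt_of_le_of_ne (Fin.le_last i') hil
        have h9 := ht1 i' _ h8
        rw [ht2] at h9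
        exact R_trans ρ L hT h9 hyx
    · intro hi
      obtain ⟨i', rfl⟩ : ∃ i' : Fin (k + 1), i = i'.castSucc :=
        ⟨⟨i.1, by
          have h1 := Fin.lt_def.1 hi
          have h2 := j'.2
          simp only [Fin.val_castSucc] at h1
          omega⟩, rfl⟩
      rw [Fin.snoc_castSucc, Fin.snoc_castSucc]
      exact ht1 i' j' (by simpa using hi)

theorem path_bound (ht : ∀ γ : Γ, IsOfFinOrder γ) {z x : Ω} {d : ℕ} (h : Path r ρ S L z x d) :
    d ≤ Nat.card (Quotient (r L)) * c := by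
  by_contra hcon
  rw [not_le] at hcon
  obtain ⟨t, ht1, -⟩ := exists_chain ρ S L hT c hL _ x d h hcon
  have hfin := hT.fin L
  have hni : ¬ Function.Injective (fun i => (Quotient.mk (r L) (t i))) := by
    intro hinj
    have := Nat.card_le_card_of_injective _ hinj
    rw [Nat.card_eq_fintype_card, Fintype.card_fin] at this
    omega
  rw [Function.Injective] at hni
  push Not at hni
  obtain ⟨i, j, hij, hne⟩ := hni
  have hij' : r L (t i) (t j) := Quotient.exact hij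
  rcases lt_or_gt_of_ne hne with h1 | h1
  · exact R_irrefl ρ L hT ht (ht1 i j h1) hij'
  · exact R_irrefl ρ L hT ht (ht1 j i h1) ((r L).symm hij')

theorem all_good (hS : Subgroup.closure S = ⊤) (hSi : ∀ s ∈ S, s⁻¹ ∈ S) (γ : Γ) :
    ∀ x, ∃ d, (∃ z, Path r ρ S L z x d) ∧ ∃ m, Gd r (ρ γ) x (L + d) m := by
  have hmul : ∀ γ : Γ, ∀ s ∈ S, (∀ x, ∃ d, (∃ z, Path r ρ S L z x d) ∧
      ∃ m, Gd r (ρ γ) x (L + d) m) → ∀ x, ∃ d, (∃ z, Path r ρ S L z x d) ∧
      ∃ m, Gd r (ρ (γ * s)) x (L + d) m := by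
    intro γ s hs ih x
    obtain ⟨d1, ⟨z1, hp⟩, m, hm⟩ := ih (ρ s x)
    obtain ⟨m0, -, hg0⟩ := hL s hs x
    obtain ⟨m1, -, hg1⟩ := hL s⁻¹ (hSi s hs) (ρ s x)
    have hinv : Gd r (ρ s⁻¹) (ρ s x) m0 L := by
      rw [map_inv]
      exact gd_inv hg0
    have hsh := hT.gd_shift hinv hg1
    by_cases hc : m0 ≤ L + d1
    · refine ⟨L + d1 - m0, ⟨z1, ?_⟩, m, ?_⟩
      · have h1 : Gd r (ρ s⁻¹) (ρ s x) (L + d1) (L + (L + d1 - m0)) := by
          have h2 := hT.gd_add hg1 d1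
          have e : m1 + d1 = L + (L + d1 - m0) := by omega
          rw [e] at h2
          exact h2
        have h2 := Path.step s⁻¹ (hSi s hs) hp h1
        have e2 : ρ s⁻¹ (ρ s x) = x := by rw [map_inv]; simp
        rw [e2] at h2
        exact h2
      · rw [map_mul]
        have h2 := hT.gd_add hg0 (L + d1 - m0)
        have e : m0 + (L + d1 - m0) = L + d1 := by omega
        rw [e] at h2
        exact gd_comp h2 hm
    · refine ⟨0, ⟨x, Path.nil⟩, m + (m0 - (L + d1)), ?_⟩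
      rw [map_mul, add_zero]
      have h2 := hT.gd_add hm (m0 - (L + d1))
      have e : L + d1 + (m0 - (L + d1)) = m0 := by omega
      rw [e] at h2
      exact gd_comp hg0 h2
  have hmem : γ ∈ Subgroup.closure S := by rw [hS]; exact Subgroup.mem_top γ
  induction hmem using Subgroup.closure_induction_right with
  | one =>
    intro x
    exact ⟨0, ⟨x, Path.nil⟩, L + 0, by rw [map_one]; exact gd_one x _⟩
  | mul_right γ _ s hs ih => exact hmul γ s hs ih
  | mul_inv_cancel γ _ s hs ih => exact hmul γ s⁻¹ (hSi s hs) ih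

theorem good_depth (ht : ∀ γ : Γ, IsOfFinOrder γ) (hS : Subgroup.closure S = ⊤)
    (hSi : ∀ s ∈ S, s⁻¹ ∈ S) (γ : Γ) (x : Ω) :
    ∃ m, Gd r (ρ γ) x (L + Nat.card (Quotient (r L)) * c) m := by
  obtain ⟨d, ⟨z, hp⟩, m, hm⟩ := all_good ρ S L hT c hL hS hSi γ x
  have hd := path_bound ρ S L hT c hL ht hp
  obtain ⟨k, hk⟩ := Nat.exists_eq_add_of_le hd
  refine ⟨m + k, ?_⟩
  have h := hT.gd_add hm k
  rw [add_assoc, ← hk] at h
  exact h

end Vale.Agent.P192.AA
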