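import Vale.Agent.P192.H826.AA2
import Vale.Agent.P192.H260.Table

/-!
# P192: almost automorphisms of rooted trees, finitely presented periodic groups
-/

namespace Vale.Agent.P192.AA

open Classical

variable {Ω : Type} {r : ℕ → Setoid Ω}

theorem gd_image {g : Equiv.Perm Ω} {x : Ω} {n m : ℕ} (h : Gd r g x n m) :
    g '' ball r x n = ball r (g x) m := by
  ext z
  constructor
  · rintro ⟨y, hy, rfl⟩
    exact (h x ((r n).refl x) 0 y).1 hy
  · intro hz
    refine ⟨g⁻¹ z, ?_, by simp⟩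
    refine (h x ((r n).refl x) 0 (g⁻¹ z)).2 ?_
    rw [show g (g⁻¹ z) = z by simp]
    exact hz

/-- a perm preserving a set, extended by the identity -/
noncomputable def loc {N : Type} [Group N] (ρ : N →* Equiv.Perm Ω) (B : Set Ω)
    (h : ∀ γ x, ρ γ x ∈ B ↔ x ∈ B) : N →* Equiv.Perm Ω :=
  (Equiv.Perm.ofSubtype (p := fun x => x ∈ B)).comp
    { toFun := fun γ => (ρ γ).subtypePerm (h γ)
      map_one' := by
        ext y
        simp
      map_mul' := by
        intro a b
        ext y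
        simp
        rfl }

theorem loc_mem {N : Type} [Group N] (ρ : N →* Equiv.Perm Ω) (B : Set Ω)
    (h : ∀ γ x, ρ γ x ∈ B ↔ x ∈ B) (γ : N) {x : Ω} (hx : x ∈ B) : loc ρ B h γ x = ρ γ x := by
  change Equiv.Perm.ofSubtype ((ρ γ).subtypePerm (h γ)) x = ρ γ x
  rw [Equiv.Perm.ofSubtype_apply_of_mem _ hx]
  rfl

theorem loc_not {N : Type} [Group N] (ρ : N →* Equiv.Perm Ω) (B : Set Ω)
    (h : ∀ γ x, ρ γ x ∈ B ↔ x ∈ B) (γ : N) {x : Ω} (hx : x ∉ B) : loc ρ B h γ x = x := by
  change Equiv.Perm.ofSubtype ((ρ γ).subtypePerm (h γ)) x = x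
  rw [Equiv.Perm.ofSubtype_apply_of_not_mem _ hx]

variable (hT : Tree r)

include hT

/-- finitely generated periodic groups of almost automorphisms have a finite index subgroup
fixing all balls of some radius -/
theorem exists_fi {Γ : Type} [Group Γ] (ht : ∀ γ : Γ, IsOfFinOrder γ) (M : Set Γ) (hM : M.Finite)
    (hMi : ∀ s ∈ M, s⁻¹ ∈ M) (hMc : Subgroup.closure M = ⊤) (ρ : Γ →* Equiv.Perm Ω)
    (hρ : ∀ γ, ∃ n, ∀ x, ∃ m, Gd r (ρ γ) x n m) :
    ∃ n0 : ℕ, ∃ N : Subgroup Γ, N.FiniteIndex ∧ ∀ γ ∈ N, ∀ x, r n0 x (ρ γ x) ∧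
      Gd r (ρ γ) x n0 n0 := by
  choose n hn using hρ
  obtain ⟨L, hL⟩ := (hM.image n).bddAbove
  have h0 : ∀ s ∈ M, ∀ x, ∃ m, Gd r (ρ s) x L m := by
    intro s hs x
    obtain ⟨m, hm⟩ := hn s x
    obtain ⟨k, hk⟩ := Nat.exists_eq_add_of_le (hL ⟨s, hs, rfl⟩)
    refine ⟨m + k, ?_⟩
    rw [hk]
    exact hT.gd_add hm k
  have hbd : ∃ c, ∀ s ∈ M, ∀ x, ∃ m, m ≤ L + c ∧ Gd r (ρ s) x L m := by
    choose! m0 hm0 using h0
    have hf := hT.fin L
    have hfin : (Set.image2 (fun s (q : Quotient (r L)) => m0 s q.out) M Set.univ).Finite :=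
      hM.image2 _ Set.finite_univ
    obtain ⟨b, hb⟩ := hfin.bddAbove
    refine ⟨b, fun s hs x => ⟨m0 s (Quotient.mk (r L) x).out, ?_, ?_⟩⟩
    · exact (hb ⟨s, hs, Quotient.mk (r L) x, trivial, rfl⟩).trans (Nat.le_add_left _ _)
    · exact hT.gd_restrict (hm0 s hs (Quotient.mk (r L) x).out)
        (Quotient.exact (Quotient.out_eq _)) 0
  obtain ⟨c, hc⟩ := hbd
  set n0 := L + Nat.card (Quotient (r L)) * c with hn0
  have hgood : ∀ (γ : Γ) (x : Ω), ∃ m, Gd r (ρ γ) x n0 m :=
    fun γ x => good_depth ρ M L hT c hc ht hMc hMi γ x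
  have hle : ∀ (γ : Γ) (x : Ω) (m : ℕ), Gd r (ρ γ) x n0 m → m ≤ 2 * n0 := by
    intro γ x m h
    obtain ⟨m', h'⟩ := hgood γ⁻¹ (ρ γ x)
    rw [map_inv] at h'
    have := hT.gd_shift (gd_inv h) h'
    omega
  let 𝔉 : Set (Set Ω) := ⋃ k ∈ Set.Iic (2 * n0), Set.range (fun q : Quotient (r k) => ball r q.out k)
  have h𝔉 : 𝔉.Finite := by
    refine Set.Finite.biUnion (Set.finite_Iic _) ?_
    intro k _
    have := hT.fin k
    exact Set.finite_range _
  have h𝔉m : ∀ (x : Ω) (k : ℕ), k ≤ 2 * n0 → ball r x k ∈ 𝔉 := by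
    intro x k hk
    refine Set.mem_biUnion (show k ∈ Set.Iic (2 * n0) from hk) ⟨Quotient.mk (r k) x, ?_⟩
    have h1 : r k (Quotient.mk (r k) x).out x := Quotient.exact (Quotient.out_eq _)
    ext y
    exact ⟨fun h => (r k).trans ((r k).symm h1) h, fun h => (r k).trans h1 h⟩
  have hfq := hT.fin n0
  let act : MulAction Γ (Quotient (r n0) → Set Ω) :=
    { smul := fun γ b q => (ρ γ) '' (b q)
      one_smul := by
        intro b
        funext q
        change (ρ 1) '' (b q) = b q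
        rw [map_one]
        simp
      mul_smul := by
        intro γ δ b
        funext q
        change (ρ (γ * δ)) '' (b q) = (ρ γ) '' ((ρ δ) '' (b q))
        rw [map_mul, ← Set.image_comp]
        rfl }
  have hsm : ∀ (γ : Γ) (b : Quotient (r n0) → Set Ω) (q : Quotient (r n0)),
      (γ • b) q = (ρ γ) '' (b q) := fun _ _ _ => rfl
  let b0 : Quotient (r n0) → Set Ω := fun q => ball r q.out n0
  have horb : (MulAction.orbit Γ b0).Finite := by
    refine (Set.Finite.pi (fun _ : Quotient (r n0) => h𝔉)).subset ?_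
    rintro _ ⟨γ, rfl⟩
    rw [Set.mem_univ_pi]
    intro q
    change (ρ γ) '' (ball r q.out n0) ∈ 𝔉
    obtain ⟨m, hm⟩ := hgood γ q.out
    rw [gd_image hm]
    exact h𝔉m _ _ (hle γ _ m hm)
  refine ⟨n0, MulAction.stabilizer Γ b0, ?_, ?_⟩
  · have : Finite (MulAction.orbit Γ b0) := horb.to_subtype
    have : Finite (Γ ⧸ MulAction.stabilizer Γ b0) :=
      Finite.of_equiv _ (MulAction.orbitEquivQuotientStabilizer Γ b0)
    exact Subgroup.finiteIndex_of_finite_quotient
  · intro γ hγ x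
    have h1 : (ρ γ) '' (ball r (Quotient.mk (r n0) x).out n0)
        = ball r (Quotient.mk (r n0) x).out n0 := congrFun (MulAction.mem_stabilizer_iff.1 hγ) _
    have hx : r n0 (Quotient.mk (r n0) x).out x := Quotient.exact (Quotient.out_eq _)
    have h2 : ρ γ x ∈ ball r (Quotient.mk (r n0) x).out n0 := by
      rw [← h1]
      exact ⟨x, hx, rfl⟩
    have h3 : r n0 x (ρ γ x) := (r n0).trans ((r n0).symm hx) h2
    refine ⟨h3, ?_⟩
    obtain ⟨m, hm⟩ := hgood γ x
    have h4 : m = n0 := by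
      have h5 : ball r (ρ γ x) m = ball r (ρ γ x) n0 := by
        rw [← gd_image hm]
        have e1 : ball r x n0 = ball r (Quotient.mk (r n0) x).out n0 := by
          ext y
          exact ⟨fun h => (r n0).trans hx h, fun h => (r n0).trans ((r n0).symm hx) h⟩
        have e2 : ball r (ρ γ x) n0 = ball r (Quotient.mk (r n0) x).out n0 := by
          ext y
          exact ⟨fun h => (r n0).trans h2 h, fun h => (r n0).trans ((r n0).symm h2) h⟩
        rw [e1, e2, h1]
      refine le_antisymm ?_ ?_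
      · refine hT.lt_of (x := ρ γ x) (fun y hy => ?_)
        have : y ∈ ball r (ρ γ x) n0 := hy
        rw [← h5] at this
        exact this
      · refine hT.lt_of (x := ρ γ x) (fun y hy => ?_)
        have : y ∈ ball r (ρ γ x) m := hy
        rw [h5] at this
        exact this
    rw [h4] at hm
    exact hm

end Vale.Agent.P192.AA
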