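import Vale.Agent.P192.H826.AA3

/-!
# P192: almost automorphisms of rooted trees, main theorem
-/

namespace Vale.Agent.P192.AA

open Classical

variable {Ω : Type} {r : ℕ → Setoid Ω}

theorem finite_of_fi {Γ G : Type} [Group Γ] [Group G] (f : Γ →* G) (K : Subgroup Γ)
    [K.FiniteIndex] (h3 : (f '' (K : Set Γ)).Finite) : Finite f.range := by
  have hfq : Finite (Γ ⧸ K) := inferInstance
  have h4 : (f.range : Set G) ⊆
      ⋃ c : Γ ⧸ K, (fun y => f (Quotient.out c) * y) '' (f '' (K : Set Γ)) := by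
    rintro _ ⟨x, rfl⟩
    rw [Set.mem_iUnion]
    refine ⟨QuotientGroup.mk x, f ((Quotient.out (QuotientGroup.mk x : Γ ⧸ K))⁻¹ * x),
      ⟨_, ?_, rfl⟩, ?_⟩
    · have : (QuotientGroup.mk (Quotient.out (QuotientGroup.mk x : Γ ⧸ K)) : Γ ⧸ K)
        = QuotientGroup.mk x := Quotient.out_eq _
      exact QuotientGroup.eq.1 this
    · simp
  exact (Set.finite_iUnion (fun c => h3.image _)).subset h4

/-- **Almost automorphism groups.** -/
theorem fpb_aa (hT : Tree r) (G : Subgroup (Equiv.Perm Ω))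
    (hG : ∀ g ∈ G, ∃ n, ∀ x, ∃ m, Gd r g x n m)
    (hloc : ∀ (x : Ω) (n : ℕ) (H : Subgroup (Equiv.Perm Ω)),
      (∀ h ∈ H, (∀ z, ¬ r n x z → h z = z) ∧ (∀ k y z, r k y z ↔ r k (h y) (h z)) ∧
        ∃ g ∈ G, ∀ z, r n x z → h z = g z) → FPB H) : FPB G := by
  intro Γ _ hΓ ht f
  have := hΓ
  obtain ⟨M, hM, -, hMi, hMc, -⟩ := H260.exists_table Γ
  let ρ : Γ →* Equiv.Perm Ω := G.subtype.comp f
  obtain ⟨n0, N, hN, hN2⟩ := exists_fi hT ht M hM hMi hMc ρ (fun γ => hG _ (f γ).2)
  have hKfp : Group.IsFinitelyPresented N := fp_of_finiteIndex Γ N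
  have hKt : ∀ x : N, IsOfFinOrder x := by
    intro x
    exact (Submonoid.isOfFinOrder_coe (H := N.toSubmonoid) (x := x)).1 (ht x.1)
  let ρN : N →* Equiv.Perm Ω := ρ.comp N.subtype
  have hB : ∀ (x : Ω) (γ : N) (y : Ω), ρN γ y ∈ ball r x n0 ↔ y ∈ ball r x n0 := by
    intro x γ y
    have h1 := (hN2 γ.1 γ.2 y).1
    exact ⟨fun h => (r n0).trans h ((r n0).symm h1), fun h => (r n0).trans h h1⟩
  let τ : Quotient (r n0) → N →* Equiv.Perm Ω := fun q => loc ρN (ball r q.out n0) (hB _)
  have hfq := hT.fin n0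
  have hτ : ∀ q, FPB (τ q).range := by
    intro q
    refine hloc q.out n0 _ ?_
    rintro _ ⟨γ, rfl⟩
    refine ⟨fun z hz => loc_not ρN _ (hB _) γ hz, ?_, ρN γ, (f γ.1).2,
      fun z hz => loc_mem ρN _ (hB _) γ hz⟩
    have hstay : ∀ y, r n0 y (τ q γ y) := by
      intro y
      by_cases hy : y ∈ ball r q.out n0
      · change r n0 y (loc ρN (ball r q.out n0) (hB _) γ y)
        rw [loc_mem ρN _ (hB _) γ hy]
        exact (hN2 γ.1 γ.2 y).1
      · change r n0 y (loc ρN (ball r q.out n0) (hB _) γ y)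
        rw [loc_not ρN _ (hB _) γ hy]
    intro k y z
    rcases le_total k n0 with hk | hk
    · have h1 := hT.anti_le hk (hstay y)
      have h2 := hT.anti_le hk (hstay z)
      exact ⟨fun h => (r k).trans ((r k).symm h1) ((r k).trans h h2),
        fun h => (r k).trans h1 ((r k).trans h ((r k).symm h2))⟩
    · obtain ⟨j, rfl⟩ := Nat.exists_eq_add_of_le hk
      by_cases hyz : r n0 y z
      · by_cases hy : y ∈ ball r q.out n0
        · have hz : z ∈ ball r q.out n0 := (r n0).trans hy hyz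
          change r (n0 + j) y z ↔ r (n0 + j) (loc ρN (ball r q.out n0) (hB _) γ y)
            (loc ρN (ball r q.out n0) (hB _) γ z)
          rw [loc_mem ρN _ (hB _) γ hy, loc_mem ρN _ (hB _) γ hz]
          exact (hN2 γ.1 γ.2 y).2 y ((r n0).refl y) j z
        · have hz : z ∉ ball r q.out n0 := fun h => hy ((r n0).trans h ((r n0).symm hyz))
          change r (n0 + j) y z ↔ r (n0 + j) (loc ρN (ball r q.out n0) (hB _) γ y)
            (loc ρN (ball r q.out n0) (hB _) γ z)
          rw [loc_not ρN _ (hB _) γ hy, loc_not ρN _ (hB _) γ hz]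
      · constructor
        · intro h
          exact absurd (hT.anti_le hk h) hyz
        · intro h
          exfalso
          apply hyz
          have h1 := hT.anti_le hk h
          exact (r n0).trans (hstay y) ((r n0).trans h1 ((r n0).symm (hstay z)))
  let T : N →* ∀ q, (τ q).range := MonoidHom.pi (fun q => (τ q).rangeRestrict)
  have hTf : Finite T.range := fpb_pi hτ N hKfp hKt T
  have hker : T.ker ≤ ρN.ker := by
    intro γ hγ
    rw [MonoidHom.mem_ker] at hγ ⊢
    ext y
    have h1 : τ (Quotient.mk (r n0) y) γ = 1 :=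
      congrArg Subtype.val (congrFun hγ (Quotient.mk (r n0) y))
    have h2 : y ∈ ball r (Quotient.mk (r n0) y).out n0 := Quotient.exact (Quotient.out_eq _)
    have h3 := loc_mem ρN _ (hB _) γ h2
    have h4 : loc ρN (ball r (Quotient.mk (r n0) y).out n0) (hB _) γ = 1 := h1
    rw [h4] at h3
    exact h3.symm
  have hfi : ρN.ker.FiniteIndex := Subgroup.finiteIndex_of_le hker
  have hrange : Finite ρN.range := Finite.of_equiv _ (QuotientGroup.quotientKerEquivRange ρN).toEquiv
  refine finite_of_fi f N ?_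
  refine Set.Finite.of_finite_image (f := Subtype.val) ?_ Subtype.val_injective.injOn
  refine (Set.toFinite (ρN.range : Set (Equiv.Perm Ω))).subset ?_
  rintro _ ⟨_, ⟨γ, hγ, rfl⟩, rfl⟩
  exact ⟨⟨γ, hγ⟩, rfl⟩

/-- the same for infinite words -/
theorem fpb_words (X : Type) [Finite X] [Nontrivial X] (G : Subgroup (Equiv.Perm (ℕ → X)))
    (hG : ∀ g ∈ G, ∃ n : ℕ, ∀ x : ℕ → X, ∃ m : ℕ, ∀ y, (∀ i < n, x i = y i) → ∀ k z,
      (∀ i < n + k, y i = z i) ↔ (∀ i < m + k, g y i = g z i))
    (hloc : ∀ (x : ℕ → X) (n : ℕ) (H : Subgroup (Equiv.Perm (ℕ → X))),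
      (∀ h ∈ H, (∀ z, (¬ ∀ i < n, x i = z i) → h z = z) ∧
        (∀ (k : ℕ) (y z : ℕ → X), (∀ i < k, y i = z i) ↔ (∀ i < k, h y i = h z i)) ∧
        ∃ g ∈ G, ∀ z, (∀ i < n, x i = z i) → h z = g z) → FPB H) : FPB G := by
  let r : ℕ → Setoid (ℕ → X) := fun n =>
    { r := fun x y => ∀ i < n, x i = y i
      iseqv := ⟨fun _ _ _ => rfl, fun h i hi => (h i hi).symm,
        fun h1 h2 i hi => (h1 i hi).trans (h2 i hi)⟩ }
  have hT : Tree r := by
    refine ⟨fun n x y h i hi => h i (by omega), ?_, ?_⟩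
    · intro n
      refine Finite.of_injective (β := Fin n → X)
        (Quotient.lift (fun x i => x i.1) (fun x y h => funext fun i => h i.1 i.2)) ?_
      intro a b
      refine Quotient.inductionOn₂ a b ?_
      intro x y h
      exact Quotient.sound (fun i hi => congrFun h ⟨i, hi⟩)
    · intro n x
      obtain ⟨a, ha⟩ := exists_ne (x n)
      refine ⟨Function.update x n a, ?_, ?_⟩
      · intro i hi
        rw [Function.update_of_ne (by omega)]
      · intro h
        have := h n (by omega)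
        rw [Function.update_self] at this
        exact ha this.symm
  exact fpb_aa hT G hG hloc

end Vale.Agent.P192.AA
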