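import Vale.Agent.P192.H826.PMUnif
import Vale.Agent.P192.H663.CMDefs

/-!
# P192: coarsely piecewise monotone bijections, families
-/

namespace Vale.Agent.P192.CM

open Filter PM PMUnif

variable {ι : Type} (U : Ultrafilter ι) {X : ι → Type} [∀ i, LinearOrder (X i)]

/-- intervals of the ultraproduct -/
theorem icc_le (N : ℕ) (f f' : ∀ i, X i)
    (h : ∀ᶠ i in (U : Filter ι), (Set.Icc (f i) (f' i)).encard ≤ N) :
    (Set.Icc (mk U f) (mk U f')).encard ≤ N := by
  by_contra hcon
  rw [not_le] at hcon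
  have h1 : ((N + 1 : ℕ) : ℕ∞) ≤ (Set.Icc (mk U f) (mk U f')).encard := by
    rw [Nat.cast_add, Nat.cast_one]
    exact Order.add_one_le_of_lt hcon
  obtain ⟨t, ht1, ht2⟩ := Set.exists_subset_encard_eq h1
  have htf : t.Finite := Set.finite_of_encard_eq_coe ht2
  have hcard : t.ncard = N + 1 := by
    rw [Set.ncard, ht2]
    rfl
  -- representatives
  choose rep hrep using fun x : UP U X => exists_mk U x
  have h2 : ∀ᶠ i in (U : Filter ι), ∀ x ∈ t, rep x i ∈ Set.Icc (f i) (f' i) := by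
    rw [Filter.eventually_all_finite htf]
    intro x hx
    have h3 := ht1 hx
    rw [← hrep x] at h3
    have h4 := (mk_le U).1 h3.1
    have h5 := (mk_le U).1 h3.2
    filter_upwards [h4, h5] with i e1 e2
    exact ⟨e1, e2⟩
  have h3 : ∀ᶠ i in (U : Filter ι), ∀ x ∈ t, ∀ y ∈ t, x ≠ y → rep x i ≠ rep y i := by
    rw [Filter.eventually_all_finite htf]
    intro x _
    rw [Filter.eventually_all_finite htf]
    intro y _
    by_cases hxy : x = y
    · exact Eventually.of_forall (fun i h => absurd hxy h)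
    · have h4 : ∀ᶠ i in (U : Filter ι), ¬ (rep x i = rep y i) := by
        rw [Ultrafilter.eventually_not]
        intro h5
        apply hxy
        rw [← hrep x, ← hrep y]
        exact (mk_eq U).2 h5
      filter_upwards [h4] with i e1 _
      exact e1
  obtain ⟨i, hi1, hi2, hi3⟩ := (h.and (h2.and h3)).exists
  have h4 : ((fun x => rep x i) '' t).encard ≤ N :=
    (Set.encard_le_encard (by
      rintro _ ⟨x, hx, rfl⟩
      exact hi2 x hx)).trans hi1
  have h5 : ((fun x => rep x i) '' t).encard = t.encard := by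
    apply Set.InjOn.encard_image
    intro x hx y hy hxy
    by_contra hne
    exact hi3 x hx y hy hne hxy
  rw [h5, ht2] at h4
  have h6 : N + 1 ≤ N := by exact_mod_cast h4
  omega

variable {Γ : Type} [Group Γ] (ρ : ∀ i, Γ →* Equiv.Perm (X i))

/-- internal pieces -/
theorem exists_pieces (N m : ℕ) (g : Γ)
    (h : ∀ i, ∃ C : Fin m → Set (X i), (∀ x, ∃ j, x ∈ C j) ∧ ∀ j, (C j).OrdConnected ∧
      (CMono N (ρ i g) (C j) ∨ CAnti N (ρ i g) (C j))) : CP (act U ρ g) := by
  choose C hC hG using h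
  let D : Fin m → Set (UP U X) := fun j => {x | ∃ f, mk U f = x ∧ ∀ᶠ i in (U : Filter ι), f i ∈ C i j}
  have hD : ∀ (j : Fin m) (f : ∀ i, X i), mk U f ∈ D j ↔ ∀ᶠ i in (U : Filter ι), f i ∈ C i j := by
    intro j f
    constructor
    · rintro ⟨f', h1, h2⟩
      rw [mk_eq] at h1
      filter_upwards [h1, h2] with i hi h2
      rw [← hi]
      exact h2
    · intro h
      exact ⟨f, rfl, h⟩
  refine ⟨N, Set.range D, Set.finite_range D, ?_, ?_⟩
  · rw [Set.eq_univ_iff_forall]
    intro x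
    obtain ⟨f, rfl⟩ := exists_mk U x
    have h1 : ∃ j, ∀ᶠ i in (U : Filter ι), f i ∈ C i j := by
      rw [← Ultrafilter.eventually_exists_iff]
      exact Eventually.of_forall (fun i => hC i (f i))
    obtain ⟨j, hj⟩ := h1
    exact ⟨D j, ⟨j, rfl⟩, (hD j f).2 hj⟩
  · rintro _ ⟨j, rfl⟩
    refine ⟨⟨?_⟩, ?_⟩
    · intro x hx y hy z hz
      obtain ⟨f, rfl⟩ := exists_mk U x
      obtain ⟨f', rfl⟩ := exists_mk U y
      obtain ⟨f'', rfl⟩ := exists_mk U z
      rw [hD] at hx hy ⊢
      have h1 := (mk_le U).1 hz.1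
      have h2 := (mk_le U).1 hz.2
      filter_upwards [hx, hy, h1, h2] with i e1 e2 e3 e4
      exact (hG i j).1.out e1 e2 ⟨e3, e4⟩
    · have h1 : ∀ᶠ i in (U : Filter ι), CMono N (ρ i g) (C i j) ∨ CAnti N (ρ i g) (C i j) :=
        Eventually.of_forall (fun i => (hG i j).2)
      rw [Ultrafilter.eventually_or] at h1
      rcases h1 with h1 | h1
      · left
        intro x hx y hy hxy
        obtain ⟨f, rfl⟩ := exists_mk U x
        obtain ⟨f', rfl⟩ := exists_mk U y
        rw [hD] at hx hy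
        rw [mk_lt] at hxy
        have h2 : ∀ᶠ i in (U : Filter ι), (Set.Icc (f i) (f' i)).encard ≤ N ∨
            ρ i g (f i) < ρ i g (f' i) := by
          filter_upwards [hx, hy, hxy, h1] with i e1 e2 e3 e4
          exact e4 _ e1 _ e2 e3
        rw [Ultrafilter.eventually_or] at h2
        rcases h2 with h2 | h2
        · exact Or.inl (icc_le U N f f' h2)
        · right
          rw [act_mk, act_mk, mk_lt]
          exact h2
      · right
        intro x hx y hy hxy
        obtain ⟨f, rfl⟩ := exists_mk U x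
        obtain ⟨f', rfl⟩ := exists_mk U y
        rw [hD] at hx hy
        rw [mk_lt] at hxy
        have h2 : ∀ᶠ i in (U : Filter ι), (Set.Icc (f i) (f' i)).encard ≤ N ∨
            ρ i g (f' i) < ρ i g (f i) := by
          filter_upwards [hx, hy, hxy, h1] with i e1 e2 e3 e4
          exact e4 _ e1 _ e2 e3
        rw [Ultrafilter.eventually_or] at h2
        rcases h2 with h2 | h2
        · exact Or.inl (icc_le U N f f' h2)
        · right
          rw [act_mk, act_mk, mk_lt]
          exact h2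

omit U in
/-- **Families.** -/
theorem family (main : ∀ (K : Type) [LinearOrder K] (G : Subgroup (Equiv.Perm K)),
      (∀ g ∈ G, CP g) → FPB G)
    (B : Type) (X : B → Type) [∀ b, LinearOrder (X b)] (G : Subgroup (∀ b, Equiv.Perm (X b)))
    (hG : ∀ g ∈ G, ∃ N m : ℕ, ∀ b, ∃ C : Fin m → Set (X b), (∀ x, ∃ j, x ∈ C j) ∧
      ∀ j, (C j).OrdConnected ∧ (CMono N (g b) (C j) ∨ CAnti N (g b) (C j))) : FPB G := by
  intro Γ _ hΓ ht f
  have hΓfg : Group.FG Γ := by
    obtain ⟨n, φ, hφ, -⟩ := hΓ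
    exact Group.fg_of_surjective hφ
  let ρ : ∀ b : B, Γ →* Equiv.Perm (X b) := fun b =>
    (Pi.evalMonoidHom (fun b => Equiv.Perm (X b)) b).comp (G.subtype.comp f)
  have hρ : ∀ (b : B) (γ : Γ), ρ b γ = (f γ).1 b := fun _ _ => rfl
  suffices h : ∃ N : Subgroup Γ, N.FiniteIndex ∧ ∀ b, ∀ g ∈ N, ρ b g = 1 by
    obtain ⟨N, hNf, h⟩ := h
    have hNker : N ≤ f.ker := by
      intro γ hγ
      rw [MonoidHom.mem_ker]
      apply Subtype.ext
      funext b
      exact h b γ hγ
    have hfi : f.ker.FiniteIndex := Subgroup.finiteIndex_of_le hNker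
    exact Finite.of_equiv _ (QuotientGroup.quotientKerEquivRange f).toEquiv
  by_contra hcon
  have h1 : ∀ N : {N : Subgroup Γ // N.Normal ∧ N.FiniteIndex}, ∃ b : B, ∃ g ∈ N.1,
      ρ b g ≠ 1 := by
    intro N
    by_contra h2
    push Not at h2
    exact hcon ⟨N.1, N.2.2, h2⟩
  choose b g hg hne using h1
  have hdir : IsDirected {N : Subgroup Γ // N.Normal ∧ N.FiniteIndex} (fun a b => a ≥ b) := by
    refine ⟨?_⟩
    rintro ⟨A, hA1, hA2⟩ ⟨B, hB1, hB2⟩
    refine ⟨⟨A ⊓ B, inferInstance, inferInstance⟩, ?_, ?_⟩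
    · show A ⊓ B ≤ A
      exact inf_le_left
    · show A ⊓ B ≤ B
      exact inf_le_right
  have : Nonempty {N : Subgroup Γ // N.Normal ∧ N.FiniteIndex} :=
    ⟨⟨⊤, inferInstance, inferInstance⟩⟩
  let U : Ultrafilter {N : Subgroup Γ // N.Normal ∧ N.FiniteIndex} := Ultrafilter.of Filter.atBot
  have hU : ∀ N0 : {N : Subgroup Γ // N.Normal ∧ N.FiniteIndex},
      ∀ᶠ N in (U : Filter _), N ≤ N0 :=
    fun N0 => (Ultrafilter.of_le Filter.atBot) (Filter.eventually_le_atBot N0)
  have hX : ∀ i, Nonempty (X (b i)) := by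
    intro i
    by_contra h2
    rw [not_nonempty_iff] at h2
    apply hne i
    ext x
    exact isEmptyElim x
  have hpw : ∀ γ : Γ, CP (act U (fun i => ρ (b i)) γ) := by
    intro γ
    obtain ⟨N, m, h2⟩ := hG _ (f γ).2
    exact exists_pieces U (fun i => ρ (b i)) N m γ (fun i => h2 (b i))
  have hF : FPB (act U (fun i => ρ (b i))).range :=
    main (UP U (fun i => X (b i))) (act U (fun i => ρ (b i))).range (by
      rintro _ ⟨γ, rfl⟩
      exact hpw γ)
  have hfin : Finite (act U (fun i => ρ (b i))).rangeRestrict.range :=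
    hF Γ hΓ ht (act U (fun i => ρ (b i))).rangeRestrict
  have hker : (act U (fun i => ρ (b i))).ker.FiniteIndex := by
    rw [← MonoidHom.ker_rangeRestrict]
    exact Subgroup.finiteIndex_ker _
  have hfg : (act U (fun i => ρ (b i))).ker.FG :=
    (Group.fg_iff_subgroup_fg _).1 (Subgroup.fg_of_index_ne_zero _)
  obtain ⟨T, hT⟩ := hfg
  have h3 : ∀ᶠ i in (U : Filter _), ∀ t ∈ T, ρ (b i) t = 1 := by
    rw [Filter.eventually_all_finset]
    intro t ht'
    apply act_eq_one U (fun i => ρ (b i)) hX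
    have h4 : t ∈ (act U (fun i => ρ (b i))).ker := by
      rw [← hT]
      exact Subgroup.subset_closure ht'
    exact h4
  obtain ⟨i, hi1, hi2⟩ :=
    ((hU ⟨(act U (fun i => ρ (b i))).ker, inferInstance, hker⟩).and h3).exists
  apply hne i
  have h4 : (act U (fun i => ρ (b i))).ker ≤ (ρ (b i)).ker := by
    rw [← hT, Subgroup.closure_le]
    intro t ht'
    exact hi2 t ht'
  exact h4 (hi1 (hg i))

end Vale.Agent.P192.CM
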