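import Vale.Agent.P192.H826.RaysC
import Vale.Agent.P192.H124.RaysMax

/-!
# P192: automorphisms with countably many singular rays

`cnt H` is the group of the elements with finitely many sections off each ray, such that the set of
the rays along which all sections are outside `H` is countable.  If `H` is closed under sections,
in the class, and its elements have finitely many sections off each ray, then `cnt H` has the same
properties.
-/

namespace Vale.Agent.P192

universe u v

/-- a ray with a new first letter -/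
def cns {Y : Type v} (y : Y) (ξ : ℕ → Y) : ℕ → Y
  | 0 => y
  | n + 1 => ξ n

theorem shf_cns {Y : Type v} (y : Y) (ξ : ℕ → Y) : shf (cns y ξ) = ξ := rfl

theorem cns_injective {Y : Type v} (y : Y) : Function.Injective (cns y) := by
  intro ξ η h
  have := congrArg shf h
  rwa [shf_cns, shf_cns] at this

namespace SS

variable {T : Type u} {Y : Type v} [Group T] (S : SS T Y)

theorem st_congr {ξ η : ℕ → Y} {n : ℕ} (h : ∀ i < n, ξ i = η i) (g : T) :
    S.st ξ n g = S.st η n g := by
  induction n with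
  | zero => rfl
  | succ n ih =>
    rw [S.st_succ, S.st_succ, ih (fun i hi => h i (Nat.lt_succ_of_lt hi)), h n (Nat.lt_succ_self n)]

theorem st_add (ξ : ℕ → Y) (m n : ℕ) (g : T) :
    S.st ξ (m + n) g = S.st (fun i => ξ (m + i)) n (S.st ξ m g) := by
  induction n with
  | zero => rfl
  | succ n ih =>
    rw [← Nat.add_assoc, S.st_succ, ih, S.st_succ]

theorem st_mem_mono {H : Subgroup T} (hc : ∀ h ∈ H, ∀ y, S.sec h y ∈ H) {ξ : ℕ → Y} {m n : ℕ}
    (hmn : m ≤ n) {g : T} (hg : S.st ξ m g ∈ H) : S.st ξ n g ∈ H := by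
  obtain ⟨k, rfl⟩ := Nat.exists_eq_add_of_le hmn
  rw [S.st_add]
  exact S.st_mem hc _ k hg

/-- the rays along which all sections of `g` are outside `H` -/
def ex (H : Subgroup T) (g : T) : Set (ℕ → Y) := {ξ | ∀ n, S.st ξ n g ∉ H}

theorem ex_mul {H : Subgroup T} (hc : ∀ h ∈ H, ∀ y, S.sec h y ∈ H) (g h : T) :
    S.ex H (g * h) ⊆ S.ex H h ∪ (S.ract h) ⁻¹' (S.ex H g) := by
  intro ξ hξ
  by_contra hcon
  rw [Set.mem_union, not_or] at hcon
  obtain ⟨h1, h2⟩ := hcon
  have h1' : ∃ n, S.st ξ n h ∈ H := by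
    by_contra h3
    push Not at h3
    exact h1 h3
  have h2' : ∃ n, S.st (S.ract h ξ) n g ∈ H := by
    by_contra h3
    push Not at h3
    exact h2 h3
  obtain ⟨n, hn⟩ := h1'
  obtain ⟨m, hm⟩ := h2'
  apply hξ (max n m)
  rw [S.st_mul]
  exact mul_mem (S.st_mem_mono hc (le_max_right _ _) hm) (S.st_mem_mono hc (le_max_left _ _) hn)

theorem ex_inv {H : Subgroup T} (g : T) : S.ex H g⁻¹ ⊆ (S.ract g⁻¹) ⁻¹' (S.ex H g) := by
  intro ξ hξ n hn
  apply hξ n
  have h := S.st_inv (S.ract g⁻¹ ξ) n g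
  rw [S.ract_inv'] at h
  rw [h]
  exact inv_mem hn

theorem ex_sec {H : Subgroup T} (hc : ∀ h ∈ H, ∀ y, S.sec h y ∈ H) (g : T) (y : Y) :
    S.ex H (S.sec g y) ⊆ (cns y) ⁻¹' (S.ex H g) := by
  intro ξ hξ n
  cases n with
  | zero =>
    intro h
    exact hξ 0 (hc g h y)
  | succ n =>
    rw [← S.st_shf]
    exact hξ n

theorem ract_injective (g : T) : Function.Injective (S.ract g) := by
  intro ξ η h
  have := congrArg (S.ract g⁻¹) h
  rwa [S.ract_inv, S.ract_inv] at this

/-- the elements with finitely many sections off each ray and countably many rays along which all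
sections are outside `H` -/
def cnt (H : Subgroup T) (hc : ∀ h ∈ H, ∀ y, S.sec h y ∈ H) : Subgroup T where
  carrier := {g | g ∈ S.finR ∧ (S.ex H g).Countable}
  one_mem' := by
    refine ⟨one_mem _, ?_⟩
    have : S.ex H 1 = ∅ := by
      rw [Set.eq_empty_iff_forall_notMem]
      intro ξ hξ
      apply hξ 0
      exact one_mem H
    rw [this]
    exact Set.countable_empty
  mul_mem' := by
    intro a b ha hb
    refine ⟨mul_mem ha.1 hb.1, ((hb.2.union ?_)).mono (S.ex_mul hc a b)⟩
    exact ha.2.preimage_of_injOn (S.ract_injective b).injOn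
  inv_mem' := by
    intro a ha
    refine ⟨inv_mem ha.1, Set.Countable.mono (S.ex_inv a) ?_⟩
    exact ha.2.preimage_of_injOn (S.ract_injective a⁻¹).injOn

theorem cnt_sec {H : Subgroup T} (hc : ∀ h ∈ H, ∀ y, S.sec h y ∈ H) :
    ∀ g ∈ S.cnt H hc, ∀ y, S.sec g y ∈ S.cnt H hc := by
  intro g hg y
  refine ⟨S.finR_sec hg.1 y, Set.Countable.mono (S.ex_sec hc g y) ?_⟩
  exact hg.2.preimage_of_injOn (cns_injective y).injOn

/-- one step of the diagonal argument -/
theorem diag_step {R : Subgroup T} (hup : S.up R ≤ R) (hV : ∀ ξ, S.Vr R ξ ⊆ R)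
    {g : T} (hg : g ∈ S.finR) (ξ : ℕ → Y) (l : ℕ) (h : S.st ξ l g ∉ R) (η : ℕ → Y) :
    ∃ (ξ' : ℕ → Y) (l' : ℕ), l < l' ∧ (∀ i < l, ξ' i = ξ i) ∧ S.st ξ' l' g ∉ R ∧
      ∃ i < l', ξ' i ≠ η i := by
  classical
  have hst : ∀ n, S.st ξ n g ∈ S.finR := by
    intro n
    induction n with
    | zero => exact hg
    | succ n ih => exact S.finR_sec ih _
  by_cases hne : ∃ i < l, ξ i ≠ η i
  · obtain ⟨i, hi, hie⟩ := hne
    obtain ⟨y, hy⟩ : ∃ y, S.sec (S.st ξ l g) y ∉ R := by
      by_contra hcon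
      push Not at hcon
      exact h (hup hcon)
    refine ⟨Function.update ξ l y, l + 1, Nat.lt_succ_self l, ?_, ?_, i, Nat.lt_succ_of_lt hi, ?_⟩
    · intro j hj
      exact Function.update_of_ne hj.ne _ _
    · rw [S.st_succ, Function.update_self, S.st_congr (η := ξ)
        (fun j hj => Function.update_of_ne hj.ne _ _)]
      exact hy
    · rw [Function.update_of_ne hi.ne]
      exact hie
  · push Not at hne
    have hξη : S.st ξ l g = S.st η l g := S.st_congr hne g
    have hnV : S.st ξ l g ∉ S.Vr R (fun i => η (l + i)) := fun h' => h (hV _ h')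
    have hnsub : ¬ S.off (fun i => η (l + i)) (S.st ξ l g) ⊆ R := fun h' =>
      hnV ⟨h', hst l _⟩
    rw [Set.not_subset] at hnsub
    obtain ⟨_, ⟨n, y', hy', rfl⟩, hk⟩ := hnsub
    rw [hξη, ← S.st_add] at hk
    refine ⟨Function.update η (l + n) y', l + n + 1, by omega, ?_, ?_, l + n, by omega, ?_⟩
    · intro i hi
      rw [Function.update_of_ne (by omega)]
      exact (hne i hi).symm
    · rw [S.st_succ, Function.update_self, S.st_congr (η := η)
        (fun j hj => Function.update_of_ne hj.ne _ _)]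
      exact hk
    · rw [Function.update_self]
      exact hy'

/-- **The diagonal argument**: an element with countably many singular rays is in `R`. -/
theorem mem_of_countable {R : Subgroup T} (hc : ∀ h ∈ R, ∀ y, S.sec h y ∈ R)
    (hup : S.up R ≤ R) (hV : ∀ ξ, S.Vr R ξ ⊆ R)
    {g : T} (hg : g ∈ S.finR) (hE : (S.ex R g).Countable) [Nonempty Y] : g ∈ R := by
  classical
  by_contra hgR
  -- an enumeration of the singular rays
  obtain ⟨e, he⟩ : ∃ e : ℕ → (ℕ → Y), S.ex R g ⊆ Set.range e := by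
    rcases (S.ex R g).eq_empty_or_nonempty with h0 | h0
    · exact ⟨fun _ _ => Classical.arbitrary Y, by rw [h0]; exact Set.empty_subset _⟩
    · obtain ⟨e, he⟩ := hE.exists_eq_range h0
      exact ⟨e, he.le⟩
  -- the sequence of words
  let P : Type v := {p : (ℕ → Y) × ℕ // S.st p.1 p.2 g ∉ R}
  have step : ∀ (n : ℕ) (p : P), ∃ q : P, p.1.2 < q.1.2 ∧ (∀ i < p.1.2, q.1.1 i = p.1.1 i) ∧
      ∃ i < q.1.2, q.1.1 i ≠ e n i := by
    intro n p
    obtain ⟨ξ', l', h1, h2, h3, h4⟩ := S.diag_step hup hV hg p.1.1 p.1.2 p.2 (e n)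
    exact ⟨⟨(ξ', l'), h3⟩, h1, h2, h4⟩
  choose F hF1 hF2 hF3 using step
  let p : ℕ → P := fun n => Nat.rec ⟨(fun _ => Classical.arbitrary Y, 0), hgR⟩ (fun n q => F n q) n
  have hp : ∀ n, p (n + 1) = F n (p n) := fun n => rfl
  have hlen : ∀ n, n ≤ (p n).1.2 := by
    intro n
    induction n with
    | zero => exact Nat.zero_le _
    | succ n ih =>
      have := hF1 n (p n)
      rw [← hp] at this
      omega
  have hmono : ∀ n k, (p n).1.2 ≤ (p (n + k)).1.2 ∧
      ∀ i < (p n).1.2, (p (n + k)).1.1 i = (p n).1.1 i := by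
    intro n k
    induction k with
    | zero => exact ⟨le_rfl, fun i _ => rfl⟩
    | succ k ih =>
      have h1 := hF1 (n + k) (p (n + k))
      have h2 := hF2 (n + k) (p (n + k))
      rw [← hp] at h1 h2
      refine ⟨ih.1.trans h1.le, fun i hi => ?_⟩
      exact (h2 i (lt_of_lt_of_le hi ih.1)).trans (ih.2 i hi)
  -- the limit ray
  let ζ : ℕ → Y := fun i => (p (i + 1)).1.1 i
  have hζ : ∀ n, ∀ i < (p n).1.2, ζ i = (p n).1.1 i := by
    intro n i hi
    change (p (i + 1)).1.1 i = (p n).1.1 i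
    rcases le_total (i + 1) n with h | h
    · obtain ⟨k, rfl⟩ := Nat.exists_eq_add_of_le h
      refine ((hmono (i + 1) k).2 i ?_).symm
      have := hlen (i + 1)
      omega
    · obtain ⟨k, hk⟩ := Nat.exists_eq_add_of_le h
      rw [hk]
      exact (hmono n k).2 i hi
  have hζE : ζ ∈ S.ex R g := by
    intro n hn
    have h1 : S.st ζ (p n).1.2 g ∈ R := S.st_mem_mono hc (hlen n) hn
    rw [S.st_congr (hζ n)] at h1
    exact (p n).2 h1
  obtain ⟨n, hn⟩ := he hζE
  obtain ⟨i, hi, hne⟩ := hF3 n (p n)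
  rw [← hp] at hi hne
  apply hne
  rw [← hζ (n + 1) i hi, hn]

/-- **The countable theorem.** -/
theorem goodR_cnt [Finite Y] (hf : S.Faithful)
    (hconn : ∀ ξ η : ℕ → Y, ∃ g, S.off ξ g ⊆ {1} ∧ S.ract g ξ = η) {H : Subgroup T}
    (hH : S.GoodR H) : S.GoodR (S.cnt H hH.closed) where
  closed := S.cnt_sec hH.closed
  fin := fun g hg => hg.1
  fpb := by
    rcases isEmpty_or_nonempty Y with hY | hY
    · have h1 : ∀ h : T, h = 1 := fun h => hf h (fun v => Subsingleton.elim _ _)
      have : Subsingleton (S.cnt H hH.closed) :=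
        ⟨fun a b => Subtype.ext ((h1 a.1).trans (h1 b.1).symm)⟩
      exact fpb_of_finite _
    · obtain ⟨R, hR, hHR, hmax⟩ := S.rays_max_of (fun H hH => by
        obtain ⟨H', h1, h2, _, h4⟩ := S.rays hf hconn hH
        exact ⟨H', h1, h2, h4⟩) hH
      refine fpb_mono (L := R) ?_ hR.fpb
      intro g hg
      refine S.mem_of_countable hR.closed (S.up_le_max hR hmax) (fun ξ k hk => hmax k ξ hk.1 hk.2)
        hg.1 (hg.2.mono ?_)
      exact fun ξ hξ n hn => hξ n (hHR hn)

end SS

end Vale.Agent.P192
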