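import Mathlib

/-!
# P192: interval exchange transformations: the integral model

`Dat G`: an action of `G` on `[0, L)` by interval exchanges, with the breakpoints of a finite set
`M` of elements and an order preserving integral deformation `ν` of a finite set of reals.
-/

namespace Vale.Agent.P192.Iet

/-- the data of the deformation -/
structure Dat (G : Type) [Group G] where
  M : Set G
  one : (1 : G) ∈ M
  L : ℝ
  hL : 0 < L
  ρ : G →* Equiv.Perm ℝ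
  out : ∀ g x, x ∉ Set.Ico 0 L → ρ g x = x
  B : Finset ℝ
  B0 : (0 : ℝ) ∈ B
  BL : L ∈ B
  Bge : ∀ b ∈ B, 0 ≤ b ∧ b ≤ L
  pt : ∀ a ∈ M, ∀ x y, 0 ≤ x → x < y → y < L → (∀ b ∈ B, ¬ (x < b ∧ b ≤ y)) →
    ρ a y - ρ a x = y - x
  C : Finset ℝ
  Cge : ∀ c ∈ C, 0 ≤ c ∧ c < L
  BC : ∀ a ∈ M, ∀ x, 0 ≤ x → x < L → ρ a x ∈ B → x ∈ C
  Z : Set ℝ
  ZL : L ∈ Z
  ZC : ∀ c ∈ C, ∀ a ∈ M, ∀ b ∈ M, ρ (a * b) c ∈ Z
  ν : ℝ → ℤ
  ν0 : ν 0 = 0
  νpos : ∀ x ∈ Z, ∀ y ∈ Z, ∀ z ∈ Z, ∀ w ∈ Z, 0 < x - y + z - w → 0 < ν x - ν y + ν z - ν w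
  νeq : ∀ x ∈ Z, ∀ y ∈ Z, ∀ z ∈ Z, ∀ w ∈ Z, x - y + z - w = 0 → ν x - ν y + ν z - ν w = 0
  p : ℤ → ℝ
  pC : ∀ k, 0 ≤ k → p k ∈ C
  pν : ∀ k, 0 ≤ k → ν (p k) ≤ k
  pmax : ∀ k, 0 ≤ k → ∀ c ∈ C, ν c ≤ k → c ≤ p k

namespace Dat

variable {G : Type} [Group G] (D : Dat G)

theorem mem_Ico (g : G) {x : ℝ} (h : 0 ≤ x ∧ x < D.L) : 0 ≤ D.ρ g x ∧ D.ρ g x < D.L := by
  by_contra hcon
  have h1 : D.ρ g x ∉ Set.Ico 0 D.L := hcon
  have h2 := D.out g⁻¹ _ h1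
  rw [← Equiv.Perm.mul_apply, ← map_mul, inv_mul_cancel, map_one, Equiv.Perm.one_apply] at h2
  rw [← h2] at h1
  exact h1 h

theorem ρ_one (x : ℝ) : D.ρ 1 x = x := by rw [map_one]; rfl

theorem ρ_mul (a b : G) (x : ℝ) : D.ρ (a * b) x = D.ρ a (D.ρ b x) := by rw [map_mul]; rfl

theorem BC1 {b : ℝ} (hb : b ∈ D.B) (h : b < D.L) : b ∈ D.C :=
  D.BC 1 D.one b (D.Bge b hb).1 h (by rw [D.ρ_one]; exact hb)

theorem C0 : (0 : ℝ) ∈ D.C := D.BC1 D.B0 D.hL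

theorem ZC1 {c : ℝ} (hc : c ∈ D.C) {a : G} (ha : a ∈ D.M) : D.ρ a c ∈ D.Z := by
  have := D.ZC c hc a ha 1 D.one
  rwa [mul_one] at this

theorem ZC0 {c : ℝ} (hc : c ∈ D.C) : c ∈ D.Z := by
  have := D.ZC1 hc D.one
  rwa [D.ρ_one] at this

theorem ZB {b : ℝ} (hb : b ∈ D.B) : b ∈ D.Z := by
  rcases (D.Bge b hb).2.lt_or_eq with h | h
  · exact D.ZC0 (D.BC1 hb h)
  · rw [h]; exact D.ZL

theorem ν_lt {x y : ℝ} (hx : x ∈ D.Z) (hy : y ∈ D.Z) (h : x < y) : D.ν x < D.ν y := by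
  have := D.νpos y hy x hx x hx x hx (by linarith)
  linarith

theorem ν_le {x y : ℝ} (hx : x ∈ D.Z) (hy : y ∈ D.Z) (h : x ≤ y) : D.ν x ≤ D.ν y := by
  rcases h.lt_or_eq with h | h
  · exact (D.ν_lt hx hy h).le
  · rw [h]

theorem ν_le_iff {x y : ℝ} (hx : x ∈ D.Z) (hy : y ∈ D.Z) : D.ν x ≤ D.ν y ↔ x ≤ y := by
  refine ⟨fun h => ?_, D.ν_le hx hy⟩
  by_contra hcon
  exact absurd h (not_le.2 (D.ν_lt hy hx (not_le.1 hcon)))

/-- the next point -/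
theorem exists_next {x : ℝ} (hx : x < D.L) : ∃ n : ℝ, n ∈ D.Z ∧ x < n ∧ n ≤ D.L ∧
    (∀ c ∈ D.C, x < c → n ≤ c) ∧ (n < D.L → n ∈ D.C) := by
  classical
  obtain ⟨n, hn, hmin⟩ := Finset.exists_min_image ((insert D.L D.C).filter fun c => x < c) id
    ⟨D.L, by simp [hx]⟩
  rw [Finset.mem_filter, Finset.mem_insert] at hn
  refine ⟨n, ?_, hn.2, ?_, ?_, ?_⟩
  · rcases hn.1 with h | h
    · rw [h]; exact D.ZL
    · exact D.ZC0 h
  · exact hmin D.L (by simp [hx])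
  · intro c hc hxc
    exact hmin c (by simp [hc, hxc])
  · intro hnL
    rcases hn.1 with h | h
    · exact absurd hnL (by rw [h]; exact lt_irrefl _)
    · exact h

/-- no breakpoint between `q` and the image of the interval up to the next point -/
theorem shift_le {p0 n : ℝ} (h0 : 0 ≤ p0) (hnL : n ≤ D.L)
    (hmin : ∀ c ∈ D.C, p0 < c → n ≤ c) {b : G} (hb : b ∈ D.M) {c : ℝ} (hc : c ∈ D.B)
    (hlt : D.ρ b p0 < c) : D.ρ b p0 + (n - p0) ≤ c := by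
  by_contra hcon
  push Not at hcon
  set x := p0 + (c - D.ρ b p0) with hx
  have h1 : p0 < x := by rw [hx]; linarith
  have h2 : x < n := by rw [hx]; linarith
  have h3 := D.pt b hb p0 x h0 h1 (lt_of_lt_of_le h2 hnL) (by
    rintro d hd ⟨hd1, hd2⟩
    have hdL : d < D.L := lt_of_le_of_lt hd2 (lt_of_lt_of_le h2 hnL)
    have := hmin d (D.BC1 hd hdL) hd1
    linarith)
  have h4 : D.ρ b x = c := by rw [hx] at h3 ⊢; linarith
  have h5 := hmin x (D.BC b hb x (by linarith) (lt_of_lt_of_le h2 hnL) (by rw [h4]; exact hc)) h1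
  linarith

/-- the integral action -/
def act (a : G) (k : ℤ) : ℤ := k + (D.ν (D.ρ a (D.p k)) - D.ν (D.p k))

variable {k : ℤ}

theorem p_mem (hk : 0 ≤ k) : D.p k ∈ D.C := D.pC k hk

theorem p_ge (hk : 0 ≤ k) : 0 ≤ D.p k ∧ D.p k < D.L := D.Cge _ (D.pC k hk)

/-- breakpoints below a point of the integral model -/
theorem B_le_p (hk : 0 ≤ k) (hkL : k < D.ν D.L) {c : ℝ} (hc : c ∈ D.B) :
    c ≤ D.p k ↔ D.ν c ≤ k := by
  constructor
  · intro h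
    exact (D.ν_le (D.ZB hc) (D.ZC0 (D.pC k hk)) h).trans (D.pν k hk)
  · intro h
    rcases (D.Bge c hc).2.lt_or_eq with h1 | h1
    · exact D.pmax k hk c (D.BC1 hc h1) h
    · rw [h1] at h
      exact absurd hkL (not_lt.2 h)

/-- the fundamental comparison -/
theorem B_le_act (hk : 0 ≤ k) (hkL : k < D.ν D.L) {b : G} (hb : b ∈ D.M) {c : ℝ} (hc : c ∈ D.B) :
    c ≤ D.ρ b (D.p k) ↔ D.ν c ≤ D.act b k := by
  have hpC := D.pC k hk
  have hp := D.Cge _ hpC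
  have hqZ := D.ZC1 hpC hb
  constructor
  · intro h
    have h1 := D.ν_le (D.ZB hc) hqZ h
    have h2 := D.pν k hk
    unfold act
    linarith
  · intro h
    by_contra hcon
    push Not at hcon
    obtain ⟨n, hnZ, hn, hnL, hmin, hnC⟩ := D.exists_next hp.2
    have h1 := D.shift_le hp.1 hnL hmin hb hc hcon
    have hkn : k < D.ν n := by
      by_contra hkn
      push Not at hkn
      rcases hnL.lt_or_eq with h2 | h2
      · have := D.pmax k hk n (hnC h2) hkn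
        linarith
      · rw [h2] at hkn
        linarith
    have h3 : 0 ≤ D.ν c - D.ν (D.ρ b (D.p k)) + D.ν (D.p k) - D.ν n := by
      rcases (show 0 ≤ c - D.ρ b (D.p k) + D.p k - n by linarith).lt_or_eq with h4 | h4
      · exact (D.νpos _ (D.ZB hc) _ hqZ _ (D.ZC0 hpC) _ hnZ h4).le
      · exact (D.νeq _ (D.ZB hc) _ hqZ _ (D.ZC0 hpC) _ hnZ h4.symm).ge
    unfold act at h
    linarith

theorem act_ge (hk : 0 ≤ k) (hkL : k < D.ν D.L) {b : G} (hb : b ∈ D.M) :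
    0 ≤ D.act b k ∧ D.act b k < D.ν D.L := by
  have hp := D.p_ge hk
  have hq := D.mem_Ico b hp
  constructor
  · rw [← D.ν0]
    exact (D.B_le_act hk hkL hb D.B0).1 hq.1
  · by_contra hcon
    push Not at hcon
    have := (D.B_le_act hk hkL hb D.BL).2 hcon
    linarith

/-- two points without breakpoints in between -/
theorem pt' {a : G} (ha : a ∈ D.M) {x y : ℝ} (hx : 0 ≤ x ∧ x < D.L) (hy : 0 ≤ y ∧ y < D.L)
    (h : ∀ c ∈ D.B, c ≤ x ↔ c ≤ y) : D.ρ a y - D.ρ a x = y - x := by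
  rcases lt_trichotomy x y with h1 | h1 | h1
  · refine D.pt a ha x y hx.1 h1 hy.2 ?_
    rintro b hb ⟨h2, h3⟩
    have := (h b hb).2 h3
    linarith
  · rw [h1]; ring
  · have := D.pt a ha y x hy.1 h1 hx.2 (by
      rintro b hb ⟨h2, h3⟩
      have := (h b hb).1 h3
      linarith)
    linarith

/-- the points `p (act b k)` and `ρ b (p k)` are in one band -/
theorem band (hk : 0 ≤ k) (hkL : k < D.ν D.L) {b : G} (hb : b ∈ D.M) :
    ∀ c ∈ D.B, c ≤ D.p (D.act b k) ↔ c ≤ D.ρ b (D.p k) := by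
  intro c hc
  have h := D.act_ge hk hkL hb
  rw [D.B_le_p h.1 h.2 hc, D.B_le_act hk hkL hb hc]

theorem trans_eq (hk : 0 ≤ k) (hkL : k < D.ν D.L) {a b : G} (ha : a ∈ D.M) (hb : b ∈ D.M) :
    D.ρ a (D.ρ b (D.p k)) - D.ρ a (D.p (D.act b k)) = D.ρ b (D.p k) - D.p (D.act b k) :=
  D.pt' ha (D.p_ge (D.act_ge hk hkL hb).1) (D.mem_Ico b (D.p_ge hk)) (D.band hk hkL hb)

/-- **The integral action is multiplicative.** -/
theorem act_mul (hk : 0 ≤ k) (hkL : k < D.ν D.L) {a b : G} (ha : a ∈ D.M) (hb : b ∈ D.M) :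
    D.act (a * b) k = D.act a (D.act b k) := by
  have h := D.act_ge hk hkL hb
  have h1 := D.trans_eq hk hkL ha hb
  have h2 := D.νeq (D.ρ (a * b) (D.p k)) (D.ZC _ (D.pC k hk) a ha b hb) (D.ρ b (D.p k))
    (D.ZC1 (D.pC k hk) hb) (D.p (D.act b k)) (D.ZC0 (D.pC _ h.1)) (D.ρ a (D.p (D.act b k)))
    (D.ZC1 (D.pC _ h.1) ha) (by rw [D.ρ_mul]; linarith)
  have e1 : D.act (a * b) k = k + (D.ν (D.ρ (a * b) (D.p k)) - D.ν (D.p k)) := rfl
  have e2 : D.act b k = k + (D.ν (D.ρ b (D.p k)) - D.ν (D.p k)) := rfl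
  have e3 : D.act a (D.act b k) = D.act b k +
    (D.ν (D.ρ a (D.p (D.act b k))) - D.ν (D.p (D.act b k))) := rfl
  rw [e3, e1]
  linarith

theorem act_one (k : ℤ) : D.act 1 k = k := by
  unfold act
  rw [D.ρ_one]
  ring

/-- the translation -/
def tr (a : G) (k : ℤ) : ℝ := D.ρ a (D.p k) - D.p k

theorem tr_one (k : ℤ) : D.tr 1 k = 0 := by
  unfold tr
  rw [D.ρ_one]
  ring

/-- **The translation is a cocycle on the integral model.** -/
theorem tr_mul (hk : 0 ≤ k) (hkL : k < D.ν D.L) {a b : G} (ha : a ∈ D.M) (hb : b ∈ D.M) :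
    D.tr (a * b) k = D.tr a (D.act b k) + D.tr b k := by
  have h1 := D.trans_eq hk hkL ha hb
  unfold tr
  rw [D.ρ_mul]
  linarith

end Dat

end Vale.Agent.P192.Iet
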