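import Vale.Agent.P192.H826.Iet1

/-!
# P192: interval exchange transformations: positions and the free cocycle
-/

namespace Vale.Agent.P192.Iet

/-- A torsion group: real cocycles are coboundaries. -/
theorem exists_pos {G : Type*} [Group G] (hG : ∀ g : G, IsOfFinOrder g) {X : Type*}
    (Ψ : G →* Equiv.Perm (X × ℝ))
    (hΨ : ∀ g x r, Ψ g (x, r) = ((Ψ g (x, 0)).1, (Ψ g (x, 0)).2 + r)) :
    ∃ pos : X → ℝ, ∀ g x, pos (Ψ g (x, 0)).1 = (Ψ g (x, 0)).2 + pos x := by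
  set a : G → X → X := fun g x => (Ψ g (x, 0)).1 with ha
  set c : G → X → ℝ := fun g x => (Ψ g (x, 0)).2 with hc
  have h0 : ∀ g x r, Ψ g (x, r) = (a g x, c g x + r) := hΨ
  have hmul : ∀ g h x, a (g * h) x = a g (a h x) ∧ c (g * h) x = c g (a h x) + c h x := by
    intro g h x
    have : Ψ (g * h) (x, 0) = (a g (a h x), c g (a h x) + (c h x + 0)) := by
      rw [map_mul, Equiv.Perm.mul_apply, h0 h, h0 g]
    rw [add_zero] at this
    have h1 := congrArg Prod.fst this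
    have h2 := congrArg Prod.snd this
    exact ⟨h1, h2⟩
  have hone : ∀ x, a 1 x = x ∧ c 1 x = 0 := by
    intro x
    have : Ψ 1 (x, 0) = (x, 0) := by rw [map_one]; rfl
    have h1 := congrArg Prod.fst this
    have h2 := congrArg Prod.snd this
    exact ⟨h1, h2⟩
  have hinv : ∀ g x, a g⁻¹ (a g x) = x := by
    intro g x
    rw [← (hmul g⁻¹ g x).1, inv_mul_cancel, (hone x).1]
  have htor : ∀ g x, a g x = x → c g x = 0 := by
    intro g x hx
    have hpow : ∀ n : ℕ, a (g ^ n) x = x ∧ c (g ^ n) x = n * c g x := by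
      intro n
      induction n with
      | zero =>
        rw [pow_zero]
        exact ⟨(hone x).1, by rw [(hone x).2]; simp⟩
      | succ n ih =>
        rw [pow_succ']
        refine ⟨by rw [(hmul _ _ _).1, ih.1, hx], ?_⟩
        rw [(hmul _ _ _).2, ih.1, ih.2]
        push_cast
        ring
    obtain ⟨n, hn, hgn⟩ := (isOfFinOrder_iff_pow_eq_one.1 (hG g))
    have h1 := (hpow n).2
    rw [hgn, (hone x).2] at h1
    have h2 : (n : ℝ) ≠ 0 := by exact_mod_cast hn.ne'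
    rcases mul_eq_zero.1 h1.symm with h3 | h3
    · exact absurd h3 h2
    · exact h3
  let s : Setoid X :=
    { r := fun x y => ∃ g, a g x = y
      iseqv :=
        { refl := fun x => ⟨1, (hone x).1⟩
          symm := by
            rintro x y ⟨g, rfl⟩
            exact ⟨g⁻¹, hinv g x⟩
          trans := by
            rintro x y z ⟨g, rfl⟩ ⟨h, rfl⟩
            exact ⟨h * g, (hmul h g x).1⟩ } }
  have hrep : ∀ x : X, ∃ g, a g (Quotient.out (Quotient.mk s x)) = x := fun x =>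
    Quotient.exact (Quotient.out_eq (Quotient.mk s x))
  choose γ hγ using hrep
  refine ⟨fun x => c (γ x) (Quotient.out (Quotient.mk s x)), fun g x => ?_⟩
  change c (γ (a g x)) (Quotient.out (Quotient.mk s (a g x))) =
    c g x + c (γ x) (Quotient.out (Quotient.mk s x))
  have hq : Quotient.mk s (a g x) = Quotient.mk s x :=
    (Quotient.sound (show ∃ h, a h x = a g x from ⟨g, rfl⟩)).symm
  have h1 := hγ (a g x)
  rw [hq] at h1 ⊢
  set r := Quotient.out (Quotient.mk s x) with hr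
  have h2 : a ((γ (a g x))⁻¹ * (g * γ x)) r = r := by
    rw [(hmul _ _ _).1, (hmul _ _ _).1, hγ x]
    have h5 := hinv (γ (a g x)) r
    rw [h1] at h5
    exact h5
  have h3 := htor _ _ h2
  have h4 : c (g * γ x) r = c (γ (a g x)) r := by
    have e : g * γ x = γ (a g x) * ((γ (a g x))⁻¹ * (g * γ x)) := by group
    rw [e, (hmul _ _ _).2, h2, h3, add_zero]
  rw [← h4, (hmul _ _ _).2, hγ x]

namespace Dat

variable {G : Type} [Group G] (D : Dat G)

/-- the integral model -/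
abbrev Pt : Type := {k : ℤ // 0 ≤ k ∧ k < D.ν D.L}

instance : Finite D.Pt := Set.finite_Ico (0 : ℤ) (D.ν D.L)

/-- the relation on the letters -/
def Rl (i j : D.Pt) : Prop := ∃ a ∈ D.M, j.1 = D.act a i.1 ∧ i.1 + 1 < D.ν D.L ∧
  j.1 + 1 < D.ν D.L ∧ D.act a (i.1 + 1) = D.act a i.1 + 1 ∧ D.tr a (i.1 + 1) = D.tr a i.1

/-- the letters -/
def E : Type := Quot D.Rl

instance : Finite D.E := Quot.finite _

open Classical in
/-- the letter at a position -/
noncomputable def lett (k : ℤ) : FreeGroup D.E :=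
  if h : 0 ≤ k ∧ k < D.ν D.L then FreeGroup.of (Quot.mk _ ⟨k, h⟩) else 1

/-- the word up to a position -/
noncomputable def wd : ℕ → FreeGroup D.E
  | 0 => 1
  | n + 1 => wd n * D.lett n

/-- the word up to an integer position -/
noncomputable def W (k : ℤ) : FreeGroup D.E := D.wd k.toNat

theorem W_succ {k : ℤ} (hk : 0 ≤ k) : D.W (k + 1) = D.W k * D.lett k := by
  unfold W
  have : (k + 1).toNat = k.toNat + 1 := by omega
  rw [this]
  change D.wd k.toNat * D.lett (k.toNat : ℤ) = _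
  rw [Int.toNat_of_nonneg hk]

/-- the cocycle on the integral model -/
noncomputable def cc (a : G) (k : ℤ) : FreeGroup D.E := D.W (D.act a k) * (D.W k)⁻¹

/-- **The cocycle is constant on the bands: one step.** -/
theorem cc_succ {k : ℤ} (hk : 0 ≤ k) (hkL : k + 1 < D.ν D.L)
    (hB : ∀ c ∈ D.B, D.ν c ≤ k + 1 → D.ν c ≤ k) {a : G} (ha : a ∈ D.M) :
    D.cc a (k + 1) = D.cc a k := by
  have hk1 : 0 ≤ k + 1 := by omega
  have hkL0 : k < D.ν D.L := by omega
  have h1 : D.ρ a (D.p (k + 1)) - D.ρ a (D.p k) = D.p (k + 1) - D.p k := by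
    refine D.pt' ha (D.p_ge hk) (D.p_ge hk1) (fun c hc => ?_)
    rw [D.B_le_p hk hkL0 hc, D.B_le_p hk1 hkL hc]
    exact ⟨fun h => by omega, hB c hc⟩
  have h2 : D.tr a (k + 1) = D.tr a k := by
    unfold tr
    linarith
  have h3 : D.act a (k + 1) = D.act a k + 1 := by
    have := D.νeq (D.ρ a (D.p (k + 1))) (D.ZC1 (D.pC _ hk1) ha) (D.ρ a (D.p k))
      (D.ZC1 (D.pC _ hk) ha) (D.p k) (D.ZC0 (D.pC _ hk)) (D.p (k + 1)) (D.ZC0 (D.pC _ hk1))
      (by linarith)
    unfold act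
    omega
  have g1 := D.act_ge hk hkL0 ha
  have g2 := D.act_ge hk1 hkL ha
  rw [h3] at g2
  have h4 : D.lett (D.act a k) = D.lett k := by
    unfold lett
    rw [dif_pos g1, dif_pos ⟨hk, hkL0⟩]
    congr 1
    exact (Quot.sound (show D.Rl ⟨k, hk, hkL0⟩ ⟨D.act a k, g1⟩ from
      ⟨a, ha, rfl, hkL, g2.2, h3, h2⟩)).symm
  unfold cc
  rw [h3, D.W_succ g1.1, D.W_succ hk, h4]
  group

/-- **The cocycle is constant on the bands.** -/
theorem cc_band {k : ℤ} (hk : 0 ≤ k) {a : G} (ha : a ∈ D.M) (n : ℕ) (hkL : k + n < D.ν D.L)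
    (hB : ∀ c ∈ D.B, D.ν c ≤ k + n → D.ν c ≤ k) : D.cc a (k + n) = D.cc a k := by
  induction n with
  | zero => simp
  | succ n ih =>
    push_cast at hkL hB ⊢
    rw [← add_assoc, D.cc_succ (by omega) (by omega) ?_ ha]
    · exact ih (by omega) (fun c hc h => hB c hc (by omega))
    · intro c hc h
      have := hB c hc (by omega)
      omega

theorem cc_band' {k k' : ℤ} (hk : 0 ≤ k ∧ k < D.ν D.L) (hk' : 0 ≤ k' ∧ k' < D.ν D.L) {a : G}
    (ha : a ∈ D.M) (hB : ∀ c ∈ D.B, D.ν c ≤ k ↔ D.ν c ≤ k') : D.cc a k = D.cc a k' := by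
  rcases le_total k k' with h | h
  · obtain ⟨n, rfl⟩ := Int.le.dest h
    exact (D.cc_band hk.1 ha n hk'.2 (fun c hc => (hB c hc).2)).symm
  · obtain ⟨n, rfl⟩ := Int.le.dest h
    exact D.cc_band hk'.1 ha n hk.2 (fun c hc => (hB c hc).1)

/-! ### the real cocycle -/

/-- the last point before `y` -/
theorem exists_last {y : ℝ} (hy : 0 ≤ y ∧ y < D.L) :
    ∃ c ∈ D.C, c ≤ y ∧ ∀ d ∈ D.C, d ≤ y → d ≤ c := by
  classical
  obtain ⟨n, hn, hmax⟩ := Finset.exists_max_image (D.C.filter fun c => c ≤ y) id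
    ⟨0, by rw [Finset.mem_filter]; exact ⟨D.C0, hy.1⟩⟩
  rw [Finset.mem_filter] at hn
  refine ⟨n, hn.1, hn.2, fun d hd hdy => hmax d ?_⟩
  rw [Finset.mem_filter]
  exact ⟨hd, hdy⟩

open Classical in
/-- the last point before `y` -/
noncomputable def lst (y : ℝ) : ℝ := if h : 0 ≤ y ∧ y < D.L then (D.exists_last h).choose else 0

variable {y : ℝ}

theorem lst_spec (hy : 0 ≤ y ∧ y < D.L) :
    D.lst y ∈ D.C ∧ D.lst y ≤ y ∧ ∀ d ∈ D.C, d ≤ y → d ≤ D.lst y := by
  unfold lst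
  rw [dif_pos hy]
  exact (D.exists_last hy).choose_spec

/-- the integral point below `y` -/
noncomputable def kk (y : ℝ) : ℤ := D.ν (D.lst y)

theorem kk_ge (hy : 0 ≤ y ∧ y < D.L) : 0 ≤ D.kk y ∧ D.kk y < D.ν D.L := by
  have h := D.lst_spec hy
  constructor
  · have := D.ν_le (D.ZC0 D.C0) (D.ZC0 h.1) (D.Cge _ h.1).1
    rwa [D.ν0] at this
  · exact D.ν_lt (D.ZC0 h.1) D.ZL (D.Cge _ h.1).2

theorem p_kk (hy : 0 ≤ y ∧ y < D.L) : D.p (D.kk y) = D.lst y := by
  have h := D.lst_spec hy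
  have hk := D.kk_ge hy
  apply le_antisymm
  · exact (D.ν_le_iff (D.ZC0 (D.pC _ hk.1)) (D.ZC0 h.1)).1 (D.pν _ hk.1)
  · exact D.pmax _ hk.1 _ h.1 le_rfl

/-- breakpoints below `y` -/
theorem B_le_kk (hy : 0 ≤ y ∧ y < D.L) {c : ℝ} (hc : c ∈ D.B) : D.ν c ≤ D.kk y ↔ c ≤ y := by
  have h := D.lst_spec hy
  rw [kk, D.ν_le_iff (D.ZB hc) (D.ZC0 h.1)]
  refine ⟨fun h1 => h1.trans h.2.1, fun h1 => h.2.2 c (D.BC1 hc (lt_of_le_of_lt h1 hy.2)) h1⟩

/-- the image of `y` -/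
theorem ρ_lst (hy : 0 ≤ y ∧ y < D.L) {a : G} (ha : a ∈ D.M) :
    D.ρ a y - D.ρ a (D.lst y) = y - D.lst y := by
  have h := D.lst_spec hy
  refine D.pt' ha (D.Cge _ h.1) hy (fun c hc => ?_)
  refine ⟨fun h1 => h1.trans h.2.1, fun h1 => h.2.2 c (D.BC1 hc (lt_of_le_of_lt h1 hy.2)) h1⟩

/-- breakpoints below the image of `y` -/
theorem B_le_ρ (hy : 0 ≤ y ∧ y < D.L) {b : G} (hb : b ∈ D.M) {c : ℝ} (hc : c ∈ D.B) :
    c ≤ D.ρ b y ↔ c ≤ D.ρ b (D.lst y) := by
  have h := D.lst_spec hy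
  have h1 := D.ρ_lst hy hb
  constructor
  · intro h2
    by_contra hcon
    push Not at hcon
    obtain ⟨n, hnZ, hn, hnL, hmin, hnC⟩ := D.exists_next (D.Cge _ h.1).2
    have h3 := D.shift_le (D.Cge _ h.1).1 hnL hmin hb hc hcon
    have h4 : n ≤ y := by linarith
    have h5 := h.2.2 n (hnC (lt_of_le_of_lt h4 hy.2)) h4
    linarith
  · intro h2
    have := h.2.1
    linarith

theorem act_kk (hy : 0 ≤ y ∧ y < D.L) (a : G) : D.act a (D.kk y) = D.ν (D.ρ a (D.lst y)) := by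
  unfold act
  rw [D.p_kk hy]
  change D.ν (D.lst y) + _ = _
  ring

/-- **The free cocycle on the interval.** -/
theorem cc_mul (hy : 0 ≤ y ∧ y < D.L) {a b : G} (ha : a ∈ D.M) (hb : b ∈ D.M) :
    D.cc (a * b) (D.kk y) = D.cc a (D.kk (D.ρ b y)) * D.cc b (D.kk y) := by
  have hk := D.kk_ge hy
  have hby := D.mem_Ico b hy
  have h1 : D.cc a (D.kk (D.ρ b y)) = D.cc a (D.act b (D.kk y)) := by
    refine D.cc_band' (D.kk_ge hby) (D.act_ge hk.1 hk.2 hb) ha (fun c hc => ?_)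
    rw [D.B_le_kk hby hc, D.B_le_ρ hy hb hc, ← D.p_kk hy, D.B_le_act hk.1 hk.2 hb hc]
  rw [h1]
  unfold cc
  rw [D.act_mul hk.1 hk.2 ha hb]
  group

theorem cc_one (k : ℤ) : D.cc 1 k = 1 := by
  unfold cc
  rw [D.act_one]
  group

/-! ### the translation -/

variable {pos : ℤ → ℝ}
  (hpos : ∀ a ∈ D.M, ∀ k, 0 ≤ k → k < D.ν D.L → pos (D.act a k) = D.tr a k + pos k)

include hpos in
theorem Rl_pos (i j : D.Pt) (h : D.Rl i j) :
    pos (i.1 + 1) - pos i.1 = pos (j.1 + 1) - pos j.1 := by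
  obtain ⟨a, ha, h1, h2, h3, h4, h5⟩ := h
  have e1 := hpos a ha i.1 i.2.1 i.2.2
  have e2 := hpos a ha (i.1 + 1) (by have := i.2.1; omega) h2
  rw [h4, ← h1, h5] at e2
  rw [← h1] at e1
  linarith

/-- the translation of an element of the free group -/
noncomputable def tau : FreeGroup D.E →* Multiplicative ℝ :=
  FreeGroup.lift (Quot.lift (fun i : D.Pt => Multiplicative.ofAdd (pos (i.1 + 1) - pos i.1))
    (fun i j h => by rw [D.Rl_pos hpos i j h]))

theorem tau_lett {k : ℤ} (h : 0 ≤ k ∧ k < D.ν D.L) :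
    (D.tau hpos (D.lett k)).toAdd = pos (k + 1) - pos k := by
  unfold lett tau
  rw [dif_pos h]
  erw [FreeGroup.lift_apply_of]
  rfl

theorem tau_W (n : ℕ) (h : (n : ℤ) ≤ D.ν D.L) :
    (D.tau hpos (D.wd n)).toAdd = pos n - pos 0 := by
  induction n with
  | zero => simp [wd]
  | succ n ih =>
    push_cast at h ⊢
    change (D.tau hpos (D.wd n * D.lett n)).toAdd = _
    rw [map_mul, toAdd_mul, ih (by omega), D.tau_lett hpos ⟨by omega, by omega⟩]
    ring

theorem tau_W' {k : ℤ} (h : 0 ≤ k ∧ k < D.ν D.L) : (D.tau hpos (D.W k)).toAdd = pos k - pos 0 := by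
  have := D.tau_W hpos k.toNat (by omega)
  rw [Int.toNat_of_nonneg h.1] at this
  exact this

/-- **The translation of the cocycle.** -/
theorem tau_cc (hy : 0 ≤ y ∧ y < D.L) {a : G} (ha : a ∈ D.M) :
    y + (D.tau hpos (D.cc a (D.kk y))).toAdd = D.ρ a y := by
  have hk := D.kk_ge hy
  unfold cc
  rw [map_mul, map_inv, toAdd_mul, toAdd_inv, D.tau_W' hpos (D.act_ge hk.1 hk.2 ha),
    D.tau_W' hpos hk, hpos a ha _ hk.1 hk.2]
  have h := D.ρ_lst hy ha
  unfold tr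
  rw [D.p_kk hy]
  linarith

end Dat

end Vale.Agent.P192.Iet
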