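import Vale.Agent.P192.H826.Iet2
import Vale.Agent.P192.H630.Free

/-!
# P192: interval exchange transformations: the theorem
-/

namespace Vale.Agent.P192.Iet

/-- a multiplication table -/
def Table : Prop := ∀ (G : Type) [Group G] [Group.IsFinitelyPresented G],
  ∃ M : Set G, M.Finite ∧ 1 ∈ M ∧ (∀ a ∈ M, a⁻¹ ∈ M) ∧ Subgroup.closure M = ⊤ ∧
    ∀ (X : Type) (φ : G → X → X), φ 1 = id → (∀ a ∈ M, ∀ b ∈ M, φ (a * b) = φ a ∘ φ b) →
      ∃ ψ : G →* Equiv.Perm X, ∀ a ∈ M, ∀ x, ψ a x = φ a x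

/-- integral deformations -/
def Nu : Prop := ∀ Z : Finset ℝ, ∃ ν : ℝ → ℤ, ν 0 = 0 ∧
  ∀ x ∈ Z, ∀ y ∈ Z, ∀ z ∈ Z, ∀ w ∈ Z, (0 < x - y + z - w → 0 < ν x - ν y + ν z - ν w) ∧
    (x - y + z - w = 0 → ν x - ν y + ν z - ν w = 0)

namespace Dat

variable {G : Type} [Group G] (D : Dat G)

open Classical in
/-- the action on the integral model with real decorations -/
noncomputable def φ1 (g : G) (z : D.Pt × ℝ) : D.Pt × ℝ :=
  if h : 0 ≤ D.act g z.1.1 ∧ D.act g z.1.1 < D.ν D.L then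
    (⟨D.act g z.1.1, h⟩, D.tr g z.1.1 + z.2) else z

theorem φ1_of {g : G} (z : D.Pt × ℝ) (h : 0 ≤ D.act g z.1.1 ∧ D.act g z.1.1 < D.ν D.L) :
    D.φ1 g z = (⟨D.act g z.1.1, h⟩, D.tr g z.1.1 + z.2) := dif_pos h

theorem φ1_one : D.φ1 1 = id := by
  funext z
  have h : 0 ≤ D.act 1 z.1.1 ∧ D.act 1 z.1.1 < D.ν D.L := by
    rw [D.act_one]; exact z.1.2
  rw [D.φ1_of z h]
  refine Prod.ext (Subtype.ext ?_) ?_
  · exact D.act_one _
  · change D.tr 1 z.1.1 + z.2 = z.2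
    rw [D.tr_one, zero_add]

theorem φ1_mul {a b : G} (ha : a ∈ D.M) (hb : b ∈ D.M) : D.φ1 (a * b) = D.φ1 a ∘ D.φ1 b := by
  funext z
  have h1 := D.act_ge z.1.2.1 z.1.2.2 hb
  have h2 := D.act_ge h1.1 h1.2 ha
  have h3 : 0 ≤ D.act (a * b) z.1.1 ∧ D.act (a * b) z.1.1 < D.ν D.L := by
    rw [D.act_mul z.1.2.1 z.1.2.2 ha hb]; exact h2
  change D.φ1 (a * b) z = D.φ1 a (D.φ1 b z)
  rw [D.φ1_of z h3, D.φ1_of z h1, D.φ1_of _ h2]
  refine Prod.ext (Subtype.ext ?_) ?_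
  · exact D.act_mul z.1.2.1 z.1.2.2 ha hb
  · change D.tr (a * b) z.1.1 + z.2 = D.tr a (D.act b z.1.1) + (D.tr b z.1.1 + z.2)
    rw [D.tr_mul z.1.2.1 z.1.2.2 ha hb, add_assoc]

open Classical in
/-- the action on the line times the free group -/
noncomputable def φ2 (g : G) (z : ℝ × FreeGroup D.E) : ℝ × FreeGroup D.E :=
  if 0 ≤ z.1 ∧ z.1 < D.L then (D.ρ g z.1, D.cc g (D.kk z.1) * z.2) else z

theorem φ2_of {g : G} (z : ℝ × FreeGroup D.E) (h : 0 ≤ z.1 ∧ z.1 < D.L) :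
    D.φ2 g z = (D.ρ g z.1, D.cc g (D.kk z.1) * z.2) := if_pos h

theorem φ2_of' {g : G} (z : ℝ × FreeGroup D.E) (h : ¬ (0 ≤ z.1 ∧ z.1 < D.L)) :
    D.φ2 g z = z := if_neg h

theorem φ2_one : D.φ2 1 = id := by
  funext z
  by_cases h : 0 ≤ z.1 ∧ z.1 < D.L
  · rw [D.φ2_of z h, D.ρ_one, D.cc_one, one_mul]
    rfl
  · rw [D.φ2_of' z h]
    rfl

theorem φ2_mul {a b : G} (ha : a ∈ D.M) (hb : b ∈ D.M) : D.φ2 (a * b) = D.φ2 a ∘ D.φ2 b := by
  funext z
  change D.φ2 (a * b) z = D.φ2 a (D.φ2 b z)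
  by_cases h : 0 ≤ z.1 ∧ z.1 < D.L
  · have hb' := D.mem_Ico b h
    rw [D.φ2_of z h, D.φ2_of z h, D.φ2_of _ hb', D.ρ_mul, D.cc_mul h ha hb, mul_assoc]
  · rw [D.φ2_of' z h, D.φ2_of' z h, D.φ2_of' z h]

end Dat

/-- the free action -/
@[reducible] def fact {E : Type} (τ : FreeGroup E →* Multiplicative ℝ) :
    MulAction (FreeGroup E) (ℝ × FreeGroup E) where
  smul f z := (z.1 + (τ f).toAdd, f * z.2)
  one_smul z := by
    change (z.1 + (τ 1).toAdd, 1 * z.2) = z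
    rw [map_one, toAdd_one, add_zero, one_mul]
  mul_smul f g z := by
    change (z.1 + (τ (f * g)).toAdd, (f * g) * z.2) =
      ((z.1 + (τ g).toAdd) + (τ f).toAdd, f * (g * z.2))
    rw [map_mul, toAdd_mul, mul_assoc]
    congr 1
    ring

/-- **The core**: the action of the data has finite image. -/
theorem Dat.finite {G : Type} [Group G] [Group.IsFinitelyPresented G] (hG : IsMulTorsion G)
    (D : Dat G) (hgen : Subgroup.closure D.M = ⊤)
    (htab : ∀ (X : Type) (φ : G → X → X), φ 1 = id →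
      (∀ a ∈ D.M, ∀ b ∈ D.M, φ (a * b) = φ a ∘ φ b) →
      ∃ ψ : G →* Equiv.Perm X, ∀ a ∈ D.M, ∀ x, ψ a x = φ a x) : Finite D.ρ.range := by
  classical
  -- positions
  obtain ⟨Ψ, hΨ⟩ := htab _ D.φ1 D.φ1_one (fun a ha b hb => D.φ1_mul ha hb)
  have hcl : ∀ {P : G → Prop}, (∀ a ∈ D.M, P a) → P 1 → (∀ a b, P a → P b → P (a * b)) →
      (∀ a, P a → P a⁻¹) → ∀ g, P g := by
    intro P h1 h2 h3 h4 g
    have hg : g ∈ Subgroup.closure D.M := by rw [hgen]; trivial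
    induction hg using Subgroup.closure_induction with
    | mem x hx => exact h1 x hx
    | one => exact h2
    | mul a b _ _ ha hb => exact h3 a b ha hb
    | inv a _ ha => exact h4 a ha
  have hΨt : ∀ g x r, Ψ g (x, r) = ((Ψ g (x, 0)).1, (Ψ g (x, 0)).2 + r) := by
    refine hcl ?_ ?_ ?_ ?_
    · intro a ha x r
      have h := D.act_ge x.2.1 x.2.2 ha
      rw [hΨ a ha, hΨ a ha, D.φ1_of (x, r) h, D.φ1_of (x, 0) h]
      refine Prod.ext rfl ?_
      change D.tr a x.1 + r = D.tr a x.1 + 0 + r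
      ring
    · intro x r
      rw [map_one, Equiv.Perm.one_apply, Equiv.Perm.one_apply, zero_add]
    · intro a b ha hb x r
      rw [map_mul, Equiv.Perm.mul_apply, Equiv.Perm.mul_apply, hb x r, ha, hb x 0]
      conv_rhs => rw [ha]
      refine Prod.ext rfl ?_
      change _ + (_ + _) = _ + (_ + 0) + r
      ring
    · intro a ha x r
      obtain ⟨⟨y, s⟩, hy⟩ : ∃ z, Ψ a z = (x, 0) := (Ψ a).surjective _
      have e1 : Ψ a (y, s + r) = (x, r) := by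
        have h1 := ha y s
        have h2 := ha y (s + r)
        rw [hy] at h1
        rw [h2]
        have h3 := congrArg Prod.fst h1
        have h4 := congrArg Prod.snd h1
        refine Prod.ext h3.symm ?_
        change (0 : ℝ) = _ + s at h4
        change _ + (s + r) = r
        linarith
      have i1 : Ψ a⁻¹ (x, 0) = (y, s) := by
        rw [← hy, ← Equiv.Perm.mul_apply, ← map_mul, inv_mul_cancel, map_one]; rfl
      have i2 : Ψ a⁻¹ (x, r) = (y, s + r) := by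
        rw [← e1, ← Equiv.Perm.mul_apply, ← map_mul, inv_mul_cancel, map_one]; rfl
      rw [i1, i2]
  obtain ⟨pos0, hpos0⟩ := exists_pos (fun g => hG g) Ψ hΨt
  let pos : ℤ → ℝ := fun k => if h : 0 ≤ k ∧ k < D.ν D.L then pos0 ⟨k, h⟩ else 0
  have hposk : ∀ k (h : 0 ≤ k ∧ k < D.ν D.L), pos k = pos0 ⟨k, h⟩ := fun k h => dif_pos h
  have hpos : ∀ a ∈ D.M, ∀ k, 0 ≤ k → k < D.ν D.L → pos (D.act a k) = D.tr a k + pos k := by
    intro a ha k hk hkL
    have h := D.act_ge hk hkL ha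
    rw [hposk _ h, hposk k ⟨hk, hkL⟩]
    have h1 := hpos0 a ⟨k, hk, hkL⟩
    rw [hΨ a ha, D.φ1_of (⟨k, hk, hkL⟩, 0) h] at h1
    change pos0 ⟨D.act a k, h⟩ = D.tr a k + 0 + pos0 ⟨k, hk, hkL⟩ at h1
    rw [h1]
    ring
  -- the action on the line times the free group
  obtain ⟨Φ, hΦ⟩ := htab _ D.φ2 D.φ2_one (fun a ha b hb => D.φ2_mul ha hb)
  let τ := D.tau hpos
  let _ := fact τ
  have hfin := H630.free_group_image G hG D.E (ℝ × FreeGroup D.E) (by
      intro f z hz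
      have h1 : f * z.2 = z.2 := congrArg Prod.snd hz
      exact mul_eq_right.1 h1) Φ (by
    refine hcl ?_ ?_ ?_ ?_
    · intro a ha
      refine ⟨insert 1 ((fun k : D.Pt => D.cc a k.1) '' Set.univ),
        (Set.toFinite _).insert 1, fun z => ?_⟩
      by_cases h : 0 ≤ z.1 ∧ z.1 < D.L
      · refine ⟨D.cc a (D.kk z.1), Set.mem_insert_of_mem _ ⟨⟨D.kk z.1, D.kk_ge h⟩, trivial, rfl⟩,
          ?_⟩
        rw [hΦ a ha, D.φ2_of z h]
        refine Prod.ext ?_ rfl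
        exact (D.tau_cc hpos h ha).symm
      · refine ⟨1, Set.mem_insert _ _, ?_⟩
        rw [hΦ a ha, D.φ2_of' z h, one_smul]
    · refine ⟨{1}, Set.finite_singleton _, fun z => ⟨1, rfl, ?_⟩⟩
      rw [map_one, one_smul]
      rfl
    · rintro a b ⟨E1, hE1, h1⟩ ⟨E2, hE2, h2⟩
      refine ⟨Set.image2 (fun x y => x * y) E1 E2, hE1.image2 _ hE2, fun z => ?_⟩
      obtain ⟨f2, hf2, e2⟩ := h2 z
      obtain ⟨f1, hf1, e1⟩ := h1 (Φ b z)
      refine ⟨f1 * f2, ⟨f1, hf1, f2, hf2, rfl⟩, ?_⟩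
      rw [map_mul, Equiv.Perm.mul_apply, e1, e2, mul_smul]
    · rintro a ⟨E1, hE1, h1⟩
      refine ⟨(fun x => x⁻¹) '' E1, hE1.image _, fun z => ?_⟩
      obtain ⟨f, hf, e⟩ := h1 (Φ a⁻¹ z)
      refine ⟨f⁻¹, ⟨f, hf, rfl⟩, ?_⟩
      rw [← Equiv.Perm.mul_apply, ← map_mul, mul_inv_cancel, map_one, Equiv.Perm.one_apply] at e
      conv_rhs => rw [e]
      rw [inv_smul_smul])
  -- the first coordinate
  have hfst : ∀ g, ∀ z, (Φ g z).1 = D.ρ g z.1 := by
    refine hcl ?_ ?_ ?_ ?_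
    · intro a ha z
      rw [hΦ a ha]
      by_cases h : 0 ≤ z.1 ∧ z.1 < D.L
      · rw [D.φ2_of z h]
      · rw [D.φ2_of' z h, D.out a z.1 h]
    · intro z
      rw [map_one, D.ρ_one]
      rfl
    · intro a b ha hb z
      rw [map_mul, Equiv.Perm.mul_apply, ha, hb, D.ρ_mul]
    · intro a ha z
      have h1 := ha (Φ a⁻¹ z)
      rw [← Equiv.Perm.mul_apply, ← map_mul, mul_inv_cancel, map_one, Equiv.Perm.one_apply] at h1
      rw [h1, ← Equiv.Perm.mul_apply, ← map_mul, inv_mul_cancel, map_one, Equiv.Perm.one_apply]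
  have hker : ∀ g g', Φ g = Φ g' → D.ρ g = D.ρ g' := by
    intro g g' h
    apply Equiv.ext
    intro x
    rw [← hfst g (x, 1), ← hfst g' (x, 1), h]
  have hsurj : ∀ y : D.ρ.range, ∃ x : Φ.range, ∀ g, Φ g = x.1 → D.ρ g = y.1 := by
    rintro ⟨_, g, rfl⟩
    exact ⟨⟨Φ g, g, rfl⟩, fun g' h => hker g' g h⟩
  choose f hf using hsurj
  refine Finite.of_injective f ?_
  intro y y' h
  obtain ⟨g, hg⟩ := (f y).2
  have h1 := hf y g hg
  have h2 := hf y' g (by rw [← h]; exact hg)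
  exact Subtype.ext (h1.symm.trans h2)

/-- **Interval exchange transformations.** -/
theorem core_of (hT : Table) (hN : Nu) (G : Type) [Group G] [Group.IsFinitelyPresented G]
    (hG : IsMulTorsion G) (L : ℝ) (ρ : G →* Equiv.Perm ℝ)
    (hout : ∀ g x, x ∉ Set.Ico 0 L → ρ g x = x)
    (hpt : ∀ g, ∃ B : Finset ℝ, ∀ x y, 0 ≤ x → x < y → y < L → (∀ b ∈ B, ¬ (x < b ∧ b ≤ y)) →
      ρ g y - ρ g x = y - x) : Finite ρ.range := by
  classical
  rcases le_or_gt L 0 with hL | hL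
  · -- empty interval
    have h1 : ∀ g, ρ g = 1 := by
      intro g
      apply Equiv.ext
      intro x
      refine hout g x ?_
      rintro ⟨h2, h3⟩
      linarith
    have : Subsingleton ρ.range := by
      refine ⟨?_⟩
      rintro ⟨_, g, rfl⟩ ⟨_, g', rfl⟩
      apply Subtype.ext
      change ρ g = ρ g'
      rw [h1, h1]
    infer_instance
  obtain ⟨M, hMf, hM1, hMinv, hgen, htab⟩ := hT G
  choose Bg hBg using hpt
  let Mf : Finset G := hMf.toFinset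
  have hMm : ∀ a, a ∈ Mf ↔ a ∈ M := fun a => hMf.mem_toFinset
  let B : Finset ℝ := insert 0 (insert L ((Mf.biUnion Bg).filter fun b => 0 ≤ b ∧ b ≤ L))
  have hB0 : (0 : ℝ) ∈ B := Finset.mem_insert_self _ _
  have hBL : L ∈ B := Finset.mem_insert_of_mem (Finset.mem_insert_self _ _)
  have hBge : ∀ b ∈ B, 0 ≤ b ∧ b ≤ L := by
    intro b hb
    rw [Finset.mem_insert, Finset.mem_insert, Finset.mem_filter] at hb
    rcases hb with h | h | h
    · rw [h]; exact ⟨le_rfl, hL.le⟩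
    · rw [h]; exact ⟨hL.le, le_rfl⟩
    · exact h.2
  have hBpt : ∀ a ∈ M, ∀ x y, 0 ≤ x → x < y → y < L → (∀ b ∈ B, ¬ (x < b ∧ b ≤ y)) →
      ρ a y - ρ a x = y - x := by
    intro a ha x y hx hxy hy hb
    refine hBg a x y hx hxy hy (fun b hbB h => hb b ?_ h)
    refine Finset.mem_insert_of_mem (Finset.mem_insert_of_mem (Finset.mem_filter.2 ⟨?_, ?_⟩))
    · exact Finset.mem_biUnion.2 ⟨a, (hMm a).2 ha, hbB⟩
    · exact ⟨by linarith [h.1], by linarith [h.2]⟩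
  let C : Finset ℝ := (Mf.biUnion fun a => B.image fun b => (ρ a)⁻¹ b).filter
    fun c => 0 ≤ c ∧ c < L
  have hCge : ∀ c ∈ C, 0 ≤ c ∧ c < L := fun c hc => (Finset.mem_filter.1 hc).2
  have hBC : ∀ a ∈ M, ∀ x, 0 ≤ x → x < L → ρ a x ∈ B → x ∈ C := by
    intro a ha x hx hxL hax
    refine Finset.mem_filter.2 ⟨Finset.mem_biUnion.2 ⟨a, (hMm a).2 ha,
      Finset.mem_image.2 ⟨_, hax, ?_⟩⟩, hx, hxL⟩
    exact (ρ a).symm_apply_apply x
  let Z : Finset ℝ := insert L (Mf.biUnion fun a => Mf.biUnion fun b => C.image (ρ (a * b)))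
  have hZL : L ∈ Z := Finset.mem_insert_self _ _
  have hZC : ∀ c ∈ C, ∀ a ∈ M, ∀ b ∈ M, ρ (a * b) c ∈ Z := by
    intro c hc a ha b hb
    exact Finset.mem_insert_of_mem (Finset.mem_biUnion.2 ⟨a, (hMm a).2 ha,
      Finset.mem_biUnion.2 ⟨b, (hMm b).2 hb, Finset.mem_image_of_mem _ hc⟩⟩)
  obtain ⟨ν, hν0, hν⟩ := hN Z
  have hC0 : (0 : ℝ) ∈ C := by
    refine hBC 1 hM1 0 le_rfl hL ?_
    rw [map_one]
    exact hB0
  have hp : ∀ k : ℤ, ∃ c : ℝ, 0 ≤ k → c ∈ C ∧ ν c ≤ k ∧ ∀ d ∈ C, ν d ≤ k → d ≤ c := by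
    intro k
    by_cases hk : 0 ≤ k
    · obtain ⟨c, hc, hmax⟩ := Finset.exists_max_image (C.filter fun c => ν c ≤ k) id
        ⟨0, by rw [Finset.mem_filter]; exact ⟨hC0, by rw [hν0]; exact hk⟩⟩
      rw [Finset.mem_filter] at hc
      refine ⟨c, fun _ => ⟨hc.1, hc.2, fun d hd hdk => hmax d ?_⟩⟩
      rw [Finset.mem_filter]
      exact ⟨hd, hdk⟩
    · exact ⟨0, fun h => absurd h hk⟩
  choose p hp using hp
  let D : Dat G :=
    { M := M
      one := hM1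
      L := L
      hL := hL
      ρ := ρ
      out := hout
      B := B
      B0 := hB0
      BL := hBL
      Bge := hBge
      pt := hBpt
      C := C
      Cge := hCge
      BC := hBC
      Z := (Z : Set ℝ)
      ZL := hZL
      ZC := hZC
      ν := ν
      ν0 := hν0
      νpos := fun x hx y hy z hz w hw h => (hν x hx y hy z hz w hw).1 h
      νeq := fun x hx y hy z hz w hw h => (hν x hx y hy z hz w hw).2 h
      p := p
      pC := fun k hk => (hp k hk).1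
      pν := fun k hk => (hp k hk).2.1
      pmax := fun k hk => (hp k hk).2.2 }
  exact D.finite hG hgen htab

end Vale.Agent.P192.Iet
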