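import Vale.Agent.P192.H826.Iet3
import Vale.Agent.P192.H260.Nu
import Vale.Agent.P192.H260.Table

/-!
# P192: interval exchange transformations: unconditional form
-/

namespace Vale.Agent.P192.Iet

/-- **Interval exchange transformations of an interval.** A finitely presented periodic group
acting on `[0, L)` by interval exchanges has finite image. -/
theorem core (G : Type) [Group G] [Group.IsFinitelyPresented G]
    (hG : IsMulTorsion G) (L : ℝ) (ρ : G →* Equiv.Perm ℝ)
    (hout : ∀ g x, x ∉ Set.Ico 0 L → ρ g x = x)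
    (hpt : ∀ g, ∃ B : Finset ℝ, ∀ x y, 0 ≤ x → x < y → y < L → (∀ b ∈ B, ¬ (x < b ∧ b ≤ y)) →
      ρ g y - ρ g x = y - x) : Finite ρ.range :=
  core_of (fun G _ _ => H260.exists_table G) (fun Z => H260.exists_nu Z) G hG L ρ hout hpt

end Vale.Agent.P192.Iet
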