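import Vale.Agent.P192.H826.RaysA
import Vale.Agent.P192.H491.FV

/-!
# P192: self-similar groups over arbitrary alphabets: the abstract extension lemma
-/

namespace Vale.Agent.P192

universe u v w

namespace SS

variable {T : Type u} {Y : Type v} [Group T] (S : SS T Y)

/-- the recursion modulo the `n`-th kernel -/
def KnHom (n : ℕ) : T →* Wr (T ⧸ S.Kn n) Y where
  toFun := fun g => ⟨S.σ g, fun y => QuotientGroup.mk (S.sec g y)⟩
  map_one' := by
    apply Wr.ext'
    · exact map_one S.σ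
    · intro y
      change (QuotientGroup.mk (S.sec 1 y) : T ⧸ S.Kn n) = 1
      rw [S.sec_one]; rfl
  map_mul' := fun a b => by
    apply Wr.ext'
    · exact map_mul S.σ a b
    · intro y
      change (QuotientGroup.mk (S.sec (a * b) y) : T ⧸ S.Kn n) = _
      rw [S.sec_mul]; rfl

theorem KnHom_eq_one {n : ℕ} {g : T} : S.KnHom n g = 1 ↔ g ∈ S.Kn (n + 1) := by
  rw [S.mem_Kn_succ]
  constructor
  · intro h
    exact ⟨congrArg Wr.p h, fun y => (QuotientGroup.eq_one_iff _).1 (congrFun (congrArg Wr.f h) y)⟩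
  · intro h
    exact Wr.ext' h.1 (fun y => (QuotientGroup.eq_one_iff _).2 (h.2 y))

/-- the quotients by the kernels are in the class (arbitrary alphabets) -/
theorem fpb_quot_Kn' (hσ : FPB S.σ.range) (hfin : ∀ g, (Set.range (S.sec g)).Finite)
    (hT : FPB T) (n : ℕ) : FPB (T ⧸ S.Kn n) := by
  induction n with
  | zero => exact fpb_of_equiv (QuotientGroup.quotientBot (G := T)) hT
  | succ n ih =>
    have hle : S.Kn (n + 1) ≤ (S.KnHom n).rangeRestrict.ker := by
      intro g hg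
      rw [MonoidHom.mem_ker]
      exact Subtype.ext (S.KnHom_eq_one.2 hg)
    refine fpb_of_injective (QuotientGroup.lift (S.Kn (n + 1)) (S.KnHom n).rangeRestrict hle) ?_ ?_
    · rw [injective_iff_map_eq_one]
      intro a ha
      induction a using QuotientGroup.induction_on with
      | H z =>
        have h1 : (S.KnHom n).rangeRestrict z = 1 := ha
        exact (QuotientGroup.eq_one_iff z).2 (S.KnHom_eq_one.1 (congrArg Subtype.val h1))
    · refine fpb_wr_finval ih _ ?_ ?_
      · rintro _ ⟨g, rfl⟩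
        refine ((hfin g).image (fun t => (QuotientGroup.mk t : T ⧸ S.Kn n))).subset ?_
        rintro _ ⟨y, rfl⟩
        exact ⟨_, ⟨y, rfl⟩, rfl⟩
      · refine fpb_mono ?_ hσ
        rintro _ ⟨_, ⟨g, rfl⟩, rfl⟩
        exact ⟨g, rfl⟩

theorem EW_of_sec' {L : Type w} [Group L] (SL : SS L Y) {W : Set L}
    (hW : ∀ g ∈ W, ∀ y, SL.sec g y ∈ W) (g : L) (hfin : (Set.range (SL.sec g)).Finite)
    (h : ∀ y, ∃ n, EW SL W n (SL.sec g y)) : ∃ n, EW SL W n g := by
  have h' : ∀ k : L, ∃ n, k ∈ Set.range (SL.sec g) → EW SL W n k := by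
    intro k
    by_cases hk : k ∈ Set.range (SL.sec g)
    · obtain ⟨y, rfl⟩ := hk
      obtain ⟨n, hn⟩ := h y
      exact ⟨n, fun _ => hn⟩
    · exact ⟨0, fun h0 => absurd h0 hk⟩
  choose N hN using h'
  obtain ⟨m, hm⟩ := (hfin.image N).bddAbove
  refine ⟨m + 1, fun y => EW_mono SL hW ?_ _ (hN _ ⟨y, rfl⟩)⟩
  exact hm ⟨_, ⟨y, rfl⟩, rfl⟩

namespace WData

variable {S} {L : Type w} [Group L] (D : WData S L)

theorem E_mul' (hfin : ∀ g, (Set.range (D.SL.sec g)).Finite) (n : ℕ) {a b : L}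
    (ha : EW D.SL D.W n a) (hb : EW D.SL D.W n b) : ∃ m, EW D.SL D.W m (a * b) := by
  induction n generalizing a b with
  | zero => exact D.W_mul a ha b hb
  | succ n ih =>
    apply EW_of_sec' D.SL D.W_sec _ (hfin _)
    intro y
    rw [D.SL.sec_mul]
    exact ih (ha _) (hb _)

theorem E_all' (hfin : ∀ g, (Set.range (D.SL.sec g)).Finite) (g : L) :
    ∃ m, EW D.SL D.W m g := by
  have hg : g ∈ Subgroup.closure {g : L | ∃ n, EW D.SL D.W n g} := by
    rw [D.gen]; trivial
  induction hg using Subgroup.closure_induction with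
  | mem x hx => exact hx
  | one => exact ⟨0, D.one_W⟩
  | mul x y _ _ hx hy =>
    obtain ⟨n, hn⟩ := hx
    obtain ⟨m, hm⟩ := hy
    exact D.E_mul' hfin (max n m) (D.E_mono (le_max_left _ _) _ hn)
      (D.E_mono (le_max_right _ _) _ hm)
  | inv x _ hx =>
    obtain ⟨n, hn⟩ := hx
    exact ⟨n, D.E_inv n _ hn⟩

/-- **The abstract extension lemma, arbitrary alphabets.** -/
theorem fpb_range' (hf : S.Faithful) (hσ : FPB S.σ.range)
    (hfin : ∀ g, (Set.range (D.SL.sec g)).Finite) (hL : FPB L) : FPB D.π.range := by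
  have hσ' : FPB D.SL.σ.range := by
    refine fpb_mono ?_ hσ
    rintro _ ⟨g, rfl⟩
    exact ⟨D.π g, (D.σ_eq g).symm⟩
  refine fpb_iUnion_ker D.π.rangeRestrict D.π.rangeRestrict_surjective D.SL.Kn
    D.SL.Kn_le_succ ?_ (fun n => D.SL.fpb_quot_Kn' hσ' hfin hL n)
  intro x
  have h1 : D.π.rangeRestrict x = 1 ↔ D.π x = 1 :=
    ⟨fun h => congrArg Subtype.val h, fun h => Subtype.ext h⟩
  rw [h1]
  constructor
  · intro hx
    obtain ⟨n, hn⟩ := D.E_all' hfin x
    exact ⟨n, D.mem_Kn n x hn hx⟩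
  · rintro ⟨n, hn⟩
    exact D.π_of_mem_Kn hf n x hn

/-- all deep sections of the elements of the range are images of special elements -/
theorem range_secL' (hfin : ∀ g, (Set.range (D.SL.sec g)).Finite) {g : T} (hg : g ∈ D.π.range) :
    ∃ n, ∀ v : List Y, v.length = n → ∃ q ∈ D.W, S.secL g v = D.π q := by
  obtain ⟨l, rfl⟩ := hg
  obtain ⟨n, hn⟩ := D.E_all' hfin l
  exact ⟨n, fun v hv => ⟨_, EW_secL _ _ n l hn v hv, (D.π_secL l v).symm⟩⟩

end WData

/-- finiteness of the set of sections at the letters passes to the group generated -/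
theorem fin_sec_of_closure (A : Set T) (hA : Subgroup.closure A = ⊤)
    (h : ∀ a ∈ A, (Set.range (S.sec a)).Finite) (g : T) : (Set.range (S.sec g)).Finite := by
  have hg : g ∈ Subgroup.closure A := by rw [hA]; trivial
  induction hg using Subgroup.closure_induction with
  | mem x hx => exact h x hx
  | one =>
    refine (Set.finite_singleton (1 : T)).subset ?_
    rintro _ ⟨y, rfl⟩
    exact S.sec_one y
  | mul a b _ _ ha hb =>
    refine (ha.image2 (fun x y => x * y) hb).subset ?_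
    rintro _ ⟨y, rfl⟩
    rw [S.sec_mul]
    exact ⟨_, ⟨_, rfl⟩, _, ⟨y, rfl⟩, rfl⟩
  | inv a _ ha =>
    refine (ha.image (fun x => x⁻¹)).subset ?_
    rintro _ ⟨y, rfl⟩
    rw [S.sec_inv]
    exact ⟨_, ⟨_, rfl⟩, rfl⟩

end SS

end Vale.Agent.P192
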