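import Vale.Agent.P192.H826.InfA
import Vale.Agent.P192.H260.GpdFam

/-!
# P192: the theorem on groupoids of rays, arbitrary alphabets and arbitrary groupoids

`V` is a family of sets of elements indexed by the rays, closed like a groupoid, containing the
subgroup `H`, closed under sections along the ray, with sections off the ray in `H`.  If `H` and
the stabilizers are in the class, so is the group generated by `H` and all `V ξ`.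
-/

namespace Vale.Agent.P192

universe u v w

namespace SS

variable {T : Type u} {Y : Type v} [Group T]

/-- A groupoid of elements over the rays. -/
structure VFam (S : SS T Y) (H : Subgroup T) where
  V : (ℕ → Y) → Set T
  hc : ∀ h ∈ H, ∀ y, S.sec h y ∈ H
  vmul : ∀ (ξ : ℕ → Y) (g g' : T), g ∈ V ξ → g' ∈ V (S.ract g ξ) → g' * g ∈ V ξ
  vinv : ∀ (ξ : ℕ → Y) (g : T), g ∈ V ξ → g⁻¹ ∈ V (S.ract g ξ)
  H_le : ∀ (ξ : ℕ → Y) (h : T), h ∈ H → h ∈ V ξ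
  sec_mem : ∀ (ξ : ℕ → Y) (g : T), g ∈ V ξ → S.sec g (ξ 0) ∈ V (shf ξ)
  sec_mem' : ∀ (ξ : ℕ → Y) (g : T), g ∈ V ξ → ∀ y, y ≠ ξ 0 → S.sec g y ∈ H
  finH : ∀ h ∈ H, (Set.range (S.sec h)).Finite
  finV : ∀ (ξ : ℕ → Y) (g : T), g ∈ V ξ → (Set.range (S.sec g)).Finite

/-- the rays, with the action of `T` coming from `S` -/
def Rz (_S : SS T Y) : Type v := ℕ → Y

instance (S : SS T Y) : MulAction T S.Rz where
  smul := S.ract
  one_smul := S.ract_one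
  mul_smul := S.ract_mul

namespace VFam

variable {S : SS T Y} {H : Subgroup T} (F : S.VFam H)

/-- the stabilizer of a ray -/
def stab (ξ : ℕ → Y) : Subgroup T where
  carrier := {g | g ∈ F.V ξ ∧ S.ract g ξ = ξ}
  one_mem' := ⟨F.H_le ξ 1 (one_mem H), S.ract_one ξ⟩
  mul_mem' := by
    rintro a b ⟨ha, ha'⟩ ⟨hb, hb'⟩
    refine ⟨F.vmul ξ b a hb (by rw [hb']; exact ha), ?_⟩
    rw [S.ract_mul, hb', ha']
  inv_mem' := by
    rintro a ⟨ha, ha'⟩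
    have h := F.vinv ξ a ha
    rw [ha'] at h
    refine ⟨h, ?_⟩
    have h2 := S.ract_inv a ξ
    rwa [ha'] at h2

/-- the family over the rays -/
def fam : GpdFam T S.Rz H where
  V := fun ξ => F.V ξ
  mul_mem := fun ξ g g' hg hg' => F.vmul ξ g g' hg hg'
  inv_mem := fun ξ g hg => F.vinv ξ g hg
  H_le := fun ξ h hh => F.H_le ξ h hh

/-- the universal group -/
abbrev L : Type (max v u) := F.fam.Gp

/-- generators in `H` -/
abbrev ofH : H →* F.L := F.fam.iH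

/-- generators in the groupoid -/
abbrev ofV (ξ : ℕ → Y) (g : T) (hg : g ∈ F.V ξ) : F.L := F.fam.iV (X := S.Rz) ξ g hg

theorem ofV_mul (ξ : ℕ → Y) (g g' : T) (hg : g ∈ F.V ξ) (hg' : g' ∈ F.V (S.ract g ξ)) :
    F.ofV (S.ract g ξ) g' hg' * F.ofV ξ g hg = F.ofV ξ (g' * g) (F.vmul ξ g g' hg hg') :=
  F.fam.iV_mul (X := S.Rz) ξ g g' hg hg'

theorem ofV_H (ξ : ℕ → Y) (h : T) (hh : h ∈ H) (hV : h ∈ F.V ξ) : F.ofV ξ h hV = F.ofH ⟨h, hh⟩ :=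
  F.fam.iV_H (X := S.Rz) ξ h hh

theorem ofV_congr {ξ ξ' : ℕ → Y} {g g' : T} (h1 : ξ = ξ') (h2 : g = g') (hg : g ∈ F.V ξ)
    (hg' : g' ∈ F.V ξ') : F.ofV ξ g hg = F.ofV ξ' g' hg' := by
  subst h1; subst h2; rfl

theorem ofV_one (ξ : ℕ → Y) (h : (1 : T) ∈ F.V ξ) : F.ofV ξ 1 h = 1 := by
  rw [F.ofV_H ξ 1 (one_mem _) h]
  exact map_one F.ofH

theorem ofV_inv (ξ : ℕ → Y) (g : T) (hg : g ∈ F.V ξ) :
    (F.ofV ξ g hg)⁻¹ = F.ofV (S.ract g ξ) g⁻¹ (F.vinv ξ g hg) := by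
  have h1 := F.ofV_mul ξ g g⁻¹ hg (F.vinv ξ g hg)
  have h2 : F.ofV ξ (g⁻¹ * g) (F.vmul ξ g g⁻¹ hg (F.vinv ξ g hg)) = 1 :=
    (F.ofV_congr rfl (inv_mul_cancel g) _ (F.H_le ξ 1 (one_mem H))).trans (F.ofV_one ξ _)
  rw [h2] at h1
  exact (eq_inv_of_mul_eq_one_left h1).symm

/-- the wreath recursion on `H` -/
def recH : H →* Wr F.L Y where
  toFun := fun h => ⟨S.σ h, fun y' => F.ofH ⟨S.sec h y', F.hc h h.2 y'⟩⟩
  map_one' := by
    ext y'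
    · simp
    · change F.ofH ⟨S.sec 1 y', _⟩ = 1
      rw [← map_one F.ofH]
      congr 1
      exact Subtype.ext (S.sec_one _)
  map_mul' := fun a b => by
    ext y'
    · simp
    · change F.ofH ⟨S.sec (a.1 * b.1) y', _⟩ = F.ofH _ * F.ofH _
      rw [← map_mul F.ofH]
      congr 1
      exact Subtype.ext (S.sec_mul _ _ _)

open Classical in
/-- the wreath recursion on the elements of the groupoid -/
noncomputable def recV (ξ : ℕ → Y) (g : T) (hg : g ∈ F.V ξ) : Wr F.L Y :=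
  ⟨S.σ g, fun y => if h : y = ξ 0 then F.ofV (shf ξ) (S.sec g (ξ 0)) (F.sec_mem ξ g hg)
    else F.ofH ⟨S.sec g y, F.sec_mem' ξ g hg y h⟩⟩

theorem recV_f (ξ : ℕ → Y) (g : T) (hg : g ∈ F.V ξ) :
    (F.recV ξ g hg).f (ξ 0) = F.ofV (shf ξ) (S.sec g (ξ 0)) (F.sec_mem ξ g hg) := by
  simp only [recV]
  exact dif_pos trivial

theorem recV_f' (ξ : ℕ → Y) (g : T) (hg : g ∈ F.V ξ) (y : Y) (h : y ≠ ξ 0) :
    (F.recV ξ g hg).f y = F.ofH ⟨S.sec g y, F.sec_mem' ξ g hg y h⟩ := by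
  simp only [recV]
  exact dif_neg h

theorem recV_mul (ξ : ℕ → Y) (g g' : T) (hg : g ∈ F.V ξ) (hg' : g' ∈ F.V (S.ract g ξ)) :
    F.recV (S.ract g ξ) g' hg' * F.recV ξ g hg =
      F.recV ξ (g' * g) (F.vmul ξ g g' hg hg') := by
  apply Wr.ext'
  · change S.σ g' * S.σ g = S.σ (g' * g)
    rw [map_mul]
  · intro y
    change (F.recV (S.ract g ξ) g' hg').f (S.σ g y) * (F.recV ξ g hg).f y = _
    by_cases h : y = ξ 0
    · subst h
      rw [← S.ract_zero, F.recV_f, F.recV_f, F.recV_f]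
      have e1 : F.ofV (shf (S.ract g ξ)) (S.sec g' (S.ract g ξ 0))
          (F.sec_mem (S.ract g ξ) g' hg') =
          F.ofV (S.ract (S.sec g (ξ 0)) (shf ξ)) (S.sec g' (S.ract g ξ 0))
            (by rw [S.ract_shf]; exact F.sec_mem (S.ract g ξ) g' hg') :=
        F.ofV_congr (S.ract_shf g ξ).symm rfl _ _
      rw [e1, F.ofV_mul]
      exact F.ofV_congr rfl (S.sec_mul g' g (ξ 0)).symm _ _
    · have h2 : S.σ g y ≠ S.ract g ξ 0 := fun h3 => h ((S.σ g).injective h3)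
      rw [F.recV_f' _ _ _ _ h, F.recV_f' _ _ _ _ h, F.recV_f' _ _ _ _ h2, ← map_mul F.ofH]
      congr 1
      exact Subtype.ext (S.sec_mul g' g y).symm

theorem recV_H (ξ : ℕ → Y) (h : T) (hh : h ∈ H) (hV : h ∈ F.V ξ) :
    F.recV ξ h hV = F.recH ⟨h, hh⟩ := by
  apply Wr.ext'
  · rfl
  · intro y
    by_cases h0 : y = ξ 0
    · subst h0
      rw [F.recV_f, F.ofV_H _ _ (F.hc h hh (ξ 0))]
      rfl
    · rw [F.recV_f' _ _ _ _ h0]
      rfl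

/-- the wreath recursion -/
noncomputable def Φ : F.L →* Wr F.L Y :=
  F.fam.lift F.recH (fun ξ g hg => F.recV ξ g hg) (fun ξ g g' hg hg' => F.recV_mul ξ g g' hg hg')
    (fun ξ h hh => F.recV_H ξ h hh _)

theorem Φ_ofH (h : H) : F.Φ (F.ofH h) = F.recH h := F.fam.lift_iH _ _ _ _ h

theorem Φ_ofV (ξ : ℕ → Y) (g : T) (hg : g ∈ F.V ξ) : F.Φ (F.ofV ξ g hg) = F.recV ξ g hg :=
  F.fam.lift_iV _ _ _ _ (X := S.Rz) ξ g hg

/-- the projection -/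
def π : F.L →* T := F.fam.lift H.subtype (fun _ g _ => g) (fun _ _ _ _ _ => rfl) (fun _ _ _ => rfl)

theorem π_ofH (h : H) : F.π (F.ofH h) = h.1 := F.fam.lift_iH _ _ _ _ h

theorem π_ofV (ξ : ℕ → Y) (g : T) (hg : g ∈ F.V ξ) : F.π (F.ofV ξ g hg) = g :=
  F.fam.lift_iV _ _ _ _ (X := S.Rz) ξ g hg

/-- the generators -/
def gens : Set F.L := {x | (∃ h, x = F.ofH h) ∨ ∃ ξ g, ∃ hg : g ∈ F.V ξ, x = F.ofV ξ g hg}

theorem closure_gens : Subgroup.closure F.gens = ⊤ := by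
  rw [eq_top_iff, ← F.fam.gen]
  apply (Subgroup.closure_le _).2
  rintro _ (⟨h, rfl⟩ | ⟨ξ, g, hg, rfl⟩)
  · exact Subgroup.subset_closure (Or.inl ⟨h, rfl⟩)
  · exact Subgroup.subset_closure (Or.inr ⟨ξ, g, hg, rfl⟩)

/-- the self-similar structure -/
noncomputable def SL : SS F.L Y := SS.ofHom F.Φ

theorem SL_σ_ofH (h : H) : F.SL.σ (F.ofH h) = S.σ h := by
  change (F.Φ (F.ofH h)).p = _
  rw [F.Φ_ofH]; rfl

theorem SL_σ_ofV (ξ : ℕ → Y) (g : T) (hg : g ∈ F.V ξ) : F.SL.σ (F.ofV ξ g hg) = S.σ g := by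
  change (F.Φ (F.ofV ξ g hg)).p = _
  rw [F.Φ_ofV]; rfl

theorem SL_sec_ofH (h : H) (y : Y) :
    F.SL.sec (F.ofH h) y = F.ofH ⟨S.sec h y, F.hc h h.2 y⟩ := by
  change (F.Φ (F.ofH h)).f y = _
  rw [F.Φ_ofH]; rfl

theorem SL_sec_ofV (ξ : ℕ → Y) (g : T) (hg : g ∈ F.V ξ) :
    F.SL.sec (F.ofV ξ g hg) (ξ 0) = F.ofV (shf ξ) (S.sec g (ξ 0)) (F.sec_mem ξ g hg) := by
  change (F.Φ (F.ofV ξ g hg)).f (ξ 0) = _
  rw [F.Φ_ofV, F.recV_f]

theorem SL_sec_ofV' (ξ : ℕ → Y) (g : T) (hg : g ∈ F.V ξ) (y : Y) (h : y ≠ ξ 0) :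
    F.SL.sec (F.ofV ξ g hg) y = F.ofH ⟨S.sec g y, F.sec_mem' ξ g hg y h⟩ := by
  change (F.Φ (F.ofV ξ g hg)).f y = _
  rw [F.Φ_ofV, F.recV_f' _ _ _ _ h]

theorem SL_both (x : F.L) :
    F.SL.σ x = S.σ (F.π x) ∧ ∀ y, F.π (F.SL.sec x y) = S.sec (F.π x) y := by
  classical
  have hx : x ∈ Subgroup.closure F.gens := by
    rw [F.closure_gens]; trivial
  induction hx using Subgroup.closure_induction with
  | mem x hx =>
    rcases hx with ⟨h, rfl⟩ | ⟨ξ, g, hg, rfl⟩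
    · refine ⟨by rw [F.SL_σ_ofH, F.π_ofH], fun y => ?_⟩
      rw [F.SL_sec_ofH, F.π_ofH, F.π_ofH]
    · refine ⟨by rw [F.SL_σ_ofV, F.π_ofV], fun y => ?_⟩
      by_cases h : y = ξ 0
      · subst h
        rw [F.SL_sec_ofV, F.π_ofV, F.π_ofV]
      · rw [F.SL_sec_ofV' _ _ _ _ h, F.π_ofH, F.π_ofV]
  | one =>
    refine ⟨by rw [map_one, map_one, map_one], fun y => ?_⟩
    rw [F.SL.sec_one, map_one, S.sec_one]
  | mul a b _ _ ha hb =>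
    refine ⟨by rw [map_mul, map_mul, map_mul, ha.1, hb.1], fun y => ?_⟩
    rw [F.SL.sec_mul, map_mul, map_mul, ha.2, hb.2, hb.1, S.sec_mul]
  | inv a _ ha =>
    have h1 : F.SL.σ a⁻¹ = S.σ (F.π a⁻¹) := by rw [map_inv, map_inv, map_inv, ha.1]
    refine ⟨h1, fun y => ?_⟩
    rw [F.SL.sec_inv, map_inv, ha.2, h1, map_inv F.π, S.sec_inv]

theorem SL_σ (x : F.L) : F.SL.σ x = S.σ (F.π x) := (F.SL_both x).1

theorem SL_sec (x : F.L) (y : Y) : F.π (F.SL.sec x y) = S.sec (F.π x) y := (F.SL_both x).2 y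

theorem SL_fin (x : F.L) : (Set.range (F.SL.sec x)).Finite := by
  classical
  refine F.SL.fin_sec_of_closure F.gens F.closure_gens ?_ x
  rintro _ (⟨h, rfl⟩ | ⟨ξ, g, hg, rfl⟩)
  · have hfin : (Subtype.val ⁻¹' (Set.range (S.sec h.1)) : Set H).Finite :=
      (F.finH h.1 h.2).preimage Subtype.val_injective.injOn
    refine (hfin.image F.ofH).subset ?_
    rintro _ ⟨y, rfl⟩
    rw [F.SL_sec_ofH]
    exact ⟨_, ⟨y, rfl⟩, rfl⟩
  · have hfin : (Subtype.val ⁻¹' (Set.range (S.sec g)) : Set H).Finite :=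
      (F.finV ξ g hg).preimage Subtype.val_injective.injOn
    refine ((hfin.image F.ofH).insert (F.SL.sec (F.ofV ξ g hg) (ξ 0))).subset ?_
    rintro _ ⟨y, rfl⟩
    by_cases h : y = ξ 0
    · rw [h]; exact Set.mem_insert _ _
    · rw [F.SL_sec_ofV' _ _ _ _ h]
      exact Set.mem_insert_of_mem _ ⟨_, ⟨y, rfl⟩, rfl⟩

/-- the special elements -/
def W : Set F.L := {x | x ∈ F.ofH.range ∨ ∃ a b : H, ∃ ξ g, ∃ hg : g ∈ F.V ξ,
  x = F.ofH a * F.ofV ξ g hg * F.ofH b}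

theorem W_of {u v : F.L} (hu : u ∈ F.ofH.range) (hv : v ∈ F.ofH.range) (ξ : ℕ → Y) (g : T)
    (hg : g ∈ F.V ξ) : u * F.ofV ξ g hg * v ∈ F.W := by
  obtain ⟨a, rfl⟩ := hu
  obtain ⟨b, rfl⟩ := hv
  exact Or.inr ⟨a, b, ξ, g, hg, rfl⟩

theorem sec_ofH_mem (a : H) (y : Y) : F.SL.sec (F.ofH a) y ∈ F.ofH.range :=
  ⟨_, (F.SL_sec_ofH a y).symm⟩

theorem sec_ofV_mem' (ξ : ℕ → Y) (g : T) (hg : g ∈ F.V ξ) (y : Y) (h : y ≠ ξ 0) :
    F.SL.sec (F.ofV ξ g hg) y ∈ F.ofH.range :=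
  ⟨_, (F.SL_sec_ofV' ξ g hg y h).symm⟩

theorem W_sec (x : F.L) (hx : x ∈ F.W) (y : Y) : F.SL.sec x y ∈ F.W := by
  classical
  rcases hx with ⟨a, rfl⟩ | ⟨a, b, ξ, g, hg, rfl⟩
  · exact Or.inl (F.sec_ofH_mem a y)
  · rw [F.SL.sec_mul, F.SL.sec_mul]
    by_cases h : F.SL.σ (F.ofH b) y = ξ 0
    · rw [h, F.SL_sec_ofV]
      exact F.W_of (F.sec_ofH_mem _ _) (F.sec_ofH_mem _ _) _ _ _
    · exact Or.inl (mul_mem (mul_mem (F.sec_ofH_mem _ _) (F.sec_ofV_mem' _ _ _ _ h))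
        (F.sec_ofH_mem _ _))

theorem W_step (a h b : H) (ξ ξ' : ℕ → Y) (g g' : T) (hg : g ∈ F.V ξ)
    (hg' : g' ∈ F.V ξ') (x : Y) :
    F.SL.sec (F.ofH a * F.ofV ξ g hg * F.ofH h * F.ofV ξ' g' hg' * F.ofH b) x ∈ F.W ∨
    (S.ract h.1 (S.ract g' ξ') 0 = ξ 0 ∧ ∃ a₁ b₁ : H,
      F.SL.sec (F.ofH a * F.ofV ξ g hg * F.ofH h * F.ofV ξ' g' hg' * F.ofH b) x =
      F.ofH a₁ * F.ofV (shf ξ) (S.sec g (ξ 0)) (F.sec_mem ξ g hg) *
        F.ofH ⟨S.sec h (S.ract g' ξ' 0), F.hc h h.2 _⟩ *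
        F.ofV (shf ξ') (S.sec g' (ξ' 0)) (F.sec_mem ξ' g' hg') * F.ofH b₁) := by
  classical
  rw [F.SL.sec_mul, F.SL.sec_mul, F.SL.sec_mul, F.SL.sec_mul]
  by_cases hx : F.SL.σ (F.ofH b) x = ξ' 0
  · have e1 : F.SL.σ (F.ofV ξ' g' hg') (ξ' 0) = S.ract g' ξ' 0 := by rw [F.SL_σ_ofV]; rfl
    have e2 : F.SL.σ (F.ofH h) (S.ract g' ξ' 0) = S.ract h.1 (S.ract g' ξ') 0 := by
      rw [F.SL_σ_ofH]; rfl
    rw [hx, e1, e2, F.SL_sec_ofV ξ' g' hg']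
    by_cases hy : S.ract h.1 (S.ract g' ξ') 0 = ξ 0
    · rw [hy, F.SL_sec_ofV ξ g hg, F.SL_sec_ofH h, F.SL_sec_ofH a, F.SL_sec_ofH b]
      exact Or.inr ⟨rfl, _, _, rfl⟩
    · left
      exact F.W_of (mul_mem (mul_mem (F.sec_ofH_mem a _) (F.sec_ofV_mem' _ _ _ _ hy))
        (F.sec_ofH_mem h _)) (F.sec_ofH_mem b _) _ _ _
  · left
    have hm := F.sec_ofV_mem' ξ' g' hg' _ hx
    by_cases hy : F.SL.σ (F.ofH h) (F.SL.σ (F.ofV ξ' g' hg') (F.SL.σ (F.ofH b) x)) = ξ 0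
    · rw [hy, F.SL_sec_ofV ξ g hg, mul_assoc, mul_assoc]
      exact F.W_of (F.sec_ofH_mem a _) (mul_mem (F.sec_ofH_mem h _)
        (mul_mem hm (F.sec_ofH_mem b _))) _ _ _
    · exact Or.inl (mul_mem (mul_mem (mul_mem (mul_mem (F.sec_ofH_mem a _)
        (F.sec_ofV_mem' _ _ _ _ hy)) (F.sec_ofH_mem h _)) hm) (F.sec_ofH_mem b _))

theorem W_mid (n : ℕ) (a h b : H) (ξ ξ' : ℕ → Y) (g g' : T) (hg : g ∈ F.V ξ)
    (hg' : g' ∈ F.V ξ') (hn : S.ract h.1 (S.ract g' ξ') n ≠ ξ n) :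
    ∃ m, EW F.SL F.W m
      (F.ofH a * F.ofV ξ g hg * F.ofH h * F.ofV ξ' g' hg' * F.ofH b) := by
  induction n generalizing a h b ξ ξ' g g' with
  | zero =>
    refine EW_of_sec' F.SL F.W_sec _ (F.SL_fin _) (fun x => ⟨0, ?_⟩)
    rcases F.W_step a h b ξ ξ' g g' hg hg' x with h1 | ⟨h1, _⟩
    · exact h1
    · exact absurd h1 hn
  | succ n ih =>
    refine EW_of_sec' F.SL F.W_sec _ (F.SL_fin _) (fun x => ?_)
    rcases F.W_step a h b ξ ξ' g g' hg hg' x with h1 | ⟨_, a₁, b₁, h1⟩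
    · exact ⟨0, h1⟩
    · rw [h1]
      refine ih a₁ ⟨S.sec h.1 (S.ract g' ξ' 0), F.hc h.1 h.2 _⟩ b₁ _ _ _ _ _ _ ?_
      rw [S.ract_shf, S.ract_shf]
      exact hn

theorem W_mul (x : F.L) (hx : x ∈ F.W) (x' : F.L) (hx' : x' ∈ F.W) :
    ∃ m, EW F.SL F.W m (x * x') := by
  classical
  rcases hx with hx | ⟨a, b, ξ, g, hg, rfl⟩
  · rcases hx' with hx' | ⟨a', b', ξ', g', hg', rfl⟩
    · exact ⟨0, Or.inl (mul_mem hx hx')⟩
    · refine ⟨0, ?_⟩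
      change x * (F.ofH a' * F.ofV ξ' g' hg' * F.ofH b') ∈ F.W
      rw [← mul_assoc, ← mul_assoc]
      exact F.W_of (mul_mem hx ⟨_, rfl⟩) ⟨_, rfl⟩ _ _ _
  · rcases hx' with hx' | ⟨a', b', ξ', g', hg', rfl⟩
    · refine ⟨0, ?_⟩
      change F.ofH a * F.ofV ξ g hg * F.ofH b * x' ∈ F.W
      rw [mul_assoc]
      exact F.W_of ⟨_, rfl⟩ (mul_mem ⟨_, rfl⟩ hx') _ _ _
    · have e : F.ofH a * F.ofV ξ g hg * F.ofH b * (F.ofH a' * F.ofV ξ' g' hg' * F.ofH b') =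
          F.ofH a * F.ofV ξ g hg * F.ofH (b * a') * F.ofV ξ' g' hg' * F.ofH b' := by
        rw [map_mul]
        simp only [mul_assoc]
      rw [e]
      by_cases hm : S.ract (b * a').1 (S.ract g' ξ') = ξ
      · subst hm
        have hV : (b * a').1 ∈ F.V (S.ract g' ξ') := F.H_le _ _ (b * a').2
        refine ⟨0, ?_⟩
        have e2 : F.ofH (b * a') = F.ofV (S.ract g' ξ') (b * a').1 hV :=
          (F.ofV_H _ _ (b * a').2 hV).symm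
        have e3 : F.ofH a * F.ofV (S.ract (b * a').1 (S.ract g' ξ')) g hg * F.ofH (b * a') *
            F.ofV ξ' g' hg' * F.ofH b' = F.ofH a * (F.ofV (S.ract (b * a').1 (S.ract g' ξ')) g hg *
              (F.ofV (S.ract g' ξ') (b * a').1 hV * F.ofV ξ' g' hg')) * F.ofH b' := by
          rw [e2]
          simp only [mul_assoc]
        rw [e3, F.ofV_mul]
        have e4 : F.ofV (S.ract (b * a').1 (S.ract g' ξ')) g hg =
            F.ofV (S.ract ((b * a').1 * g') ξ') g (by rw [S.ract_mul]; exact hg) :=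
          F.ofV_congr (S.ract_mul _ _ _).symm rfl _ _
        rw [e4, F.ofV_mul]
        exact F.W_of ⟨_, rfl⟩ ⟨_, rfl⟩ _ _ _
      · obtain ⟨n, hn⟩ := Function.ne_iff.1 hm
        exact F.W_mid n a (b * a') b' ξ ξ' g g' hg hg' hn

theorem W_inv (x : F.L) (hx : x ∈ F.W) : x⁻¹ ∈ F.W := by
  rcases hx with hx | ⟨a, b, ξ, g, hg, rfl⟩
  · exact Or.inl (inv_mem hx)
  · have e : (F.ofH a * F.ofV ξ g hg * F.ofH b)⁻¹ =
        F.ofH b⁻¹ * F.ofV (S.ract g ξ) g⁻¹ (F.vinv ξ g hg) * F.ofH a⁻¹ := by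
      rw [← F.ofV_inv ξ g hg, map_inv, map_inv]; group
    rw [e]
    exact F.W_of ⟨_, rfl⟩ ⟨_, rfl⟩ _ _ _

theorem W_one (x : F.L) (hx : x ∈ F.W) (hπ : F.π x = 1) : x = 1 := by
  rcases hx with ⟨h, rfl⟩ | ⟨a, b, ξ, g, hg, rfl⟩
  · rw [F.π_ofH] at hπ
    have h1 : h = 1 := Subtype.ext hπ
    rw [h1, map_one]
  · rw [map_mul, map_mul, F.π_ofH, F.π_ofH, F.π_ofV] at hπ
    have hgH : g ∈ H := by
      have h1 : g = a.1⁻¹ * b.1⁻¹ := by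
        have h2 : g = a.1⁻¹ * (a.1 * g * b.1) * b.1⁻¹ := by group
        rw [h2, hπ, mul_one]
      rw [h1]
      exact mul_mem (inv_mem a.2) (inv_mem b.2)
    rw [F.ofV_H ξ g hgH hg, ← map_mul, ← map_mul]
    have h3 : a * ⟨g, hgH⟩ * b = 1 := Subtype.ext hπ
    rw [h3, map_one]

/-- Data for the abstract extension lemma. -/
noncomputable def data : WData S F.L where
  SL := F.SL
  π := F.π
  σ_eq := F.SL_σ
  sec_eq := F.SL_sec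
  W := F.W
  one_W := Or.inl (one_mem _)
  W_sec := F.W_sec
  W_inv := F.W_inv
  W_mul := F.W_mul
  W_one := F.W_one
  gen := by
    rw [eq_top_iff, ← F.closure_gens]
    apply (Subgroup.closure_le _).2
    rintro _ (⟨h, rfl⟩ | ⟨ξ, g, hg, rfl⟩)
    · exact Subgroup.subset_closure ⟨0, Or.inl ⟨h, rfl⟩⟩
    · refine Subgroup.subset_closure ⟨0, Or.inr ⟨1, 1, ξ, g, hg, ?_⟩⟩
      rw [map_one, one_mul, mul_one]

/-- **The group generated by `H` and the elements of all `V ξ` is in the class.** -/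
theorem fpb_range (hf : S.Faithful) (hσ : FPB S.σ.range) (hH : FPB H)
    (hst : ∀ ξ, FPB (F.stab ξ)) : FPB F.π.range :=
  F.data.fpb_range' hf hσ F.SL_fin (fpb_Gp F.fam hH hst)

theorem closed_range : ∀ g ∈ F.π.range, ∀ y, S.sec g y ∈ F.π.range := F.data.closed_range

theorem range_le {K : Subgroup T} (hHK : H ≤ K) (hVK : ∀ ξ, F.V ξ ⊆ K) : F.π.range ≤ K := by
  rw [MonoidHom.range_eq_map, ← F.closure_gens, MonoidHom.map_closure, Subgroup.closure_le]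
  rintro _ ⟨_, ⟨h, rfl⟩ | ⟨ξ, g, hg, rfl⟩, rfl⟩
  · rw [F.π_ofH]; exact hHK h.2
  · rw [F.π_ofV]; exact hVK ξ hg

theorem le_range : H ≤ F.π.range := fun h hh => ⟨F.ofH ⟨h, hh⟩, F.π_ofH _⟩

theorem V_sub_range (ξ : ℕ → Y) : F.V ξ ⊆ F.π.range := fun g hg => ⟨F.ofV ξ g hg, F.π_ofV _ _ _⟩

/-- deep sections -/
theorem range_secL {g : T} (hg : g ∈ F.π.range) :
    ∃ n, ∀ v : List Y, v.length = n → S.secL g v ∈ H ∨
      ∃ a ∈ H, ∃ b ∈ H, ∃ ξ : ℕ → Y, ∃ c ∈ F.V ξ, S.secL g v = a * c * b := by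
  obtain ⟨n, hn⟩ := F.data.range_secL' F.SL_fin hg
  refine ⟨n, fun v hv => ?_⟩
  obtain ⟨q, hq, hq2⟩ := hn v hv
  rw [hq2]
  change F.π q ∈ H ∨ _
  rcases hq with ⟨h, rfl⟩ | ⟨a, b, ξ, c, hc, rfl⟩
  · left
    rw [F.π_ofH]; exact h.2
  · right
    refine ⟨a, a.2, b, b.2, ξ, c, hc, ?_⟩
    change F.π _ = _
    rw [map_mul, map_mul, F.π_ofH, F.π_ofH, F.π_ofV]

end VFam

end SS

end Vale.Agent.P192
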