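import Vale.Agent.P192.H826.InfB
import Vale.Agent.P192.H826.Countable

/-!
# P192: arbitrary alphabets: decorations along a ray, the groupoid, stabilizers
-/

namespace Vale.Agent.P192

universe u v w

theorem perm_app_inv {Y : Type v} (e : Equiv.Perm Y) (y : Y) : e (e⁻¹ y) = y :=
  e.apply_symm_apply y

namespace SS

variable {T : Type u} {Y : Type v} [Group T] (S : SS T Y)

/-- the decorations (permutation, sections) of `g` along the ray `ξ` are finitely many, up to the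
value at the letter of `ξ` -/
def FD (ξ : ℕ → Y) (g : T) : Prop :=
  ∃ F : Set (Wr T Y), F.Finite ∧ (∀ w ∈ F, (Set.range w.f).Finite) ∧
    ∀ n, ∃ w ∈ F, w.p = S.σ (S.st ξ n g) ∧ ∀ y, y ≠ ξ n → w.f y = S.sec (S.st ξ n g) y

variable {S}

theorem FD.one (ξ : ℕ → Y) : S.FD ξ 1 := by
  refine ⟨{1}, Set.finite_singleton _, ?_, fun n => ⟨1, rfl, ?_, fun y _ => ?_⟩⟩
  · rintro w rfl
    refine (Set.finite_singleton (1 : T)).subset ?_
    rintro _ ⟨y, rfl⟩
    rfl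
  · rw [S.st_one, map_one]; rfl
  · rw [S.st_one, S.sec_one]; rfl

theorem FD.mul {ξ : ℕ → Y} {g h : T} (hg : S.FD (S.ract h ξ) g) (hh : S.FD ξ h) :
    S.FD ξ (g * h) := by
  obtain ⟨F, hF, hFr, hFn⟩ := hg
  obtain ⟨G, hG, hGr, hGn⟩ := hh
  refine ⟨Set.image2 (fun a b => a * b) F G, hF.image2 _ hG, ?_, fun n => ?_⟩
  · rintro _ ⟨a, ha, b, hb, rfl⟩
    refine ((hFr a ha).image2 (fun x y => x * y) (hGr b hb)).subset ?_
    rintro _ ⟨y, rfl⟩
    exact ⟨_, ⟨_, rfl⟩, _, ⟨y, rfl⟩, rfl⟩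
  · obtain ⟨a, ha, ha1, ha2⟩ := hFn n
    obtain ⟨b, hb, hb1, hb2⟩ := hGn n
    refine ⟨_, ⟨a, ha, b, hb, rfl⟩, ?_, fun y hy => ?_⟩
    · change a.p * b.p = _
      rw [ha1, hb1, S.st_mul, map_mul]
    · change a.f (b.p y) * b.f y = _
      rw [S.st_mul, S.sec_mul, hb1, hb2 y hy, ha2]
      intro h2
      exact hy ((S.σ (S.st ξ n h)).injective h2)

theorem FD.inv {ξ : ℕ → Y} {g : T} (hg : S.FD ξ g) : S.FD (S.ract g ξ) g⁻¹ := by
  obtain ⟨F, hF, hFr, hFn⟩ := hg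
  refine ⟨(fun a => a⁻¹) '' F, hF.image _, ?_, fun n => ?_⟩
  · rintro _ ⟨a, ha, rfl⟩
    refine ((hFr a ha).image (fun x => x⁻¹)).subset ?_
    rintro _ ⟨y, rfl⟩
    exact ⟨_, ⟨_, rfl⟩, rfl⟩
  · obtain ⟨a, ha, ha1, ha2⟩ := hFn n
    refine ⟨_, ⟨a, ha, rfl⟩, ?_, fun y hy => ?_⟩
    · change a.p⁻¹ = _
      rw [ha1, S.st_inv, map_inv]
    · change (a.f (a.p⁻¹ y))⁻¹ = _
      rw [S.st_inv, S.sec_inv, ha1, map_inv]
      congr 1
      apply ha2
      intro h2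
      apply hy
      have h3 : S.σ (S.st ξ n g) ((S.σ (S.st ξ n g))⁻¹ y) = S.σ (S.st ξ n g) (ξ n) := by rw [h2]
      rw [perm_app_inv] at h3
      exact h3

theorem FD.sec {ξ : ℕ → Y} {g : T} (hg : S.FD ξ g) : S.FD (shf ξ) (S.sec g (ξ 0)) := by
  obtain ⟨F, hF, hFr, hFn⟩ := hg
  refine ⟨F, hF, hFr, fun n => ?_⟩
  rw [S.st_shf]
  exact hFn (n + 1)

theorem FD.of_sec {ξ : ℕ → Y} {g : T} (hr : (Set.range (S.sec g)).Finite)
    (hg : S.FD (shf ξ) (S.sec g (ξ 0))) : S.FD ξ g := by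
  obtain ⟨F, hF, hFr, hFn⟩ := hg
  refine ⟨insert ⟨S.σ g, S.sec g⟩ F, hF.insert _, ?_, fun n => ?_⟩
  · intro w hw
    rcases Set.mem_insert_iff.1 hw with rfl | hw
    · exact hr
    · exact hFr w hw
  · cases n with
    | zero => exact ⟨_, Set.mem_insert _ _, rfl, fun y _ => rfl⟩
    | succ n =>
      obtain ⟨w, hw, h1, h2⟩ := hFn n
      rw [S.st_shf] at h1 h2
      exact ⟨w, Set.mem_insert_of_mem _ hw, h1, h2⟩

theorem FD.range {ξ : ℕ → Y} {g : T} (hg : S.FD ξ g) : (Set.range (S.sec g)).Finite := by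
  classical
  obtain ⟨F, hF, hFr, hFn⟩ := hg
  obtain ⟨w, hw, -, h2⟩ := hFn 0
  refine ((hFr w hw).insert (S.sec g (ξ 0))).subset ?_
  rintro _ ⟨y, rfl⟩
  by_cases h : y = ξ 0
  · rw [h]; exact Set.mem_insert _ _
  · exact Set.mem_insert_of_mem _ ⟨y, h2 y h⟩

theorem FD.off {ξ : ℕ → Y} {g : T} (hg : S.FD ξ g) : (S.off ξ g).Finite := by
  obtain ⟨F, hF, hFr, hFn⟩ := hg
  refine (hF.biUnion hFr).subset ?_
  rintro _ ⟨n, y, hy, rfl⟩
  obtain ⟨w, hw, -, h2⟩ := hFn n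
  exact Set.mem_biUnion hw ⟨y, h2 y hy⟩

/-- all the states of a finite-state element -/
theorem FD.of_fs {g : T} (hg : g ∈ S.fs) (ξ : ℕ → Y) : S.FD ξ g := by
  obtain ⟨F, hF, hgF, hFc⟩ := S.mem_fs_iff.1 hg
  refine ⟨(fun k => (⟨S.σ k, S.sec k⟩ : Wr T Y)) '' F, hF.image _, ?_, fun n => ?_⟩
  · rintro _ ⟨k, hk, rfl⟩
    refine hF.subset ?_
    rintro _ ⟨y, rfl⟩
    exact hFc k hk y
  · have hst : S.st ξ n g ∈ F := by
      induction n with
      | zero => exact hgF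
      | succ n ih => exact hFc _ ih _
    exact ⟨_, ⟨_, hst, rfl⟩, rfl, fun y _ => rfl⟩

variable (S)

/-- elements with finitely many decorations along each ray -/
def finD : Subgroup T where
  carrier := {g | ∀ ξ, S.FD ξ g}
  one_mem' := fun ξ => FD.one ξ
  mul_mem' := fun {a b} ha hb ξ => (ha _).mul (hb ξ)
  inv_mem' := fun {a} ha ξ => by
    have h := (ha (S.ract a⁻¹ ξ)).inv
    rwa [S.ract_inv'] at h

theorem fs_le_finD : S.fs ≤ S.finD := fun _ hg ξ => FD.of_fs hg ξ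

theorem finD_sec {g : T} (hg : g ∈ S.finD) (y : Y) : S.sec g y ∈ S.finD :=
  fun ξ => (hg (cns y ξ)).sec

theorem finD_range {g : T} (hg : g ∈ S.finD) : (Set.range (S.sec g)).Finite := by
  rcases isEmpty_or_nonempty Y with hY | ⟨⟨y⟩⟩
  · exact Set.finite_range _
  · exact (hg (fun _ => y)).range

theorem finD_of_sec {g : T} (hr : (Set.range (S.sec g)).Finite) (h : ∀ y, S.sec g y ∈ S.finD) :
    g ∈ S.finD :=
  fun ξ => FD.of_sec hr (h (ξ 0) _)

/-- the elements with finitely many decorations along `ξ` and all sections off `ξ` in `H` -/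
def VD (H : Subgroup T) (ξ : ℕ → Y) : Set T := {g | S.off ξ g ⊆ H ∧ S.FD ξ g}

theorem VD_sub_Vr (H : Subgroup T) (ξ : ℕ → Y) : S.VD H ξ ⊆ S.Vr H ξ :=
  fun _ hg => ⟨hg.1, hg.2.off⟩

theorem VD_mul {H : Subgroup T} {ξ : ℕ → Y} {g g' : T} (hg : g ∈ S.VD H ξ)
    (hg' : g' ∈ S.VD H (S.ract g ξ)) : g' * g ∈ S.VD H ξ :=
  ⟨(S.Vr_mul (S.VD_sub_Vr H _ hg) (S.VD_sub_Vr H _ hg')).1, hg'.2.mul hg.2⟩

theorem VD_inv {H : Subgroup T} {ξ : ℕ → Y} {g : T} (hg : g ∈ S.VD H ξ) :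
    g⁻¹ ∈ S.VD H (S.ract g ξ) :=
  ⟨(S.Vr_inv (S.VD_sub_Vr H _ hg)).1, hg.2.inv⟩

theorem VD_sec {H : Subgroup T} {ξ : ℕ → Y} {g : T} (hg : g ∈ S.VD H ξ) :
    S.sec g (ξ 0) ∈ S.VD H (shf ξ) :=
  ⟨(S.Vr_sec (S.VD_sub_Vr H _ hg)).1, hg.2.sec⟩

theorem VD_sec' {H : Subgroup T} {ξ : ℕ → Y} {g : T} (hg : g ∈ S.VD H ξ) {y' : Y}
    (h : y' ≠ ξ 0) : S.sec g y' ∈ H := hg.1 ⟨0, y', h, rfl⟩

/-- a subgroup closed under sections, with finitely many decorations along each ray, and in the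
class -/
structure GoodD (H : Subgroup T) : Prop where
  closed : ∀ h ∈ H, ∀ y, S.sec h y ∈ H
  fin : H ≤ S.finD
  fpb : FPB H

theorem H_sub_VD {H : Subgroup T} (hc : ∀ h ∈ H, ∀ y, S.sec h y ∈ H) (hfin : H ≤ S.finD)
    (ξ : ℕ → Y) {h : T} (hh : h ∈ H) : h ∈ S.VD H ξ := by
  refine ⟨?_, hfin hh ξ⟩
  rintro _ ⟨n, y', _, rfl⟩
  exact hc _ (S.st_mem hc ξ n hh) _

theorem up_sub_VD {H : Subgroup T} (hc : ∀ h ∈ H, ∀ y, S.sec h y ∈ H)
    (hfin : H ≤ S.finD) (ξ : ℕ → Y) {g : T} (hr : (Set.range (S.sec g)).Finite)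
    (hg : ∀ y, S.sec g y ∈ H) : g ∈ S.VD H ξ := by
  refine ⟨?_, S.finD_of_sec hr (fun y => hfin (hg y)) ξ⟩
  refine (S.off_subset ξ g).trans ?_
  apply Set.union_subset
  · rintro _ ⟨y, rfl⟩
    exact hg y
  · exact (S.H_sub_VD hc hfin (shf ξ) (hg (ξ 0))).1

/-- an element of `VD H ξ` has finitely many decorations along every ray -/
theorem VD_sub_finD {H : Subgroup T} (hfin : H ≤ S.finD) {ξ : ℕ → Y} {g : T}
    (hg : g ∈ S.VD H ξ) : g ∈ S.finD := by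
  have key : ∀ (n : ℕ) (ξ η : ℕ → Y) (g : T), g ∈ S.VD H ξ → ξ n ≠ η n → S.FD η g := by
    intro n
    induction n with
    | zero =>
      intro ξ η g hg hn
      exact FD.of_sec hg.2.range (hfin (S.VD_sec' hg hn.symm) _)
    | succ n ih =>
      intro ξ η g hg hn
      apply FD.of_sec hg.2.range
      by_cases h0 : η 0 = ξ 0
      · rw [h0]
        exact ih (shf ξ) (shf η) _ (S.VD_sec hg) hn
      · exact hfin (S.VD_sec' hg h0) _
  intro η
  by_cases h : ξ = η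
  · subst h
    exact hg.2
  · obtain ⟨n, hn⟩ := Function.ne_iff.1 h
    exact key n ξ η g hg hn

/-- the family of the groupoid -/
def famD {H : Subgroup T} (hc : ∀ h ∈ H, ∀ y, S.sec h y ∈ H) (hfin : H ≤ S.finD) : S.VFam H where
  V := S.VD H
  hc := hc
  vmul := fun _ _ _ hg hg' => S.VD_mul hg hg'
  vinv := fun _ _ hg => S.VD_inv hg
  H_le := fun ξ _ hh => S.H_sub_VD hc hfin ξ hh
  sec_mem := fun _ _ hg => S.VD_sec hg
  sec_mem' := fun _ _ hg _ hy => S.VD_sec' hg hy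
  finH := fun _ hh => S.finD_range (hfin hh)
  finV := fun _ _ hg => hg.2.range

/-- **The stabilizers of the groupoid are in the class.** -/
theorem fpb_stabD (hf : S.Faithful) (hσ : FPB S.σ.range) {H : Subgroup T} (hH : FPB H)
    (ξ : ℕ → Y) (K : Subgroup T) (hK : ∀ g ∈ K, g ∈ S.VD H ξ ∧ S.ract g ξ = ξ) : FPB K := by
  classical
  apply fpb_of_local
  intro A hA
  have hAf : Finite A := hA
  -- the decorations of the generators
  have hFD : ∀ a : A, S.FD ξ a.1.1 := fun a => (hK _ a.1.2).1.2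
  choose F hF hFr hFn using hFD
  choose c hc hc1 hc2 using hFn
  -- `c a n` is the decoration of `a` at the position `n`
  let C : ℕ → (A → Wr T Y) := fun n a => c a n
  have hC : (Set.range C).Finite := by
    refine (Set.Finite.pi' (fun a : A => hF a)).subset ?_
    rintro _ ⟨n, rfl⟩ a
    exact hc a n
  have hCf : Finite (Set.range C) := hC
  -- positions with the same decorations of the generators
  have claim : ∀ m m', C m = C m' → ∀ g ∈ Subgroup.closure A,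
      S.σ (S.st ξ m g.1) = S.σ (S.st ξ m' g.1) ∧
      ∀ y, y ≠ ξ m → y ≠ ξ m' → S.sec (S.st ξ m g.1) y = S.sec (S.st ξ m' g.1) y := by
    intro m m' hmm g hg
    induction hg using Subgroup.closure_induction with
    | mem x hx =>
      have h1 : c ⟨x, hx⟩ m = c ⟨x, hx⟩ m' := congrFun hmm ⟨x, hx⟩
      refine ⟨?_, fun y hy hy' => ?_⟩
      · rw [← hc1 ⟨x, hx⟩ m, ← hc1 ⟨x, hx⟩ m', h1]
      · rw [← hc2 ⟨x, hx⟩ m y hy, ← hc2 ⟨x, hx⟩ m' y hy', h1]
    | one =>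
      change S.σ (S.st ξ m 1) = S.σ (S.st ξ m' 1) ∧
        ∀ y, y ≠ ξ m → y ≠ ξ m' → S.sec (S.st ξ m 1) y = S.sec (S.st ξ m' 1) y
      rw [S.st_one, S.st_one]
      exact ⟨rfl, fun _ _ _ => rfl⟩
    | mul a b _ _ ha hb =>
      have hb' : S.ract b.1 ξ = ξ := (hK _ b.2).2
      have e : ∀ k, S.st ξ k (a * b : K).1 = S.st ξ k a.1 * S.st ξ k b.1 := by
        intro k
        change S.st ξ k (a.1 * b.1) = _
        rw [S.st_mul, hb']
      rw [e, e]
      refine ⟨by rw [map_mul, map_mul, ha.1, hb.1], fun y hy hy' => ?_⟩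
      rw [S.sec_mul, S.sec_mul, hb.2 y hy hy', hb.1]
      congr 1
      apply ha.2
      · intro h2
        apply hy
        rw [← hb.1] at h2
        exact (S.σ (S.st ξ m b.1)).injective (h2.trans (congrFun hb' m).symm)
      · intro h2
        apply hy'
        exact (S.σ (S.st ξ m' b.1)).injective (h2.trans (congrFun hb' m').symm)
    | inv a _ ha =>
      have ha' : S.ract a.1 ξ = ξ := (hK _ a.2).2
      have e : ∀ k, S.st ξ k (a⁻¹ : K).1 = (S.st ξ k a.1)⁻¹ := by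
        intro k
        have := S.st_inv ξ k a.1
        rw [ha'] at this
        exact this
      rw [e, e]
      refine ⟨by rw [map_inv, map_inv, ha.1], fun y hy hy' => ?_⟩
      rw [S.sec_inv, S.sec_inv, map_inv, map_inv, ← ha.1]
      congr 1
      apply ha.2
      · intro h2
        apply hy
        have h3 : S.σ (S.st ξ m a.1) ((S.σ (S.st ξ m a.1))⁻¹ y) = S.σ (S.st ξ m a.1) (ξ m) := by
          rw [h2]
        rw [perm_app_inv] at h3
        exact h3.trans (congrFun ha' m)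
      · intro h2
        apply hy'
        have h3 : S.σ (S.st ξ m a.1) ((S.σ (S.st ξ m a.1))⁻¹ y) =
            S.σ (S.st ξ m a.1) (ξ m') := by rw [h2]
        rw [perm_app_inv, ha.1] at h3
        exact h3.trans (congrFun ha' m')
  -- the chosen positions
  have hpos : ∀ r : Set.range C, ∃ p : ℕ × ℕ, C p.1 = r.1 ∧ C p.2 = r.1 ∧
      ∀ m, C m = r.1 → ξ m ≠ ξ p.1 → ξ p.2 ≠ ξ p.1 := by
    rintro ⟨_, m1, rfl⟩
    by_cases h : ∃ m2, C m2 = C m1 ∧ ξ m2 ≠ ξ m1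
    · obtain ⟨m2, h1, h2⟩ := h
      exact ⟨(m1, m2), rfl, h1, fun _ _ _ => h2⟩
    · refine ⟨(m1, m1), rfl, rfl, fun m hm hne => ?_⟩
      exact absurd ⟨m, hm, hne⟩ h
  choose P hP1 hP2 hP3 using hpos
  -- the homomorphisms
  have hrs : ∀ g ∈ K, g ∈ S.rs H ξ := fun g hg => ⟨S.VD_sub_Vr H ξ (hK g hg).1, (hK g hg).2⟩
  let ι : Subgroup.closure A →* S.rs H ξ :=
    (Subgroup.inclusion hrs).comp (Subgroup.closure A).subtype
  let pos : Set.range C × Bool → ℕ := fun q => if q.2 then (P q.1).1 else (P q.1).2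
  let ρ : ∀ q : Set.range C × Bool, Subgroup.closure A →* ((S.rsHom H ξ (pos q)).comp ι).range :=
    fun q => ((S.rsHom H ξ (pos q)).comp ι).rangeRestrict
  let Ψ : Subgroup.closure A →* (∀ q : Set.range C × Bool, ((S.rsHom H ξ (pos q)).comp ι).range) :=
    MonoidHom.pi ρ
  refine fpb_of_injective Ψ ?_ (fpb_pi (fun q => ?_))
  · rw [injective_iff_map_eq_one]
    intro g hg
    apply Subtype.ext
    apply Subtype.ext
    have hpos1 : ∀ q : Set.range C × Bool, S.rsHom H ξ (pos q) (ι g) = 1 := fun q =>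
      congrArg Subtype.val (congrFun hg q)
    have h1 : ∀ m, S.σ (S.st ξ m g.1.1) = 1 ∧
        ∀ y', y' ≠ ξ m → S.sec (S.st ξ m g.1.1) y' = 1 := by
      intro m
      have k1 := S.rsHom_eq_one (hpos1 (⟨C m, m, rfl⟩, true))
      have k2 := S.rsHom_eq_one (hpos1 (⟨C m, m, rfl⟩, false))
      have e1 := claim m _ (hP1 ⟨C m, m, rfl⟩).symm g.1 g.2
      have e2 := claim m _ (hP2 ⟨C m, m, rfl⟩).symm g.1 g.2
      change S.σ (S.st ξ (P ⟨C m, m, rfl⟩).1 g.1.1) = 1 ∧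
        ∀ y', y' ≠ ξ (P ⟨C m, m, rfl⟩).1 → S.sec (S.st ξ (P ⟨C m, m, rfl⟩).1 g.1.1) y' = 1 at k1
      change S.σ (S.st ξ (P ⟨C m, m, rfl⟩).2 g.1.1) = 1 ∧
        ∀ y', y' ≠ ξ (P ⟨C m, m, rfl⟩).2 → S.sec (S.st ξ (P ⟨C m, m, rfl⟩).2 g.1.1) y' = 1 at k2
      refine ⟨e1.1.trans k1.1, fun y hy => ?_⟩
      by_cases hy1 : y = ξ (P ⟨C m, m, rfl⟩).1
      · have h3 := hP3 ⟨C m, m, rfl⟩ m rfl (fun h => hy (hy1.trans h.symm))
        have hy2 : y ≠ ξ (P ⟨C m, m, rfl⟩).2 := fun h => h3 (h.symm.trans hy1)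
        exact (e2.2 y hy hy2).trans (k2.2 y hy2)
      · exact (e1.2 y hy hy1).trans (k1.2 y hy1)
    apply hf
    have key : ∀ (v : List Y) (k : ℕ), S.σ (S.secL (S.st ξ k g.1.1) v) = 1 := by
      intro v
      induction v with
      | nil => exact fun k => (h1 k).1
      | cons y' v ih =>
        intro k
        change S.σ (S.secL (S.sec (S.st ξ k g.1.1) y') v) = 1
        by_cases hy : y' = ξ k
        · rw [hy, ← S.st_succ]
          exact ih (k + 1)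
        · rw [(h1 k).2 y' hy]
          exact S.Kn_secL (n := 0) (one_mem _) v
    exact fun v => key v 0
  · refine fpb_wr_finval hH _ ?_ ?_
    · rintro _ ⟨g, rfl⟩
      have hfd : S.FD ξ g.1.1 := (hK _ g.1.2).1.2
      obtain ⟨G, hG, hGr, hGn⟩ := hfd
      obtain ⟨w, hw, -, hw2⟩ := hGn (pos q)
      have hfin : (Subtype.val ⁻¹' (Set.range w.f) : Set H).Finite :=
        (hGr w hw).preimage Subtype.val_injective.injOn
      refine (hfin.insert 1).subset ?_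
      rintro _ ⟨y, rfl⟩
      change (S.rsHom H ξ (pos q) (ι g)).f y ∈ _
      by_cases h : y = ξ (pos q)
      · simp only [rsHom, MonoidHom.coe_mk, OneHom.coe_mk, dif_pos h]
        exact Set.mem_insert _ _
      · simp only [rsHom, MonoidHom.coe_mk, OneHom.coe_mk, dif_neg h]
        refine Set.mem_insert_of_mem _ ⟨y, ?_⟩
        exact hw2 y h
    · refine fpb_mono ?_ hσ
      rintro _ ⟨_, ⟨g, rfl⟩, rfl⟩
      exact ⟨S.st ξ (pos q) g.1.1, rfl⟩

/-- **One step.** -/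
theorem raysD (hf : S.Faithful) (hσ : FPB S.σ.range) {H : Subgroup T} (hH : S.GoodD H) :
    ∃ H' : Subgroup T, S.GoodD H' ∧ H ≤ H' ∧ ∀ ξ, S.VD H ξ ⊆ H' := by
  let F := S.famD hH.closed hH.fin
  refine ⟨F.π.range, ⟨F.closed_range, ?_, ?_⟩, F.le_range, F.V_sub_range⟩
  · exact F.range_le hH.fin (fun ξ g hg => S.VD_sub_finD hH.fin hg)
  · exact F.fpb_range hf hσ hH.fpb (fun ξ => S.fpb_stabD hf hσ hH.fpb ξ _ (fun g hg => hg))

end SS

end Vale.Agent.P192
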