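import Vale.Agent.P192.H826.InfC

/-!
# P192: arbitrary alphabets: automorphisms with countably many singular rays
-/

namespace Vale.Agent.P192

universe u v w

namespace SS

variable {T : Type u} {Y : Type v} [Group T] (S : SS T Y)

/-- unions of nonempty chains of good groups -/
theorem goodD_sSup {c : Set (Subgroup T)} (hc : IsChain (· ≤ ·) c) (hne : c.Nonempty)
    (h : ∀ K ∈ c, S.GoodD K) : S.GoodD (sSup c) where
  closed := by
    intro g hg y
    obtain ⟨K, hK, hgK⟩ := (Subgroup.mem_sSup_of_directedOn hne hc.directedOn).1 hg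
    exact (Subgroup.mem_sSup_of_directedOn hne hc.directedOn).2 ⟨K, hK, (h K hK).closed g hgK y⟩
  fin := by
    intro g hg
    obtain ⟨K, hK, hgK⟩ := (Subgroup.mem_sSup_of_directedOn hne hc.directedOn).1 hg
    exact (h K hK).fin hgK
  fpb := fpb_sSup_chain hc hne fun K hK => (h K hK).fpb

/-- maximal good groups -/
theorem maxD (hf : S.Faithful) (hσ : FPB S.σ.range) {H : Subgroup T} (hH : S.GoodD H) :
    ∃ R : Subgroup T, S.GoodD R ∧ H ≤ R ∧ ∀ ξ, S.VD R ξ ⊆ R := by
  obtain ⟨R, hHR, hmax⟩ := zorn_le_nonempty₀ {K : Subgroup T | S.GoodD K}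
    (fun c hc hch K hK => ⟨sSup c, S.goodD_sSup hch ⟨K, hK⟩ fun L hL => hc hL,
      fun L hL => le_sSup hL⟩) H hH
  have hGR : S.GoodD R := hmax.prop
  refine ⟨R, hGR, hHR, fun ξ g hg => ?_⟩
  obtain ⟨R', hR', hle, hV⟩ := S.raysD hf hσ hGR
  exact hmax.le_of_ge hR' hle (hV ξ hg)

/-- one step of the diagonal argument -/
theorem diag_stepD {R : Subgroup T} (hc : ∀ h ∈ R, ∀ y, S.sec h y ∈ R) (hfin : R ≤ S.finD)
    (hV : ∀ ξ, S.VD R ξ ⊆ R)
    {g : T} (hg : g ∈ S.finD) (ξ : ℕ → Y) (l : ℕ) (h : S.st ξ l g ∉ R) (η : ℕ → Y) :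
    ∃ (ξ' : ℕ → Y) (l' : ℕ), l < l' ∧ (∀ i < l, ξ' i = ξ i) ∧ S.st ξ' l' g ∉ R ∧
      ∃ i < l', ξ' i ≠ η i := by
  classical
  have hst : ∀ n, S.st ξ n g ∈ S.finD := by
    intro n
    induction n with
    | zero => exact hg
    | succ n ih => exact S.finD_sec ih _
  by_cases hne : ∃ i < l, ξ i ≠ η i
  · obtain ⟨i, hi, hie⟩ := hne
    obtain ⟨y, hy⟩ : ∃ y, S.sec (S.st ξ l g) y ∉ R := by
      by_contra hcon
      push Not at hcon
      exact h (hV ξ (S.up_sub_VD hc hfin ξ (S.finD_range (hst l)) hcon))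
    refine ⟨Function.update ξ l y, l + 1, Nat.lt_succ_self l, ?_, ?_, i, Nat.lt_succ_of_lt hi, ?_⟩
    · intro j hj
      exact Function.update_of_ne hj.ne _ _
    · rw [S.st_succ, Function.update_self, S.st_congr (η := ξ)
        (fun j hj => Function.update_of_ne hj.ne _ _)]
      exact hy
    · rw [Function.update_of_ne hi.ne]
      exact hie
  · push Not at hne
    have hξη : S.st ξ l g = S.st η l g := S.st_congr hne g
    have hnV : S.st ξ l g ∉ S.VD R (fun i => η (l + i)) := fun h' => h (hV _ h')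
    have hnsub : ¬ S.off (fun i => η (l + i)) (S.st ξ l g) ⊆ R := fun h' =>
      hnV ⟨h', hst l _⟩
    rw [Set.not_subset] at hnsub
    obtain ⟨_, ⟨n, y', hy', rfl⟩, hk⟩ := hnsub
    rw [hξη, ← S.st_add] at hk
    refine ⟨Function.update η (l + n) y', l + n + 1, by omega, ?_, ?_, l + n, by omega, ?_⟩
    · intro i hi
      rw [Function.update_of_ne (by omega)]
      exact (hne i hi).symm
    · rw [S.st_succ, Function.update_self, S.st_congr (η := η)
        (fun j hj => Function.update_of_ne hj.ne _ _)]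
      exact hk
    · rw [Function.update_self]
      exact hy'

/-- **The diagonal argument**: an element with countably many singular rays is in `R`. -/
theorem mem_of_countableD {R : Subgroup T} (hc : ∀ h ∈ R, ∀ y, S.sec h y ∈ R)
    (hfin : R ≤ S.finD) (hV : ∀ ξ, S.VD R ξ ⊆ R)
    {g : T} (hg : g ∈ S.finD) (hE : (S.ex R g).Countable) [Nonempty Y] : g ∈ R := by
  classical
  by_contra hgR
  -- an enumeration of the singular rays
  obtain ⟨e, he⟩ : ∃ e : ℕ → (ℕ → Y), S.ex R g ⊆ Set.range e := by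
    rcases (S.ex R g).eq_empty_or_nonempty with h0 | h0
    · exact ⟨fun _ _ => Classical.arbitrary Y, by rw [h0]; exact Set.empty_subset _⟩
    · obtain ⟨e, he⟩ := hE.exists_eq_range h0
      exact ⟨e, he.le⟩
  -- the sequence of words
  let P : Type v := {p : (ℕ → Y) × ℕ // S.st p.1 p.2 g ∉ R}
  have step : ∀ (n : ℕ) (p : P), ∃ q : P, p.1.2 < q.1.2 ∧ (∀ i < p.1.2, q.1.1 i = p.1.1 i) ∧
      ∃ i < q.1.2, q.1.1 i ≠ e n i := by
    intro n p
    obtain ⟨ξ', l', h1, h2, h3, h4⟩ := S.diag_stepD hc hfin hV hg p.1.1 p.1.2 p.2 (e n)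
    exact ⟨⟨(ξ', l'), h3⟩, h1, h2, h4⟩
  choose F hF1 hF2 hF3 using step
  let p : ℕ → P := fun n => Nat.rec ⟨(fun _ => Classical.arbitrary Y, 0), hgR⟩ (fun n q => F n q) n
  have hp : ∀ n, p (n + 1) = F n (p n) := fun n => rfl
  have hlen : ∀ n, n ≤ (p n).1.2 := by
    intro n
    induction n with
    | zero => exact Nat.zero_le _
    | succ n ih =>
      have := hF1 n (p n)
      rw [← hp] at this
      omega
  have hmono : ∀ n k, (p n).1.2 ≤ (p (n + k)).1.2 ∧
      ∀ i < (p n).1.2, (p (n + k)).1.1 i = (p n).1.1 i := by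
    intro n k
    induction k with
    | zero => exact ⟨le_rfl, fun i _ => rfl⟩
    | succ k ih =>
      have h1 := hF1 (n + k) (p (n + k))
      have h2 := hF2 (n + k) (p (n + k))
      rw [← hp] at h1 h2
      refine ⟨ih.1.trans h1.le, fun i hi => ?_⟩
      exact (h2 i (lt_of_lt_of_le hi ih.1)).trans (ih.2 i hi)
  -- the limit ray
  let ζ : ℕ → Y := fun i => (p (i + 1)).1.1 i
  have hζ : ∀ n, ∀ i < (p n).1.2, ζ i = (p n).1.1 i := by
    intro n i hi
    change (p (i + 1)).1.1 i = (p n).1.1 i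
    rcases le_total (i + 1) n with h | h
    · obtain ⟨k, rfl⟩ := Nat.exists_eq_add_of_le h
      refine ((hmono (i + 1) k).2 i ?_).symm
      have := hlen (i + 1)
      omega
    · obtain ⟨k, hk⟩ := Nat.exists_eq_add_of_le h
      rw [hk]
      exact (hmono n k).2 i hi
  have hζE : ζ ∈ S.ex R g := by
    intro n hn
    have h1 : S.st ζ (p n).1.2 g ∈ R := S.st_mem_mono hc (hlen n) hn
    rw [S.st_congr (hζ n)] at h1
    exact (p n).2 h1
  obtain ⟨n, hn⟩ := he hζE
  obtain ⟨i, hi, hne⟩ := hF3 n (p n)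
  rw [← hp] at hi hne
  apply hne
  rw [← hζ (n + 1) i hi, hn]

/-- the elements with finitely many decorations along each ray and countably many rays along which
all sections are outside `H` -/
def cntD (H : Subgroup T) (hc : ∀ h ∈ H, ∀ y, S.sec h y ∈ H) : Subgroup T where
  carrier := {g | g ∈ S.finD ∧ (S.ex H g).Countable}
  one_mem' := by
    refine ⟨one_mem _, ?_⟩
    have : S.ex H 1 = ∅ := by
      rw [Set.eq_empty_iff_forall_notMem]
      intro ξ hξ
      apply hξ 0
      exact one_mem H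
    rw [this]
    exact Set.countable_empty
  mul_mem' := by
    intro a b ha hb
    refine ⟨mul_mem ha.1 hb.1, ((hb.2.union ?_)).mono (S.ex_mul hc a b)⟩
    exact ha.2.preimage_of_injOn (S.ract_injective b).injOn
  inv_mem' := by
    intro a ha
    refine ⟨inv_mem ha.1, Set.Countable.mono (S.ex_inv a) ?_⟩
    exact ha.2.preimage_of_injOn (S.ract_injective a⁻¹).injOn

theorem cntD_sec {H : Subgroup T} (hc : ∀ h ∈ H, ∀ y, S.sec h y ∈ H) :
    ∀ g ∈ S.cntD H hc, ∀ y, S.sec g y ∈ S.cntD H hc := by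
  intro g hg y
  refine ⟨S.finD_sec hg.1 y, Set.Countable.mono (S.ex_sec hc g y) ?_⟩
  exact hg.2.preimage_of_injOn (cns_injective y).injOn

/-- **The countable theorem, arbitrary alphabets.** -/
theorem goodD_cnt (hf : S.Faithful) (hσ : FPB S.σ.range) {H : Subgroup T} (hH : S.GoodD H) :
    S.GoodD (S.cntD H hH.closed) where
  closed := S.cntD_sec hH.closed
  fin := fun g hg => hg.1
  fpb := by
    rcases isEmpty_or_nonempty Y with hY | hY
    · have h1 : ∀ h : T, h = 1 := fun h => hf h (fun v => Subsingleton.elim _ _)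
      have : Subsingleton (S.cntD H hH.closed) :=
        ⟨fun a b => Subtype.ext ((h1 a.1).trans (h1 b.1).symm)⟩
      exact fpb_of_finite _
    · obtain ⟨R, hR, hHR, hV⟩ := S.maxD hf hσ hH
      refine fpb_mono (L := R) ?_ hR.fpb
      intro g hg
      refine S.mem_of_countableD hR.closed hR.fin hV hg.1 (hg.2.mono ?_)
      exact fun ξ hξ n hn => hξ n (hHR hn)

end SS

end Vale.Agent.P192
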