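import Vale.Agent.P192.H826.RayDefs
import Vale.Agent.P192.H260.StepB

/-!
# P192: finite-state elements over a finite-state self-similar group: the amalgam case
-/

namespace Vale.Agent.P192

universe u v w

/-- wreath products with finite groups -/
theorem fpb_wr {L : Type u} {Y : Type v} [Group L] [Finite Y] (hL : FPB L) : FPB (Wr L Y) := by
  let p : Wr L Y →* Equiv.Perm Y :=
    { toFun := fun a => a.p
      map_one' := rfl
      map_mul' := fun _ _ => rfl }
  refine fpb_ext p (fpb_of_finite _) ?_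
  let f : p.ker →* (Y → L) :=
    { toFun := fun a y => a.1.f y
      map_one' := rfl
      map_mul' := fun a b => by
        funext y
        change a.1.f (b.1.p y) * b.1.f y = a.1.f y * b.1.f y
        have hb : b.1.p = 1 := b.2
        rw [hb]; rfl }
  refine fpb_of_injective f ?_ (fpb_pi (fun _ => hL))
  rw [injective_iff_map_eq_one]
  intro a ha
  apply Subtype.ext
  have h1 : a.1.p = 1 := a.2
  exact Wr.ext' h1 (fun y => congrFun ha y)

namespace SS

variable {T : Type u} {Y : Type v} [Group T] (S : SS T Y)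

/-! ### eventual periodicity on the ray -/

theorem exists_period {g : T} (hg : g ∈ S.fs) (y : Y) :
    ∃ N p : ℕ, 0 < p ∧ S.it y (N + p) g = S.it y N g := by
  have hfin : (Set.range (S.secL g)).Finite := hg
  have : Finite (Set.range (S.secL g)) := hfin
  let f : ℕ → Set.range (S.secL g) := fun n => ⟨S.it y n g, List.replicate n y,
    S.secL_replicate g y n⟩
  obtain ⟨a, b, hab, h⟩ := Finite.exists_ne_map_eq_of_infinite f
  have h' : S.it y a g = S.it y b g := congrArg Subtype.val h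
  rcases Nat.lt_or_gt_of_ne hab with hlt | hlt
  · refine ⟨a, b - a, Nat.sub_pos_of_lt hlt, ?_⟩
    rw [Nat.add_sub_cancel' hlt.le, h']
  · refine ⟨b, a - b, Nat.sub_pos_of_lt hlt, ?_⟩
    rw [Nat.add_sub_cancel' hlt.le, h']

theorem period_mul {g : T} {y : Y} {N p : ℕ} (h : S.it y (N + p) g = S.it y N g) {M : ℕ}
    (hM : N ≤ M) (k : ℕ) : S.it y (M + k * p) g = S.it y M g := by
  induction k with
  | zero => rw [Nat.zero_mul, Nat.add_zero]
  | succ k ih =>
    have e1 : M + (k + 1) * p = (N + p) + ((M - N) + k * p) := by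
      rw [Nat.succ_mul]; omega
    have e2 : M + k * p = N + ((M - N) + k * p) := by omega
    rw [e1, S.it_add, h, ← S.it_add, ← e2, ih]

theorem exists_period_finset (y : Y) (A : Finset T) (hA : ∀ a ∈ A, a ∈ S.fs) :
    ∃ N p : ℕ, 0 < p ∧ ∀ a ∈ A, S.it y (N + p) a = S.it y N a := by
  classical
  induction A using Finset.induction_on with
  | empty => exact ⟨0, 1, Nat.one_pos, fun a ha => absurd ha (Finset.notMem_empty a)⟩
  | insert a A _ ih =>
    obtain ⟨N, p, hp, h⟩ := ih (fun b hb => hA b (Finset.mem_insert_of_mem hb))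
    obtain ⟨N', p', hp', h'⟩ := S.exists_period (hA a (Finset.mem_insert_self a A)) y
    refine ⟨max N N', p * p', Nat.mul_pos hp hp', ?_⟩
    intro b hb
    rcases Finset.mem_insert.1 hb with rfl | hb
    · exact S.period_mul h' (le_max_right _ _) p
    · rw [Nat.mul_comm]
      exact S.period_mul (h b hb) (le_max_left _ _) p'

/-- one level of the ray -/
noncomputable def rayHom (H : Subgroup T) (y : Y) (k : ℕ) : S.vr H y →* Wr H Y := by
  classical
  exact
  { toFun := fun g => ⟨S.σ (S.it y k g.1), fun y' =>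
      if h : y' = y then 1 else ⟨S.sec (S.it y k g.1) y', g.2.2.2 k y' h⟩⟩
    map_one' := by
      ext y'
      · simp [S.it_one]
      · by_cases h : y' = y
        · simp [h]
        · simp only [dif_neg h, Wr.one_f, Subgroup.coe_one]
          simp [S.it_one, S.sec_one]
    map_mul' := fun a b => by
      have hab : S.it y k (a.1 * b.1) = S.it y k a.1 * S.it y k b.1 := it_mul b.2.2.1 a.1 k
      ext y'
      · change (S.σ (S.it y k (a.1 * b.1))) _ = (S.σ (S.it y k a.1) * S.σ (S.it y k b.1)) _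
        rw [hab, map_mul]
      · by_cases h : y' = y
        · have h2 : S.σ (S.it y k b.1) y' = y := by rw [h]; exact b.2.2.1 k
          simp only [Wr.mul_f, dif_pos h, dif_pos h2, mul_one]
        · have h2 : ¬ S.σ (S.it y k b.1) y' = y := by
            intro h3
            exact h ((S.σ (S.it y k b.1)).injective (h3.trans (b.2.2.1 k).symm))
          simp only [Wr.mul_f, dif_neg h, dif_neg h2]
          change S.sec (S.it y k (a.1 * b.1)) y' =
            S.sec (S.it y k a.1) (S.σ (S.it y k b.1) y') * S.sec (S.it y k b.1) y'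
          rw [hab, S.sec_mul] }

theorem rayHom_eq_one {H : Subgroup T} {y : Y} {k : ℕ} {g : S.vr H y}
    (h : S.rayHom H y k g = 1) : S.σ (S.it y k g.1) = 1 ∧
      ∀ y', y' ≠ y → S.sec (S.it y k g.1) y' = 1 := by
  classical
  refine ⟨congrArg Wr.p h, fun y' hy' => ?_⟩
  have h2 := congrArg (fun w : Wr H Y => ((w.f y' : H) : T)) h
  simp only [rayHom, MonoidHom.coe_mk, OneHom.coe_mk, dif_neg hy', Wr.one_f,
    Subgroup.coe_one] at h2
  exact h2

theorem fpb_vr [Finite Y] (hf : S.Faithful) {H : Subgroup T} (hH : FPB H) (y : Y) :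
    FPB (S.vr H y) := by
  apply fpb_of_local
  intro A hA
  classical
  obtain ⟨N, p, hp, hNp⟩ := S.exists_period_finset y (hA.toFinset.image Subtype.val) (by
    intro a ha
    obtain ⟨b, _, rfl⟩ := Finset.mem_image.1 ha
    exact b.2.1)
  have hper : ∀ g ∈ Subgroup.closure A, S.it y (N + p) g.1 = S.it y N g.1 := by
    intro g hg
    induction hg using Subgroup.closure_induction with
    | mem x hx =>
      exact hNp x.1 (Finset.mem_image_of_mem _ (hA.mem_toFinset.2 hx))
    | one =>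
      change S.it y (N + p) 1 = S.it y N 1
      rw [S.it_one, S.it_one]
    | mul a b _ _ ha hb =>
      change S.it y (N + p) (a.1 * b.1) = S.it y N (a.1 * b.1)
      rw [it_mul b.2.2.1, it_mul b.2.2.1, ha, hb]
    | inv a _ ha =>
      change S.it y (N + p) a.1⁻¹ = S.it y N a.1⁻¹
      rw [it_inv a.2.2.1, it_inv a.2.2.1, ha]
  let ρ : Subgroup.closure A →* (Fin (N + p) → Wr H Y) :=
    { toFun := fun g k => S.rayHom H y k g.1
      map_one' := by
        funext k
        exact map_one _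
      map_mul' := fun a b => by
        funext k
        exact map_mul _ _ _ }
  refine fpb_of_injective ρ ?_ (fpb_pi (fun _ => fpb_wr hH))
  rw [injective_iff_map_eq_one]
  intro g hg
  apply Subtype.ext
  apply Subtype.ext
  have h1 : ∀ k, S.σ (S.it y k g.1.1) = 1 ∧ ∀ y', y' ≠ y → S.sec (S.it y k g.1.1) y' = 1 := by
    intro k
    induction k using Nat.strong_induction_on with
    | _ k ih =>
      by_cases hk : k < N + p
      · exact S.rayHom_eq_one (congrFun hg ⟨k, hk⟩)
      · have e1 : S.it y k g.1.1 = S.it y (k - p) g.1.1 := by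
          have e2 : k = (N + p) + (k - (N + p)) := by omega
          have e3 : k - p = N + (k - (N + p)) := by omega
          rw [e3, S.it_add, ← hper g.1 g.2, ← S.it_add, ← e2]
        rw [e1]
        exact ih (k - p) (by omega)
  apply hf
  have key : ∀ (v : List Y) (k : ℕ), S.σ (S.secL (S.it y k g.1.1) v) = 1 := by
    intro v
    induction v with
    | nil => exact fun k => (h1 k).1
    | cons y' v ih =>
      intro k
      change S.σ (S.secL (S.sec (S.it y k g.1.1) y') v) = 1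
      by_cases hy : y' = y
      · rw [hy, ← S.it_succ']
        exact ih (k + 1)
      · rw [(h1 k).2 y' hy]
        exact S.Kn_secL (n := 0) (one_mem _) v
  exact fun v => key v 0

/-! ### the amalgam -/

section A

variable (H : Subgroup T) (hc : ∀ h ∈ H, ∀ y, S.sec h y ∈ H) (y : Y)

/-- the amalgam of `H` and `vr H y` over their intersection -/
abbrev LR : Type u :=
  Amalg (Subgroup.inclusion (inf_le_left : H ⊓ S.vr H y ≤ H))
    (Subgroup.inclusion (inf_le_right : H ⊓ S.vr H y ≤ S.vr H y))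

/-- first inclusion -/
abbrev rl : H →* S.LR H y := Amalg.inl _ _

/-- second inclusion -/
abbrev rr : S.vr H y →* S.LR H y := Amalg.inr _ _

theorem rl_eq_rr (g : T) (h1 : g ∈ H) (h2 : g ∈ S.vr H y) :
    S.rl H y ⟨g, h1⟩ = S.rr H y ⟨g, h2⟩ :=
  Amalg.glue (Subgroup.inclusion (inf_le_left : H ⊓ S.vr H y ≤ H))
    (Subgroup.inclusion (inf_le_right : H ⊓ S.vr H y ≤ S.vr H y)) ⟨g, h1, h2⟩

/-- the wreath recursion on `H` -/
def recRH : H →* Wr (S.LR H y) Y where
  toFun := fun h => ⟨S.σ h, fun y' => S.rl H y ⟨S.sec h y', hc h h.2 y'⟩⟩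
  map_one' := by
    ext y'
    · simp
    · change S.rl H y ⟨S.sec 1 y', _⟩ = 1
      rw [← map_one (S.rl H y)]
      congr 1
      exact Subtype.ext (S.sec_one _)
  map_mul' := fun a b => by
    ext y'
    · simp
    · change S.rl H y ⟨S.sec (a.1 * b.1) y', _⟩ = S.rl H y _ * S.rl H y _
      rw [← map_mul (S.rl H y)]
      congr 1
      exact Subtype.ext (S.sec_mul _ _ _)

open Classical in
/-- the wreath recursion on `vr H y` -/
noncomputable def recRV : S.vr H y →* Wr (S.LR H y) Y where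
  toFun := fun c => ⟨S.σ c, fun y' =>
    if h : y' = y then S.rr H y ⟨S.sec c y, S.vr_sec c.2⟩
    else S.rl H y ⟨S.sec c y', S.vr_sec' c.2 h⟩⟩
  map_one' := by
    ext y'
    · simp
    · by_cases h : y' = y
      · simp only [dif_pos h, Wr.one_f]
        rw [← map_one (S.rr H y)]
        congr 1
        exact Subtype.ext (S.sec_one _)
      · simp only [dif_neg h, Wr.one_f]
        rw [← map_one (S.rl H y)]
        congr 1
        exact Subtype.ext (S.sec_one _)
  map_mul' := fun a b => by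
    ext y'
    · simp
    · by_cases h : y' = y
      · have h2 : S.σ b.1 y' = y := by rw [h]; exact S.vr_σ b.2
        simp only [Wr.mul_f, dif_pos h, dif_pos h2]
        rw [← map_mul (S.rr H y)]
        congr 1
        apply Subtype.ext
        change S.sec (a.1 * b.1) y = S.sec a.1 y * S.sec b.1 y
        rw [S.sec_mul, S.vr_σ b.2]
      · have h2 : ¬ S.σ b.1 y' = y := by
          intro h3
          exact h ((S.σ b.1).injective (h3.trans (S.vr_σ b.2).symm))
        simp only [Wr.mul_f, dif_neg h, dif_neg h2]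
        rw [← map_mul (S.rl H y)]
        congr 1
        exact Subtype.ext (S.sec_mul _ _ _)

/-- the wreath recursion on the amalgam -/
noncomputable def ΦR : S.LR H y →* Wr (S.LR H y) Y :=
  Amalg.lift _ _ (S.recRH H hc y) (S.recRV H y) (by
    rintro ⟨d, hd1, hd2⟩
    ext y'
    · rfl
    · by_cases h : y' = y
      · simp only [recRH, recRV, MonoidHom.coe_mk, OneHom.coe_mk, dif_pos h]
        have : (⟨S.sec d y', hc d hd1 y'⟩ : H) = ⟨S.sec d y, hc d hd1 y⟩ := by
          apply Subtype.ext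
          rw [h]
        exact (congrArg (S.rl H y) this).trans (S.rl_eq_rr H y _ (hc d hd1 y) (S.vr_sec hd2))
      · simp only [recRH, recRV, MonoidHom.coe_mk, OneHom.coe_mk, dif_neg h]
        rfl)

/-- the projection of the amalgam -/
def πR : S.LR H y →* T := Amalg.lift _ _ H.subtype (S.vr H y).subtype (fun _ => rfl)

@[simp] theorem πR_rl (h : H) : S.πR H y (S.rl H y h) = h := Amalg.lift_inl _ _ _ _ _ _
@[simp] theorem πR_rr (h : S.vr H y) : S.πR H y (S.rr H y h) = h := Amalg.lift_inr _ _ _ _ _ _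

/-- the self-similar structure on the amalgam -/
noncomputable def SR : SS (S.LR H y) Y := SS.ofHom (S.ΦR H hc y)

theorem SR_sec_rl (h : H) (y' : Y) :
    (S.SR H hc y).sec (S.rl H y h) y' = S.rl H y ⟨S.sec h y', hc h h.2 y'⟩ := by
  change ((S.ΦR H hc y) (S.rl H y h)).f y' = _
  rw [ΦR, Amalg.lift_inl]; rfl

theorem SR_sec_rr (c : S.vr H y) :
    (S.SR H hc y).sec (S.rr H y c) y = S.rr H y ⟨S.sec c y, S.vr_sec c.2⟩ := by
  change ((S.ΦR H hc y) (S.rr H y c)).f y = _
  rw [ΦR, Amalg.lift_inr]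
  simp [recRV]

theorem SR_sec_rr' (c : S.vr H y) (y' : Y) (h : y' ≠ y) :
    (S.SR H hc y).sec (S.rr H y c) y' = S.rl H y ⟨S.sec c y', S.vr_sec' c.2 h⟩ := by
  change ((S.ΦR H hc y) (S.rr H y c)).f y' = _
  rw [ΦR, Amalg.lift_inr]
  simp [recRV, h]

theorem SR_σ (g : S.LR H y) : (S.SR H hc y).σ g = S.σ (S.πR H y g) := by
  refine Amalg.induction _ _ (P := fun g => (S.SR H hc y).σ g = S.σ (S.πR H y g)) ?_ ?_ ?_ g
  · intro x
    change ((S.ΦR H hc y) (S.rl H y x)).p = S.σ (S.πR H y (S.rl H y x))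
    rw [S.πR_rl, ΦR, Amalg.lift_inl]; rfl
  · intro x
    change ((S.ΦR H hc y) (S.rr H y x)).p = S.σ (S.πR H y (S.rr H y x))
    rw [S.πR_rr, ΦR, Amalg.lift_inr]; rfl
  · intro a b ha hb
    rw [map_mul, ha, hb, map_mul, map_mul]

theorem SR_sec (g : S.LR H y) (y' : Y) :
    S.πR H y ((S.SR H hc y).sec g y') = S.sec (S.πR H y g) y' := by
  refine Amalg.induction _ _
    (P := fun g => ∀ y', S.πR H y ((S.SR H hc y).sec g y') = S.sec (S.πR H y g) y') ?_ ?_ ?_ g y'
  · intro x y'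
    erw [S.SR_sec_rl H hc y x y', πR_rl, πR_rl]
  · intro x y'
    by_cases h : y' = y
    · subst h
      erw [S.SR_sec_rr H hc y' x, πR_rr, πR_rr]
    · erw [S.SR_sec_rr' H hc y x y' h, πR_rl, πR_rr]
  · intro a b ha hb y'
    rw [(S.SR H hc y).sec_mul, map_mul, ha, hb, map_mul, S.sec_mul, S.SR_σ H hc y]

/-- the special elements of the amalgam -/
def WR : Set (S.LR H y) :=
  {g | ∃ a b : H, ∃ c : S.vr H y, g = S.rl H y a * S.rr H y c * S.rl H y b}

/-- a section of an element of `vr` is a special element without sides -/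
theorem SR_sec_rr_mem (c : S.vr H y) (y' : Y) :
    (∃ c' : S.vr H y, (S.SR H hc y).sec (S.rr H y c) y' = S.rr H y c') ∨
      (S.SR H hc y).sec (S.rr H y c) y' ∈ (S.rl H y).range := by
  by_cases h : y' = y
  · subst h
    exact Or.inl ⟨_, S.SR_sec_rr H hc y' c⟩
  · exact Or.inr ⟨_, (S.SR_sec_rr' H hc y c y' h).symm⟩

theorem SR_sec_rl_mem (c : H) (y' : Y) :
    (S.SR H hc y).sec (S.rl H y c) y' ∈ (S.rl H y).range :=
  ⟨_, (S.SR_sec_rl H hc y c y').symm⟩

theorem WR_of {u v : S.LR H y} (hu : u ∈ (S.rl H y).range) (hv : v ∈ (S.rl H y).range)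
    (d : S.vr H y) : u * S.rr H y d * v ∈ S.WR H y := by
  obtain ⟨a, rfl⟩ := hu
  obtain ⟨b, rfl⟩ := hv
  exact ⟨a, b, d, rfl⟩

theorem WR_of' {u : S.LR H y} (hu : u ∈ (S.rl H y).range) : u ∈ S.WR H y := by
  obtain ⟨a, rfl⟩ := hu
  exact ⟨a, 1, 1, by rw [map_one, map_one, mul_one, mul_one]⟩

theorem WR_sec (g : S.LR H y) (hg : g ∈ S.WR H y) (y' : Y) :
    (S.SR H hc y).sec g y' ∈ S.WR H y := by
  obtain ⟨a, b, c, rfl⟩ := hg
  rw [(S.SR H hc y).sec_mul, (S.SR H hc y).sec_mul]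
  rcases S.SR_sec_rr_mem H hc y c ((S.SR H hc y).σ (S.rl H y b) y') with ⟨c', hc'⟩ | hc'
  · rw [hc']
    exact S.WR_of H y (S.SR_sec_rl_mem H hc y a _) (S.SR_sec_rl_mem H hc y b _) c'
  · exact S.WR_of' H y (mul_mem (mul_mem (S.SR_sec_rl_mem H hc y a _) hc')
      (S.SR_sec_rl_mem H hc y b _))

theorem WR_step (a h b : H) (c c' : S.vr H y) (x : Y) :
    (S.SR H hc y).sec
      (S.rl H y a * S.rr H y c * S.rl H y h * S.rr H y c' * S.rl H y b) x ∈ S.WR H y ∨
    (S.σ h.1 y = y ∧ ∃ a₁ b₁ : H, ∃ c₁ c₁' : S.vr H y, (S.SR H hc y).sec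
      (S.rl H y a * S.rr H y c * S.rl H y h * S.rr H y c' * S.rl H y b) x =
      S.rl H y a₁ * S.rr H y c₁ * S.rl H y ⟨S.sec h y, hc h h.2 y⟩ * S.rr H y c₁' *
        S.rl H y b₁) := by
  rw [(S.SR H hc y).sec_mul, (S.SR H hc y).sec_mul, (S.SR H hc y).sec_mul,
    (S.SR H hc y).sec_mul]
  have hb : (S.SR H hc y).σ (S.rl H y b) x = S.σ b.1 x := by rw [S.SR_σ, S.πR_rl]
  have hc' : (S.SR H hc y).σ (S.rr H y c') y = y := by
    rw [S.SR_σ, S.πR_rr]; exact S.vr_σ c'.2
  have hh : (S.SR H hc y).σ (S.rl H y h) y = S.σ h.1 y := by rw [S.SR_σ, S.πR_rl]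
  rw [hb]
  by_cases hx : S.σ b.1 x = y
  · rw [hx, hc', hh, S.SR_sec_rr H hc y c']
    by_cases hy : S.σ h.1 y = y
    · rw [hy, S.SR_sec_rr H hc y c, S.SR_sec_rl H hc y h, S.SR_sec_rl H hc y a,
        S.SR_sec_rl H hc y b]
      exact Or.inr ⟨rfl, _, _, _, _, rfl⟩
    · left
      rw [S.SR_sec_rr' H hc y c _ hy]
      exact S.WR_of H y (mul_mem (mul_mem (S.SR_sec_rl_mem H hc y a _) ⟨_, rfl⟩)
        (S.SR_sec_rl_mem H hc y h _)) (S.SR_sec_rl_mem H hc y b _) _
  · left
    have hm := S.SR_sec_rr' H hc y c' _ hx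
    have hm' : (S.SR H hc y).sec (S.rr H y c') (S.σ b.1 x) ∈ (S.rl H y).range :=
      ⟨_, hm.symm⟩
    rcases S.SR_sec_rr_mem H hc y c ((S.SR H hc y).σ (S.rl H y h)
      ((S.SR H hc y).σ (S.rr H y c') (S.σ b.1 x))) with ⟨d, hd⟩ | hd
    · rw [hd, mul_assoc, mul_assoc]
      exact S.WR_of H y (S.SR_sec_rl_mem H hc y a _) (mul_mem (S.SR_sec_rl_mem H hc y h _)
        (mul_mem hm' (S.SR_sec_rl_mem H hc y b _))) _
    · exact S.WR_of' H y (mul_mem (mul_mem (mul_mem (mul_mem (S.SR_sec_rl_mem H hc y a _) hd)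
        (S.SR_sec_rl_mem H hc y h _)) hm') (S.SR_sec_rl_mem H hc y b _))

theorem WR_mid [Finite Y] (n : ℕ) (a h b : H) (c c' : S.vr H y)
    (hn : S.σ (S.it y n h.1) y ≠ y) : ∃ m, EW (S.SR H hc y) (S.WR H y) m
      (S.rl H y a * S.rr H y c * S.rl H y h * S.rr H y c' * S.rl H y b) := by
  induction n generalizing a h b c c' with
  | zero =>
    refine EW_of_sec (S.SR H hc y) (S.WR_sec H hc y) _ (fun x => ⟨0, ?_⟩)
    rcases S.WR_step H hc y a h b c c' x with h1 | ⟨h1, _⟩
    · exact h1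
    · exact absurd h1 hn
  | succ n ih =>
    refine EW_of_sec (S.SR H hc y) (S.WR_sec H hc y) _ (fun x => ?_)
    rcases S.WR_step H hc y a h b c c' x with h1 | ⟨_, a₁, b₁, c₁, c₁', h1⟩
    · exact ⟨0, h1⟩
    · rw [h1]
      exact ih a₁ ⟨S.sec h.1 y, hc h.1 h.2 y⟩ b₁ c₁ c₁' hn

/-- Data for the amalgam case. -/
noncomputable def dataR [Finite Y] (hfs : H ≤ S.fs) : WData S (S.LR H y) where
  SL := S.SR H hc y
  π := S.πR H y
  σ_eq := S.SR_σ H hc y
  sec_eq := S.SR_sec H hc y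
  W := S.WR H y
  one_W := ⟨1, 1, 1, by rw [map_one, map_one, mul_one, mul_one]⟩
  W_sec := S.WR_sec H hc y
  W_inv := by
    rintro _ ⟨a, b, c, rfl⟩
    refine ⟨b⁻¹, a⁻¹, c⁻¹, ?_⟩
    rw [map_inv, map_inv, map_inv]; group
  W_mul := by
    rintro _ ⟨a, b, c, rfl⟩ _ ⟨a', b', c', rfl⟩
    have e : S.rl H y a * S.rr H y c * S.rl H y b * (S.rl H y a' * S.rr H y c' * S.rl H y b') =
        S.rl H y a * S.rr H y c * S.rl H y (b * a') * S.rr H y c' * S.rl H y b' := by
      rw [map_mul]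
      simp only [mul_assoc]
    rw [e]
    by_cases hm : S.Mp y y (b * a').1
    · have hv : (b * a').1 ∈ S.vr H y := S.mem_vr hc hfs (b * a').2 hm
      have e2 : S.rl H y (b * a') = S.rr H y ⟨(b * a').1, hv⟩ :=
        S.rl_eq_rr H y _ (b * a').2 hv
      refine ⟨0, a, b', c * ⟨(b * a').1, hv⟩ * c', ?_⟩
      rw [e2, map_mul (S.rr H y), map_mul (S.rr H y)]
      simp only [mul_assoc]
    · obtain ⟨n, hn⟩ := not_mp hm
      exact S.WR_mid H hc y n a (b * a') b' c c' hn
  W_one := by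
    rintro _ ⟨a, b, c, rfl⟩ hπ
    rw [map_mul, map_mul, S.πR_rl, S.πR_rl, S.πR_rr] at hπ
    have hcH : c.1 ∈ H := by
      have h1 : c.1 = a.1⁻¹ * b.1⁻¹ := by
        have h2 : c.1 = a.1⁻¹ * (a.1 * c.1 * b.1) * b.1⁻¹ := by group
        rw [h2, hπ, mul_one]
      rw [h1]
      exact mul_mem (inv_mem a.2) (inv_mem b.2)
    rw [← S.rl_eq_rr H y c.1 hcH c.2, ← map_mul, ← map_mul]
    have h3 : a * ⟨c.1, hcH⟩ * b = 1 := Subtype.ext hπ
    rw [h3, map_one]
  gen := by
    rw [eq_top_iff]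
    intro g _
    refine Amalg.induction _ _ (P := fun g => g ∈ Subgroup.closure
      {g : S.LR H y | ∃ n, EW (S.SR H hc y) (S.WR H y) n g}) ?_ ?_ ?_ g
    · intro x
      exact Subgroup.subset_closure ⟨0, x, 1, 1, by rw [map_one, map_one, mul_one, mul_one]⟩
    · intro c
      exact Subgroup.subset_closure ⟨0, 1, 1, c, by rw [map_one, mul_one, one_mul]⟩
    · intro a b ha hb
      exact mul_mem ha hb

end A

/-- **The amalgam case.** -/
theorem rayA [Finite Y] (hf : S.Faithful) {H : Subgroup T} (hH : S.GoodF H) (y : Y) :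
    ∃ H₁ : Subgroup T, S.GoodF H₁ ∧ H ≤ H₁ ∧ S.vr H y ≤ H₁ ∧
      ∀ g ∈ H₁, ∃ n, ∀ v : List Y, v.length = n →
        ∃ a ∈ H, ∃ c ∈ S.vr H y, ∃ b ∈ H, S.secL g v = a * c * b := by
  have hL : FPB (S.LR H y) :=
    amalgThm _ _ _ _ _ (Subgroup.inclusion_injective _) (Subgroup.inclusion_injective _) hH.fpb
      (S.fpb_vr hf hH.fpb y)
  let D := S.dataR H hH.closed y hH.fs
  refine ⟨(S.πR H y).range, D.goodF_range hf hL ?_, ?_, ?_, ?_⟩
  · rintro _ ⟨g, rfl⟩
    change S.πR H y g ∈ S.fs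
    refine Amalg.induction _ _ (P := fun g => S.πR H y g ∈ S.fs) ?_ ?_ ?_ g
    · intro x
      have : S.πR H y (S.rl H y x) ∈ S.fs := by
        rw [S.πR_rl]
        exact hH.fs x.2
      exact this
    · intro x
      have : S.πR H y (S.rr H y x) ∈ S.fs := by
        rw [S.πR_rr]
        exact x.2.1
      exact this
    · intro a b ha hb
      rw [map_mul]
      exact mul_mem ha hb
  · exact fun h hh => ⟨S.rl H y ⟨h, hh⟩, S.πR_rl H y _⟩
  · exact fun h hh => ⟨S.rr H y ⟨h, hh⟩, S.πR_rr H y _⟩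
  · intro g hg
    obtain ⟨n, hn⟩ := D.range_secL hg
    refine ⟨n, fun v hv => ?_⟩
    obtain ⟨q, ⟨a, b, c, rfl⟩, hq2⟩ := hn v hv
    refine ⟨a, a.2, c, c.2, b, b.2, ?_⟩
    rw [hq2]
    change S.πR H y _ = _
    rw [map_mul, map_mul, S.πR_rl, S.πR_rl, S.πR_rr]

end SS

end Vale.Agent.P192
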