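import Vale.Agent.P192.H663.StepA

/-!
# P192: constant rays, finite-state elements, and an abstract extension lemma

Definitions for the relative theorem over a finite-state self-similar group in the class.
-/

namespace Vale.Agent.P192

universe u v w

namespace SS

variable {T : Type u} {Y : Type v} [Group T] (S : SS T Y)

/-! ### constant rays -/

/-- `g` maps the constant ray `y y y ...` to the constant ray `z z z ...` -/
def Mp (y z : Y) (g : T) : Prop := ∀ n, S.σ (S.it y n g) y = z

theorem it_zero (x : Y) (g : T) : S.it x 0 g = g := rfl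

theorem it_succ (x : Y) (n : ℕ) (g : T) : S.it x (n + 1) g = S.it x n (S.sec g x) := rfl

theorem it_succ' (x : Y) (n : ℕ) (g : T) : S.it x (n + 1) g = S.sec (S.it x n g) x := by
  induction n generalizing g with
  | zero => rfl
  | succ n ih => exact ih (S.sec g x)

theorem it_add (x : Y) (m n : ℕ) (g : T) : S.it x (m + n) g = S.it x n (S.it x m g) := by
  induction m generalizing g with
  | zero => rw [Nat.zero_add]; rfl
  | succ m ih => rw [Nat.succ_add]; exact ih (S.sec g x)

theorem it_one (x : Y) (n : ℕ) : S.it x n 1 = 1 := by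
  induction n with
  | zero => rfl
  | succ n ih => rw [S.it_succ, S.sec_one, ih]

variable {S}

theorem Mp.σ {y z : Y} {g : T} (h : S.Mp y z g) : S.σ g y = z := h 0

theorem Mp.sec {y z : Y} {g : T} (h : S.Mp y z g) : S.Mp y z (S.sec g y) := fun n => h (n + 1)

theorem Mp.it {y z : Y} {g : T} (h : S.Mp y z g) (n : ℕ) : S.Mp y z (S.it y n g) := by
  induction n generalizing g with
  | zero => exact h
  | succ n ih => exact ih h.sec

theorem Mp.of_sec {y z : Y} {g : T} (h : S.σ g y = z) (h' : S.Mp y z (S.sec g y)) :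
    S.Mp y z g := by
  intro n
  cases n with
  | zero => exact h
  | succ n => exact h' n

/-- an element that is its own section -/
theorem Mp.of_rec {y z : Y} {g : T} (h : S.σ g y = z) (h' : S.sec g y = g) : S.Mp y z g := by
  intro n
  induction n with
  | zero => exact h
  | succ n ih =>
    rw [S.it_succ, h']
    exact ih

theorem Mp.one (y : Y) : S.Mp y y 1 := by
  intro n
  rw [S.it_one, map_one]; rfl

theorem it_mul {y z : Y} {h : T} (hh : S.Mp y z h) (g : T) (n : ℕ) :
    S.it y n (g * h) = S.it z n g * S.it y n h := by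
  induction n generalizing g h with
  | zero => rfl
  | succ n ih =>
    rw [S.it_succ, S.it_succ, S.it_succ, S.sec_mul, hh.σ]
    exact ih hh.sec (S.sec g z)

theorem Mp.mul {x y z : Y} {g h : T} (hg : S.Mp y z g) (hh : S.Mp x y h) : S.Mp x z (g * h) := by
  intro n
  rw [it_mul hh, map_mul, Equiv.Perm.mul_apply, hh n, hg n]

theorem it_inv {y z : Y} {g : T} (hg : S.Mp y z g) (n : ℕ) :
    S.it z n g⁻¹ = (S.it y n g)⁻¹ := by
  induction n generalizing g with
  | zero => rfl
  | succ n ih =>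
    rw [S.it_succ, S.it_succ, S.sec_inv' g hg.σ]
    exact ih hg.sec

theorem Mp.inv {y z : Y} {g : T} (hg : S.Mp y z g) : S.Mp z y g⁻¹ := by
  intro n
  rw [it_inv hg]
  exact S.σ_inv_apply _ (hg n)

/-- where an element not mapping the ray to the ray leaves it -/
theorem not_mp {y z : Y} {g : T} (h : ¬ S.Mp y z g) : ∃ n, S.σ (S.it y n g) y ≠ z := by
  by_contra hc
  push Not at hc
  exact h hc

variable (S)

theorem it_mem {H : Subgroup T} (hc : ∀ h ∈ H, ∀ y, S.sec h y ∈ H) (y : Y) (n : ℕ) {h : T}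
    (hh : h ∈ H) : S.it y n h ∈ H := by
  induction n generalizing h with
  | zero => exact hh
  | succ n ih => exact ih (hc h hh y)

theorem secL_mem {H : Subgroup T} (hc : ∀ h ∈ H, ∀ y, S.sec h y ∈ H) (v : List Y) {h : T}
    (hh : h ∈ H) : S.secL h v ∈ H := by
  induction v generalizing h with
  | nil => exact hh
  | cons y v ih => exact ih (hc h hh y)

theorem secL_append (g : T) (v w : List Y) : S.secL g (v ++ w) = S.secL (S.secL g v) w := by
  induction v generalizing g with
  | nil => rfl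
  | cons y v ih => exact ih (S.sec g y)

theorem secL_replicate (g : T) (y : Y) (n : ℕ) : S.secL g (List.replicate n y) = S.it y n g := by
  induction n generalizing g with
  | zero => rfl
  | succ n ih => exact ih (S.sec g y)

/-! ### finite-state elements -/

theorem finite_range_secL_iff (g : T) : (Set.range (S.secL g)).Finite ↔
    ∃ F : Set T, F.Finite ∧ g ∈ F ∧ ∀ f ∈ F, ∀ y, S.sec f y ∈ F := by
  constructor
  · intro h
    refine ⟨_, h, ⟨[], rfl⟩, ?_⟩
    rintro _ ⟨v, rfl⟩ y
    exact ⟨v ++ [y], S.secL_append g v [y]⟩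
  · rintro ⟨F, hF, hg, hc⟩
    refine hF.subset ?_
    have key : ∀ (v : List Y) (g : T), g ∈ F → S.secL g v ∈ F := by
      intro v
      induction v with
      | nil => exact fun g hg => hg
      | cons y v ih => exact fun g hg => ih _ (hc g hg y)
    rintro _ ⟨v, rfl⟩
    exact key v g hg

/-- the subgroup of the elements with finitely many sections -/
def fs : Subgroup T where
  carrier := {g | (Set.range (S.secL g)).Finite}
  one_mem' := by
    refine (S.finite_range_secL_iff 1).2 ⟨{1}, Set.finite_singleton _, rfl, ?_⟩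
    rintro f rfl y
    exact S.sec_one y
  mul_mem' := by
    intro a b ha hb
    obtain ⟨F, hF, haF, hFc⟩ := (S.finite_range_secL_iff a).1 ha
    obtain ⟨G, hG, hbG, hGc⟩ := (S.finite_range_secL_iff b).1 hb
    refine (S.finite_range_secL_iff _).2 ⟨Set.image2 (fun x y => x * y) F G, hF.image2 _ hG,
      ⟨a, haF, b, hbG, rfl⟩, ?_⟩
    rintro _ ⟨f, hf, g, hg, rfl⟩ y
    change S.sec (f * g) y ∈ _
    rw [S.sec_mul]
    exact ⟨_, hFc f hf _, _, hGc g hg _, rfl⟩
  inv_mem' := by
    intro a ha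
    obtain ⟨F, hF, haF, hFc⟩ := (S.finite_range_secL_iff a).1 ha
    refine (S.finite_range_secL_iff _).2 ⟨(fun x => x⁻¹) '' F, hF.image _, ⟨a, haF, rfl⟩, ?_⟩
    rintro _ ⟨f, hf, rfl⟩ y
    change S.sec f⁻¹ y ∈ _
    rw [S.sec_inv]
    exact ⟨_, hFc f hf _, rfl⟩

theorem mem_fs_iff {g : T} : g ∈ S.fs ↔
    ∃ F : Set T, F.Finite ∧ g ∈ F ∧ ∀ f ∈ F, ∀ y, S.sec f y ∈ F :=
  S.finite_range_secL_iff g

theorem fs_sec {g : T} (hg : g ∈ S.fs) (y : Y) : S.sec g y ∈ S.fs := by
  obtain ⟨F, hF, hgF, hFc⟩ := S.mem_fs_iff.1 hg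
  exact S.mem_fs_iff.2 ⟨F, hF, hFc g hgF y, hFc⟩

theorem fs_it {g : T} (hg : g ∈ S.fs) (y : Y) (n : ℕ) : S.it y n g ∈ S.fs :=
  S.it_mem (fun _ h y => S.fs_sec h y) y n hg

/-- an element all of whose sections, except possibly itself, are finite-state -/
theorem fs_of_sec [Finite Y] {g : T} (h : ∀ y, S.sec g y = g ∨ S.sec g y ∈ S.fs) : g ∈ S.fs := by
  classical
  have h' : ∀ y, ∃ F : Set T, F.Finite ∧ (S.sec g y ∈ F ∨ S.sec g y = g) ∧
      ∀ f ∈ F, ∀ y, S.sec f y ∈ F := by
    intro y
    rcases h y with h | h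
    · exact ⟨∅, Set.finite_empty, Or.inr h, fun f hf => absurd hf (Set.notMem_empty f)⟩
    · obtain ⟨F, hF, hgF, hFc⟩ := S.mem_fs_iff.1 h
      exact ⟨F, hF, Or.inl hgF, hFc⟩
  choose F hF hgF hFc using h'
  refine S.mem_fs_iff.2 ⟨insert g (⋃ y, F y), (Set.finite_iUnion hF).insert _,
    Set.mem_insert _ _, ?_⟩
  intro f hf y
  rcases Set.mem_insert_iff.1 hf with rfl | hf
  · rcases hgF y with h | h
    · exact Set.mem_insert_of_mem _ (Set.mem_iUnion.2 ⟨y, h⟩)
    · rw [h]; exact Set.mem_insert _ _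
  · obtain ⟨y', hy'⟩ := Set.mem_iUnion.1 hf
    exact Set.mem_insert_of_mem _ (Set.mem_iUnion.2 ⟨y', hFc y' f hy' y⟩)

theorem up_le_fs [Finite Y] {H : Subgroup T} (hH : H ≤ S.fs) : S.up H ≤ S.fs :=
  fun _ hg => S.fs_of_sec (fun y => Or.inr (hH (hg y)))

/-! ### the vertex group of a constant ray -/

/-- the finite-state elements fixing the constant ray `y y y ...`, with all sections off the ray
in `H` -/
def vr (H : Subgroup T) (y : Y) : Subgroup T where
  carrier := {g | g ∈ S.fs ∧ S.Mp y y g ∧ ∀ n y', y' ≠ y → S.sec (S.it y n g) y' ∈ H}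
  one_mem' := ⟨one_mem _, Mp.one y, fun n y' _ => by rw [S.it_one, S.sec_one]; exact one_mem _⟩
  mul_mem' := by
    intro a b ha hb
    refine ⟨mul_mem ha.1 hb.1, ha.2.1.mul hb.2.1, fun n y' hy' => ?_⟩
    rw [it_mul hb.2.1, S.sec_mul]
    refine mul_mem (ha.2.2 n _ ?_) (hb.2.2 n _ hy')
    intro h
    exact hy' ((S.σ (S.it y n b)).injective (h.trans (hb.2.1 n).symm))
  inv_mem' := by
    intro a ha
    refine ⟨inv_mem ha.1, ha.2.1.inv, fun n y' hy' => ?_⟩
    rw [it_inv ha.2.1, S.sec_inv]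
    refine inv_mem (ha.2.2 n _ ?_)
    intro h
    have h2 : S.σ (S.it y n a)⁻¹ y' = S.σ (S.it y n a)⁻¹ y := by
      rw [h, S.σ_inv_apply _ (ha.2.1 n)]
    exact hy' ((S.σ (S.it y n a)⁻¹).injective h2)

theorem vr_sec {H : Subgroup T} {y : Y} {g : T} (hg : g ∈ S.vr H y) : S.sec g y ∈ S.vr H y :=
  ⟨S.fs_sec hg.1 y, hg.2.1.sec, fun n y' hy' => hg.2.2 (n + 1) y' hy'⟩

theorem vr_sec' {H : Subgroup T} {y : Y} {g : T} (hg : g ∈ S.vr H y) {y' : Y} (hy' : y' ≠ y) :
    S.sec g y' ∈ H := hg.2.2 0 y' hy'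

theorem vr_σ {H : Subgroup T} {y : Y} {g : T} (hg : g ∈ S.vr H y) : S.σ g y = y := hg.2.1.σ

theorem vr_mono {H K : Subgroup T} (h : H ≤ K) (y : Y) : S.vr H y ≤ S.vr K y :=
  fun _ hg => ⟨hg.1, hg.2.1, fun n y' hy' => h (hg.2.2 n y' hy')⟩

/-- elements of `H` fixing the ray -/
theorem mem_vr {H : Subgroup T} (hc : ∀ h ∈ H, ∀ y, S.sec h y ∈ H) (hfs : H ≤ S.fs) {y : Y}
    {h : T} (hh : h ∈ H) (hm : S.Mp y y h) : h ∈ S.vr H y :=
  ⟨hfs hh, hm, fun n y' _ => hc _ (S.it_mem hc y n hh) y'⟩

/-- a subgroup closed under sections, consisting of finite-state elements, and in the class -/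
structure GoodF (H : Subgroup T) : Prop where
  closed : ∀ h ∈ H, ∀ y, S.sec h y ∈ H
  fs : H ≤ S.fs
  fpb : FPB H

theorem goodF_bot : S.GoodF ⊥ where
  closed := by
    intro h hh y
    rw [Subgroup.mem_bot] at hh
    subst hh
    rw [S.sec_one]
    exact one_mem _
  fs := bot_le
  fpb := fpb_of_finite _

theorem goodF_up [Finite Y] (hf : S.Faithful) {H : Subgroup T} (hH : S.GoodF H) :
    S.GoodF (S.up H) where
  closed := fun _ hh y => S.le_up hH.closed (hh y)
  fs := S.up_le_fs hH.fs
  fpb := by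
    refine S.fpb_of_sections H _ hH.fpb Set.univ (fun g hg y _ => hg y) ?_
    intro g _ h0 h
    apply hf
    intro v
    cases v with
    | nil => exact h0
    | cons y v =>
      change S.σ (S.secL (S.sec g y) v) = 1
      rw [h y trivial]
      exact S.Kn_secL (n := 0) (one_mem _) v

/-! ### the abstract extension lemma -/

/-- all sections of level `n` are in `W` -/
def EW {L : Type w} [Group L] (SL : SS L Y) (W : Set L) : ℕ → L → Prop
  | 0, g => g ∈ W
  | n + 1, g => ∀ y, EW SL W n (SL.sec g y)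

/-- all sections at words of length `n` are in `W` -/
theorem EW_secL {L : Type w} [Group L] (SL : SS L Y) (W : Set L) (n : ℕ) (g : L)
    (h : EW SL W n g) (v : List Y) (hv : v.length = n) : SL.secL g v ∈ W := by
  induction n generalizing g v with
  | zero =>
    rw [List.length_eq_zero_iff.1 hv]
    exact h
  | succ n ih =>
    cases v with
    | nil => simp at hv
    | cons y v =>
      rw [List.length_cons, Nat.add_right_cancel_iff] at hv
      exact ih _ (h y) v hv

section

variable {L : Type w} [Group L] (SL : SS L Y) {W : Set L} (hW : ∀ g ∈ W, ∀ y, SL.sec g y ∈ W)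

include hW

theorem EW_succ (n : ℕ) (g : L) (h : EW SL W n g) : EW SL W (n + 1) g := by
  induction n generalizing g with
  | zero => exact fun y => hW g h y
  | succ n ih => exact fun y => ih _ (h y)

theorem EW_mono {n m : ℕ} (hnm : n ≤ m) (g : L) (h : EW SL W n g) : EW SL W m g := by
  induction hnm with
  | refl => exact h
  | step _ ih => exact EW_succ SL hW _ _ ih

theorem EW_of_sec [Finite Y] (g : L) (h : ∀ y, ∃ n, EW SL W n (SL.sec g y)) :
    ∃ n, EW SL W n g := by
  choose n hn using h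
  obtain ⟨m, hm⟩ := Finite.exists_le n
  exact ⟨m + 1, fun y => EW_mono SL hW (hm y) _ (hn y)⟩

end

/-- Data for the extension lemma: a group `L` with a wreath recursion over the letters `Y`, a
homomorphism `π : L → T` compatible with the recursions and a set `W` of special elements. -/
structure WData (S : SS T Y) (L : Type w) [Group L] where
  SL : SS L Y
  π : L →* T
  σ_eq : ∀ g, SL.σ g = S.σ (π g)
  sec_eq : ∀ g y, π (SL.sec g y) = S.sec (π g) y
  W : Set L
  one_W : (1 : L) ∈ W
  W_sec : ∀ g ∈ W, ∀ y, SL.sec g y ∈ W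
  W_inv : ∀ g ∈ W, g⁻¹ ∈ W
  W_mul : ∀ a ∈ W, ∀ b ∈ W, ∃ n, EW SL W n (a * b)
  W_one : ∀ g ∈ W, π g = 1 → g = 1
  gen : Subgroup.closure {g : L | ∃ n, EW SL W n g} = ⊤

namespace WData

variable {S} {L : Type w} [Group L] (D : WData S L)

theorem E_succ (n : ℕ) (g : L) (h : EW D.SL D.W n g) : EW D.SL D.W (n + 1) g := by
  induction n generalizing g with
  | zero => exact fun y => D.W_sec g h y
  | succ n ih => exact fun y => ih _ (h y)

theorem E_mono {n m : ℕ} (hnm : n ≤ m) (g : L) (h : EW D.SL D.W n g) : EW D.SL D.W m g := by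
  induction hnm with
  | refl => exact h
  | step _ ih => exact D.E_succ _ _ ih

theorem E_inv (n : ℕ) (g : L) (h : EW D.SL D.W n g) : EW D.SL D.W n g⁻¹ := by
  induction n generalizing g with
  | zero => exact D.W_inv g h
  | succ n ih =>
    intro y
    rw [D.SL.sec_inv]
    exact ih _ (h _)

theorem E_of_sec [Finite Y] (g : L) (h : ∀ y, ∃ n, EW D.SL D.W n (D.SL.sec g y)) :
    ∃ n, EW D.SL D.W n g := by
  choose n hn using h
  obtain ⟨m, hm⟩ := Finite.exists_le n
  exact ⟨m + 1, fun y => D.E_mono (hm y) _ (hn y)⟩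

theorem E_mul [Finite Y] (n : ℕ) {a b : L} (ha : EW D.SL D.W n a) (hb : EW D.SL D.W n b) :
    ∃ m, EW D.SL D.W m (a * b) := by
  induction n generalizing a b with
  | zero => exact D.W_mul a ha b hb
  | succ n ih =>
    apply D.E_of_sec
    intro y
    rw [D.SL.sec_mul]
    exact ih (ha _) (hb _)

theorem E_all [Finite Y] (g : L) : ∃ m, EW D.SL D.W m g := by
  have hg : g ∈ Subgroup.closure {g : L | ∃ n, EW D.SL D.W n g} := by
    rw [D.gen]; trivial
  induction hg using Subgroup.closure_induction with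
  | mem x hx => exact hx
  | one => exact ⟨0, D.one_W⟩
  | mul x y _ _ hx hy =>
    obtain ⟨n, hn⟩ := hx
    obtain ⟨m, hm⟩ := hy
    exact D.E_mul (max n m) (D.E_mono (le_max_left _ _) _ hn)
      (D.E_mono (le_max_right _ _) _ hm)
  | inv x _ hx =>
    obtain ⟨n, hn⟩ := hx
    exact ⟨n, D.E_inv n _ hn⟩

/-- elements acting trivially are in the union of the kernels -/
theorem mem_Kn (n : ℕ) (g : L) (hE : EW D.SL D.W n g) (hg : D.π g = 1) : g ∈ D.SL.Kn n := by
  induction n generalizing g with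
  | zero =>
    rw [D.W_one g hE hg]
    exact one_mem _
  | succ n ih =>
    refine ⟨by rw [D.σ_eq, hg, map_one], fun y => ih _ (hE y) ?_⟩
    rw [D.sec_eq, hg, S.sec_one]

theorem π_of_mem_Kn (hf : S.Faithful) (n : ℕ) (g : L) (hg : g ∈ D.SL.Kn n) : D.π g = 1 := by
  have key : ∀ (v : List Y) (n : ℕ) (g : L), g ∈ D.SL.Kn n → S.σ (S.secL (D.π g) v) = 1 := by
    intro v
    induction v with
    | nil =>
      intro n g hg
      have := D.SL.Kn_secL hg []
      change S.σ (D.π g) = 1
      rw [← D.σ_eq]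
      exact this
    | cons y v ih =>
      intro n g hg
      change S.σ (S.secL (S.sec (D.π g) y) v) = 1
      rw [← D.sec_eq]
      cases n with
      | zero =>
        rw [(D.SL.mem_Kn_zero).1 hg, D.SL.sec_one]
        exact ih 0 1 (one_mem _)
      | succ n => exact ih n _ (hg.2 y)
  exact hf _ (fun v => key v n g hg)

theorem π_secL (g : L) (v : List Y) : D.π (D.SL.secL g v) = S.secL (D.π g) v := by
  induction v generalizing g with
  | nil => rfl
  | cons y v ih =>
    change D.π (D.SL.secL (D.SL.sec g y) v) = S.secL (S.sec (D.π g) y) v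
    rw [ih, D.sec_eq]

/-- **The abstract extension lemma.** -/
theorem fpb_range [Finite Y] (hf : S.Faithful) (hL : FPB L) : FPB D.π.range := by
  refine fpb_iUnion_ker D.π.rangeRestrict D.π.rangeRestrict_surjective D.SL.Kn
    D.SL.Kn_le_succ ?_ (fun n => D.SL.fpb_quot_Kn hL n)
  intro x
  have h1 : D.π.rangeRestrict x = 1 ↔ D.π x = 1 :=
    ⟨fun h => congrArg Subtype.val h, fun h => Subtype.ext h⟩
  rw [h1]
  constructor
  · intro hx
    obtain ⟨n, hn⟩ := D.E_all x
    exact ⟨n, D.mem_Kn n x hn hx⟩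
  · rintro ⟨n, hn⟩
    exact D.π_of_mem_Kn hf n x hn

theorem closed_range : ∀ g ∈ D.π.range, ∀ y, S.sec g y ∈ D.π.range := by
  rintro _ ⟨g, rfl⟩ y
  rw [← D.sec_eq]
  exact ⟨_, rfl⟩

/-- the group generated is good, if it is finite-state -/
theorem goodF_range [Finite Y] (hf : S.Faithful) (hL : FPB L) (hfs : D.π.range ≤ S.fs) :
    S.GoodF D.π.range where
  closed := D.closed_range
  fs := hfs
  fpb := D.fpb_range hf hL

/-- all deep sections of the elements of the range are images of special elements -/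
theorem range_secL [Finite Y] {g : T} (hg : g ∈ D.π.range) :
    ∃ n, ∀ v : List Y, v.length = n → ∃ q ∈ D.W, S.secL g v = D.π q := by
  obtain ⟨l, rfl⟩ := hg
  obtain ⟨n, hn⟩ := D.E_all l
  exact ⟨n, fun v hv => ⟨_, EW_secL _ _ n l hn v hv, (D.π_secL l v).symm⟩⟩

end WData

end SS

end Vale.Agent.P192
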