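import Vale.Agent.P192.H826.Ray
import Vale.Agent.P192.H124.RayB

/-!
# P192: finite-state elements over a finite-state self-similar group: assembly
-/

namespace Vale.Agent.P192

universe u v w

namespace SS

variable {T : Type u} {Y : Type v} [Group T] (S : SS T Y)

/-- a recurrent element is constant on its ray -/
theorem it_rec {y : Y} {s : T} (h : S.sec s y = s) (n : ℕ) : S.it y n s = s := by
  induction n with
  | zero => rfl
  | succ n ih => rw [S.it_succ, h, ih]

/-- the quotient of two elements recurrent at `y` with the same image of the letter -/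
theorem quot_mem_vr [Finite Y] {H : Subgroup T} (hH : S.GoodF H) {y z : Y} {s s' : T}
    (h1 : S.σ s y = z) (h2 : S.sec s y = s) (h3 : ∀ y', y' ≠ y → S.sec s y' ∈ H)
    (h1' : S.σ s' y = z) (h2' : S.sec s' y = s') (h3' : ∀ y', y' ≠ y → S.sec s' y' ∈ H) :
    s⁻¹ * s' ∈ S.vr H y := by
  classical
  have hs : s ∈ S.fs := S.fs_of_sec (fun x => by
    by_cases hx : x = y
    · left; rw [hx, h2]
    · right; exact hH.fs (h3 x hx))
  have hs' : s' ∈ S.fs := S.fs_of_sec (fun x => by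
    by_cases hx : x = y
    · left; rw [hx, h2']
    · right; exact hH.fs (h3' x hx))
  have hm := Mp.of_rec h1 h2
  have hm' := Mp.of_rec h1' h2'
  refine ⟨mul_mem (inv_mem hs) hs', hm.inv.mul hm', fun n y' hy' => ?_⟩
  rw [it_mul hm', it_inv hm, S.it_rec h2, S.it_rec h2', S.sec_mul]
  refine mul_mem ?_ (h3' y' hy')
  rw [S.sec_inv]
  refine inv_mem (h3 _ ?_)
  intro h
  have h4 : S.σ s⁻¹ (S.σ s' y') = S.σ s⁻¹ z := by rw [h, S.σ_inv_apply s h1]
  have h5 : S.σ s' y' = S.σ s' y := ((S.σ s⁻¹).injective h4).trans h1'.symm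
  exact hy' ((S.σ s').injective h5)

/-- **One recurrent element over a finite-state group.** -/
theorem ray_one [Finite Y] (hf : S.Faithful) {H : Subgroup T} (hH : S.GoodF H)
    {y z : Y} {s : T} (h1 : S.σ s y = z) (h2 : S.sec s y = s)
    (h3 : ∀ y', y' ≠ y → S.sec s y' ∈ H) :
    ∃ H' : Subgroup T, S.GoodF H' ∧ H ≤ H' ∧ s ∈ H' := by
  classical
  obtain ⟨H₁, hH₁, hle, hvr, hdeep⟩ := S.rayA hf hH y
  by_cases hd : ∃ d ∈ H, S.Mp y z d
  · obtain ⟨d, hdH, hdm⟩ := hd
    refine ⟨H₁, hH₁, hle, ?_⟩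
    have hsfs : s ∈ S.fs := S.fs_of_sec (fun x => by
      by_cases hx : x = y
      · left; rw [hx, h2]
      · right; exact hH.fs (h3 x hx))
    have hm : S.Mp y z s := Mp.of_rec h1 h2
    have hv : d⁻¹ * s ∈ S.vr H y := by
      refine ⟨mul_mem (inv_mem (hH.fs hdH)) hsfs, hdm.inv.mul hm, fun n y' hy' => ?_⟩
      rw [it_mul hm, S.it_rec h2, S.sec_mul]
      exact mul_mem (hH.closed _ (S.it_mem hH.closed _ n (inv_mem hdH)) _) (h3 y' hy')
    have := mul_mem (hle hdH) (hvr hv)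
    rwa [mul_inv_cancel_left] at this
  · obtain ⟨H', hH', hle', hs⟩ := rayB_of hf hH hH₁ hle hvr hdeep h1 h2 h3 hd
    exact ⟨H', hH', hle.trans hle', hs⟩

/-- all elements recurrent at `y` and mapping `y` to `z` -/
theorem ray_pair [Finite Y] (hf : S.Faithful) {H H₁ : Subgroup T} (hHH : H ≤ H₁)
    (hH₁ : S.GoodF H₁) (y z : Y) :
    ∃ H' : Subgroup T, S.GoodF H' ∧ H₁ ≤ H' ∧ ∀ s, S.σ s y = z → S.sec s y = s →
      (∀ y', y' ≠ y → S.sec s y' ∈ H) → s ∈ H' := by
  by_cases hex : ∃ s, S.σ s y = z ∧ S.sec s y = s ∧ ∀ y', y' ≠ y → S.sec s y' ∈ H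
  · obtain ⟨s₀, h1, h2, h3⟩ := hex
    obtain ⟨H₂, hH₂, hle₂, hvr, _⟩ := S.rayA hf hH₁ y
    obtain ⟨H', hH', hle, hs₀⟩ := S.ray_one hf hH₂ h1 h2
      (fun y' hy' => hle₂ (hHH (h3 y' hy')))
    refine ⟨H', hH', hle₂.trans hle, ?_⟩
    intro s g1 g2 g3
    have hv : s₀⁻¹ * s ∈ S.vr H₁ y := S.quot_mem_vr hH₁ h1 h2 (fun y' hy' => hHH (h3 y' hy'))
      g1 g2 (fun y' hy' => hHH (g3 y' hy'))
    have := mul_mem hs₀ (hle (hvr hv))
    rwa [mul_inv_cancel_left] at this
  · refine ⟨H₁, hH₁, le_rfl, ?_⟩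
    intro s g1 g2 g3
    exact absurd ⟨s, g1, g2, g3⟩ hex

/-- **The relative theorem over a finite-state group.** If `H` is self-similar, finite-state and in
the class, then so is some group containing `H`, all elements with all sections in `H`, and all
elements which are recurrent at one letter and have their other sections in `H`. -/
theorem ray_relative [Finite Y] (hf : S.Faithful) {H : Subgroup T}
    (hH : S.GoodF H) :
    ∃ H' : Subgroup T, S.GoodF H' ∧ H ≤ H' ∧ S.up H ≤ H' ∧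
      ∀ s y, S.sec s y = s → (∀ y', y' ≠ y → S.sec s y' ∈ H) → s ∈ H' := by
  have key : ∀ P : List (Y × Y), ∃ H' : Subgroup T, S.GoodF H' ∧ S.up H ≤ H' ∧ ∀ p ∈ P, ∀ s,
      S.σ s p.1 = p.2 → S.sec s p.1 = s → (∀ y', y' ≠ p.1 → S.sec s y' ∈ H) → s ∈ H' := by
    intro P
    induction P with
    | nil => exact ⟨S.up H, S.goodF_up hf hH, le_rfl, fun p hp => absurd hp List.not_mem_nil⟩
    | cons p P ih =>
      obtain ⟨H₁, hH₁, hle, hP⟩ := ih
      obtain ⟨H', hH', hle', hs⟩ := S.ray_pair hf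
        (H := H) ((S.le_up hH.closed).trans hle) hH₁ p.1 p.2
      refine ⟨H', hH', hle.trans hle', ?_⟩
      intro p' hp'
      rcases List.mem_cons.1 hp' with rfl | hp'
      · exact hs
      · intro s g1 g2 g3
        exact hle' (hP p' hp' s g1 g2 g3)
  have hfin : Finite (Y × Y) := inferInstance
  obtain ⟨n, ⟨e⟩⟩ := Finite.exists_equiv_fin (Y × Y)
  obtain ⟨H', hH', hle, hs⟩ := key (List.ofFn e.symm)
  refine ⟨H', hH', (S.le_up hH.closed).trans hle, hle, ?_⟩
  intro s y g2 g3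
  refine hs (y, S.σ s y) ?_ s rfl g2 g3
  rw [List.mem_ofFn]
  exact ⟨e (y, S.σ s y), by simp⟩

/-- a list of states relative to `H`: every state not in `H` is either nonrecurrent or recurrent at
exactly one letter over the group generated by `H` and the earlier states -/
def TriRel (H : Subgroup T) : List T → Prop
  | [] => True
  | s :: l => TriRel H l ∧
      ((∀ y, S.sec s y ∈ H ⊔ Subgroup.closure {x | x ∈ l}) ∨
        ∃ y, S.sec s y = s ∧ ∀ y', y' ≠ y → S.sec s y' ∈ H ⊔ Subgroup.closure {x | x ∈ l})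

theorem exists_goodF [Finite Y] (hf : S.Faithful) {H : Subgroup T}
    (hH : S.GoodF H) (l : List T) (hl : S.TriRel H l) :
    ∃ H' : Subgroup T, S.GoodF H' ∧ H ≤ H' ∧ ∀ x ∈ l, x ∈ H' := by
  induction l with
  | nil => exact ⟨H, hH, le_rfl, fun x hx => absurd hx List.not_mem_nil⟩
  | cons s l ih =>
    obtain ⟨hl1, hl2⟩ := hl
    obtain ⟨H₁, hH₁, hle, hlH⟩ := ih hl1
    have hcl : H ⊔ Subgroup.closure {x | x ∈ l} ≤ H₁ :=
      sup_le hle ((Subgroup.closure_le H₁).2 hlH)
    rcases hl2 with h | ⟨y, hy, h⟩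
    · refine ⟨S.up H₁, S.goodF_up hf hH₁, hle.trans (S.le_up hH₁.closed), ?_⟩
      intro x hx
      rcases List.mem_cons.1 hx with rfl | hx
      · exact fun y => hcl (h y)
      · exact S.le_up hH₁.closed (hlH x hx)
    · obtain ⟨H', hH', hle', hs⟩ := S.ray_one hf hH₁ (y := y) rfl hy (fun y' hy' => hcl (h y' hy'))
      refine ⟨H', hH', hle.trans hle', ?_⟩
      intro x hx
      rcases List.mem_cons.1 hx with rfl | hx
      · exact hs
      · exact hle' (hlH x hx)

/-- **The relative triangular theorem.** -/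
theorem triRel_fpb [Finite Y] (hf : S.Faithful) {H : Subgroup T}
    (hH : S.GoodF H) (l : List T) (hl : S.TriRel H l) :
    FPB (H ⊔ Subgroup.closure {x | x ∈ l} : Subgroup T) := by
  obtain ⟨H', hH', hle, hlH⟩ := S.exists_goodF hf hH l hl
  exact fpb_mono (sup_le hle ((Subgroup.closure_le H').2 hlH)) hH'.fpb

end SS

end Vale.Agent.P192
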