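import Vale.Agent.P192.H826.RaysA

/-!
# P192: arbitrary rays: the wreath recursion on the universal group of the groupoid of the rays
-/

namespace Vale.Agent.P192

universe u v w

namespace SS

variable {T : Type u} {Y : Type v} [Group T]

/-- A group `L` with the universal property of the group generated by `H` and the elements of the
sets `Vr H ξ`. -/
structure RL (S : SS T Y) (H : Subgroup T) (L : Type w) [Group L] where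
  hc : ∀ h ∈ H, ∀ y, S.sec h y ∈ H
  hfin : H ≤ S.finR
  ofH : H →* L
  ofV : ∀ (ξ : ℕ → Y) (g : T), g ∈ S.Vr H ξ → L
  ofV_mul : ∀ (ξ : ℕ → Y) (g g' : T) (hg : g ∈ S.Vr H ξ) (hg' : g' ∈ S.Vr H (S.ract g ξ)),
    ofV (S.ract g ξ) g' hg' * ofV ξ g hg = ofV ξ (g' * g) (S.Vr_mul hg hg')
  ofV_H : ∀ (ξ : ℕ → Y) (h : T) (hh : h ∈ H) (hV : h ∈ S.Vr H ξ), ofV ξ h hV = ofH ⟨h, hh⟩
  liftW : ∀ (f : H →* Wr L Y) (F : ∀ (ξ : ℕ → Y) (g : T), g ∈ S.Vr H ξ → Wr L Y),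
    (∀ (ξ : ℕ → Y) (g g' : T) (hg : g ∈ S.Vr H ξ) (hg' : g' ∈ S.Vr H (S.ract g ξ)),
      F (S.ract g ξ) g' hg' * F ξ g hg = F ξ (g' * g) (S.Vr_mul hg hg')) →
    (∀ (ξ : ℕ → Y) (h : T) (hh : h ∈ H) (hV : h ∈ S.Vr H ξ), F ξ h hV = f ⟨h, hh⟩) →
    ∃ φ : L →* Wr L Y, (∀ h, φ (ofH h) = f h) ∧ ∀ ξ g hg, φ (ofV ξ g hg) = F ξ g hg
  liftT : ∃ φ : L →* T, (∀ h, φ (ofH h) = h.1) ∧ ∀ ξ g hg, φ (ofV ξ g hg) = g
  gens : Subgroup.closure {x : L | (∃ h, x = ofH h) ∨ ∃ ξ g, ∃ hg : g ∈ S.Vr H ξ, x = ofV ξ g hg} = ⊤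

namespace RL

variable {S : SS T Y} {H : Subgroup T} {L : Type w} [Group L] (R : RL S H L)

theorem ofV_congr {ξ ξ' : ℕ → Y} {g g' : T} (h1 : ξ = ξ') (h2 : g = g') (hg : g ∈ S.Vr H ξ)
    (hg' : g' ∈ S.Vr H ξ') : R.ofV ξ g hg = R.ofV ξ' g' hg' := by
  subst h1; subst h2; rfl

theorem ofV_one (ξ : ℕ → Y) (h : (1 : T) ∈ S.Vr H ξ) : R.ofV ξ 1 h = 1 := by
  rw [R.ofV_H ξ 1 (one_mem _) h]
  exact map_one R.ofH

theorem ofV_inv (ξ : ℕ → Y) (g : T) (hg : g ∈ S.Vr H ξ) :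
    (R.ofV ξ g hg)⁻¹ = R.ofV (S.ract g ξ) g⁻¹ (S.Vr_inv hg) := by
  have h1 := R.ofV_mul ξ g g⁻¹ hg (S.Vr_inv hg)
  have h2 : R.ofV ξ (g⁻¹ * g) (S.Vr_mul hg (S.Vr_inv hg)) = 1 :=
    (R.ofV_congr rfl (inv_mul_cancel g) _ (S.Vr_one H ξ)).trans (R.ofV_one ξ _)
  rw [h2] at h1
  exact (eq_inv_of_mul_eq_one_left h1).symm

/-- the wreath recursion on `H` -/
def recH : H →* Wr L Y where
  toFun := fun h => ⟨S.σ h, fun y' => R.ofH ⟨S.sec h y', R.hc h h.2 y'⟩⟩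
  map_one' := by
    ext y'
    · simp
    · change R.ofH ⟨S.sec 1 y', _⟩ = 1
      rw [← map_one R.ofH]
      congr 1
      exact Subtype.ext (S.sec_one _)
  map_mul' := fun a b => by
    ext y'
    · simp
    · change R.ofH ⟨S.sec (a.1 * b.1) y', _⟩ = R.ofH _ * R.ofH _
      rw [← map_mul R.ofH]
      congr 1
      exact Subtype.ext (S.sec_mul _ _ _)

open Classical in
/-- the wreath recursion on the elements of the groupoid -/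
noncomputable def recV (ξ : ℕ → Y) (g : T) (hg : g ∈ S.Vr H ξ) : Wr L Y :=
  ⟨S.σ g, fun y => if h : y = ξ 0 then R.ofV (shf ξ) (S.sec g (ξ 0)) (S.Vr_sec hg)
    else R.ofH ⟨S.sec g y, S.Vr_sec' hg h⟩⟩

theorem recV_f (ξ : ℕ → Y) (g : T) (hg : g ∈ S.Vr H ξ) :
    (R.recV ξ g hg).f (ξ 0) = R.ofV (shf ξ) (S.sec g (ξ 0)) (S.Vr_sec hg) := by
  simp only [recV]
  exact dif_pos trivial

theorem recV_f' (ξ : ℕ → Y) (g : T) (hg : g ∈ S.Vr H ξ) (y : Y) (h : y ≠ ξ 0) :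
    (R.recV ξ g hg).f y = R.ofH ⟨S.sec g y, S.Vr_sec' hg h⟩ := by
  simp only [recV]
  exact dif_neg h

theorem recV_mul (ξ : ℕ → Y) (g g' : T) (hg : g ∈ S.Vr H ξ) (hg' : g' ∈ S.Vr H (S.ract g ξ)) :
    R.recV (S.ract g ξ) g' hg' * R.recV ξ g hg = R.recV ξ (g' * g) (S.Vr_mul hg hg') := by
  apply Wr.ext'
  · change S.σ g' * S.σ g = S.σ (g' * g)
    rw [map_mul]
  · intro y
    change (R.recV (S.ract g ξ) g' hg').f (S.σ g y) * (R.recV ξ g hg).f y = _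
    by_cases h : y = ξ 0
    · subst h
      rw [← S.ract_zero, R.recV_f, R.recV_f, R.recV_f]
      have e1 : R.ofV (shf (S.ract g ξ)) (S.sec g' (S.ract g ξ 0)) (S.Vr_sec hg') =
          R.ofV (S.ract (S.sec g (ξ 0)) (shf ξ)) (S.sec g' (S.ract g ξ 0))
            (by rw [S.ract_shf]; exact S.Vr_sec hg') :=
        R.ofV_congr (S.ract_shf g ξ).symm rfl _ _
      rw [e1, R.ofV_mul]
      exact R.ofV_congr rfl (S.sec_mul g' g (ξ 0)).symm _ _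
    · have h2 : S.σ g y ≠ S.ract g ξ 0 := fun h3 => h ((S.σ g).injective h3)
      rw [R.recV_f' _ _ _ _ h, R.recV_f' _ _ _ _ h, R.recV_f' _ _ _ _ h2, ← map_mul R.ofH]
      congr 1
      exact Subtype.ext (S.sec_mul g' g y).symm

theorem recV_H (ξ : ℕ → Y) (h : T) (hh : h ∈ H) (hV : h ∈ S.Vr H ξ) :
    R.recV ξ h hV = R.recH ⟨h, hh⟩ := by
  apply Wr.ext'
  · rfl
  · intro y
    by_cases h0 : y = ξ 0
    · subst h0
      rw [R.recV_f, R.ofV_H _ _ (R.hc h hh (ξ 0))]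
      rfl
    · rw [R.recV_f' _ _ _ _ h0]
      rfl

/-- the wreath recursion -/
noncomputable def Φ : L →* Wr L Y :=
  Classical.choose (R.liftW R.recH R.recV R.recV_mul R.recV_H)

theorem Φ_ofH (h : H) : R.Φ (R.ofH h) = R.recH h :=
  (Classical.choose_spec (R.liftW R.recH R.recV R.recV_mul R.recV_H)).1 h

theorem Φ_ofV (ξ : ℕ → Y) (g : T) (hg : g ∈ S.Vr H ξ) : R.Φ (R.ofV ξ g hg) = R.recV ξ g hg :=
  (Classical.choose_spec (R.liftW R.recH R.recV R.recV_mul R.recV_H)).2 ξ g hg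

/-- the projection -/
noncomputable def π : L →* T := Classical.choose R.liftT

theorem π_ofH (h : H) : R.π (R.ofH h) = h.1 := (Classical.choose_spec R.liftT).1 h

theorem π_ofV (ξ : ℕ → Y) (g : T) (hg : g ∈ S.Vr H ξ) : R.π (R.ofV ξ g hg) = g :=
  (Classical.choose_spec R.liftT).2 ξ g hg

/-- the self-similar structure -/
noncomputable def SL : SS L Y := SS.ofHom R.Φ

theorem SL_σ_ofH (h : H) : R.SL.σ (R.ofH h) = S.σ h := by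
  change (R.Φ (R.ofH h)).p = _
  rw [R.Φ_ofH]; rfl

theorem SL_σ_ofV (ξ : ℕ → Y) (g : T) (hg : g ∈ S.Vr H ξ) : R.SL.σ (R.ofV ξ g hg) = S.σ g := by
  change (R.Φ (R.ofV ξ g hg)).p = _
  rw [R.Φ_ofV]; rfl

theorem SL_sec_ofH (h : H) (y : Y) :
    R.SL.sec (R.ofH h) y = R.ofH ⟨S.sec h y, R.hc h h.2 y⟩ := by
  change (R.Φ (R.ofH h)).f y = _
  rw [R.Φ_ofH]; rfl

theorem SL_sec_ofV (ξ : ℕ → Y) (g : T) (hg : g ∈ S.Vr H ξ) :
    R.SL.sec (R.ofV ξ g hg) (ξ 0) = R.ofV (shf ξ) (S.sec g (ξ 0)) (S.Vr_sec hg) := by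
  change (R.Φ (R.ofV ξ g hg)).f (ξ 0) = _
  rw [R.Φ_ofV, R.recV_f]

theorem SL_sec_ofV' (ξ : ℕ → Y) (g : T) (hg : g ∈ S.Vr H ξ) (y : Y) (h : y ≠ ξ 0) :
    R.SL.sec (R.ofV ξ g hg) y = R.ofH ⟨S.sec g y, S.Vr_sec' hg h⟩ := by
  change (R.Φ (R.ofV ξ g hg)).f y = _
  rw [R.Φ_ofV, R.recV_f' _ _ _ _ h]

theorem SL_both (x : L) : R.SL.σ x = S.σ (R.π x) ∧ ∀ y, R.π (R.SL.sec x y) = S.sec (R.π x) y := by
  classical
  have hx : x ∈ Subgroup.closure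
      {x : L | (∃ h, x = R.ofH h) ∨ ∃ ξ g, ∃ hg : g ∈ S.Vr H ξ, x = R.ofV ξ g hg} := by
    rw [R.gens]; trivial
  induction hx using Subgroup.closure_induction with
  | mem x hx =>
    rcases hx with ⟨h, rfl⟩ | ⟨ξ, g, hg, rfl⟩
    · refine ⟨by rw [R.SL_σ_ofH, R.π_ofH], fun y => ?_⟩
      rw [R.SL_sec_ofH, R.π_ofH, R.π_ofH]
    · refine ⟨by rw [R.SL_σ_ofV, R.π_ofV], fun y => ?_⟩
      by_cases h : y = ξ 0
      · subst h
        rw [R.SL_sec_ofV, R.π_ofV, R.π_ofV]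
      · rw [R.SL_sec_ofV' _ _ _ _ h, R.π_ofH, R.π_ofV]
  | one =>
    refine ⟨by rw [map_one, map_one, map_one], fun y => ?_⟩
    rw [R.SL.sec_one, map_one, S.sec_one]
  | mul a b _ _ ha hb =>
    refine ⟨by rw [map_mul, map_mul, map_mul, ha.1, hb.1], fun y => ?_⟩
    rw [R.SL.sec_mul, map_mul, map_mul, ha.2, hb.2, hb.1, S.sec_mul]
  | inv a _ ha =>
    have h1 : R.SL.σ a⁻¹ = S.σ (R.π a⁻¹) := by rw [map_inv, map_inv, map_inv, ha.1]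
    refine ⟨h1, fun y => ?_⟩
    rw [R.SL.sec_inv, map_inv, ha.2, h1, map_inv R.π, S.sec_inv]

theorem SL_σ (x : L) : R.SL.σ x = S.σ (R.π x) := (R.SL_both x).1

theorem SL_sec (x : L) (y : Y) : R.π (R.SL.sec x y) = S.sec (R.π x) y := (R.SL_both x).2 y

/-- the special elements -/
def W : Set L := {x | x ∈ R.ofH.range ∨ ∃ a b : H, ∃ ξ g, ∃ hg : g ∈ S.Vr H ξ,
  x = R.ofH a * R.ofV ξ g hg * R.ofH b}

theorem W_of {u v : L} (hu : u ∈ R.ofH.range) (hv : v ∈ R.ofH.range) (ξ : ℕ → Y) (g : T)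
    (hg : g ∈ S.Vr H ξ) : u * R.ofV ξ g hg * v ∈ R.W := by
  obtain ⟨a, rfl⟩ := hu
  obtain ⟨b, rfl⟩ := hv
  exact Or.inr ⟨a, b, ξ, g, hg, rfl⟩

theorem sec_ofH_mem (a : H) (y : Y) : R.SL.sec (R.ofH a) y ∈ R.ofH.range :=
  ⟨_, (R.SL_sec_ofH a y).symm⟩

theorem sec_ofV_mem' (ξ : ℕ → Y) (g : T) (hg : g ∈ S.Vr H ξ) (y : Y) (h : y ≠ ξ 0) :
    R.SL.sec (R.ofV ξ g hg) y ∈ R.ofH.range :=
  ⟨_, (R.SL_sec_ofV' ξ g hg y h).symm⟩

theorem W_sec (x : L) (hx : x ∈ R.W) (y : Y) : R.SL.sec x y ∈ R.W := by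
  classical
  rcases hx with ⟨a, rfl⟩ | ⟨a, b, ξ, g, hg, rfl⟩
  · exact Or.inl (R.sec_ofH_mem a y)
  · rw [R.SL.sec_mul, R.SL.sec_mul]
    by_cases h : R.SL.σ (R.ofH b) y = ξ 0
    · rw [h, R.SL_sec_ofV]
      exact R.W_of (R.sec_ofH_mem _ _) (R.sec_ofH_mem _ _) _ _ _
    · exact Or.inl (mul_mem (mul_mem (R.sec_ofH_mem _ _) (R.sec_ofV_mem' _ _ _ _ h))
        (R.sec_ofH_mem _ _))

theorem W_step (a h b : H) (ξ ξ' : ℕ → Y) (g g' : T) (hg : g ∈ S.Vr H ξ)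
    (hg' : g' ∈ S.Vr H ξ') (x : Y) :
    R.SL.sec (R.ofH a * R.ofV ξ g hg * R.ofH h * R.ofV ξ' g' hg' * R.ofH b) x ∈ R.W ∨
    (S.ract h.1 (S.ract g' ξ') 0 = ξ 0 ∧ ∃ a₁ b₁ : H,
      R.SL.sec (R.ofH a * R.ofV ξ g hg * R.ofH h * R.ofV ξ' g' hg' * R.ofH b) x =
      R.ofH a₁ * R.ofV (shf ξ) (S.sec g (ξ 0)) (S.Vr_sec hg) *
        R.ofH ⟨S.sec h (S.ract g' ξ' 0), R.hc h h.2 _⟩ *
        R.ofV (shf ξ') (S.sec g' (ξ' 0)) (S.Vr_sec hg') * R.ofH b₁) := by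
  classical
  rw [R.SL.sec_mul, R.SL.sec_mul, R.SL.sec_mul, R.SL.sec_mul]
  by_cases hx : R.SL.σ (R.ofH b) x = ξ' 0
  · have e1 : R.SL.σ (R.ofV ξ' g' hg') (ξ' 0) = S.ract g' ξ' 0 := by rw [R.SL_σ_ofV]; rfl
    have e2 : R.SL.σ (R.ofH h) (S.ract g' ξ' 0) = S.ract h.1 (S.ract g' ξ') 0 := by
      rw [R.SL_σ_ofH]; rfl
    rw [hx, e1, e2, R.SL_sec_ofV ξ' g' hg']
    by_cases hy : S.ract h.1 (S.ract g' ξ') 0 = ξ 0
    · rw [hy, R.SL_sec_ofV ξ g hg, R.SL_sec_ofH h, R.SL_sec_ofH a, R.SL_sec_ofH b]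
      exact Or.inr ⟨rfl, _, _, rfl⟩
    · left
      exact R.W_of (mul_mem (mul_mem (R.sec_ofH_mem a _) (R.sec_ofV_mem' _ _ _ _ hy))
        (R.sec_ofH_mem h _)) (R.sec_ofH_mem b _) _ _ _
  · left
    have hm := R.sec_ofV_mem' ξ' g' hg' _ hx
    by_cases hy : R.SL.σ (R.ofH h) (R.SL.σ (R.ofV ξ' g' hg') (R.SL.σ (R.ofH b) x)) = ξ 0
    · rw [hy, R.SL_sec_ofV ξ g hg, mul_assoc, mul_assoc]
      exact R.W_of (R.sec_ofH_mem a _) (mul_mem (R.sec_ofH_mem h _)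
        (mul_mem hm (R.sec_ofH_mem b _))) _ _ _
    · exact Or.inl (mul_mem (mul_mem (mul_mem (mul_mem (R.sec_ofH_mem a _)
        (R.sec_ofV_mem' _ _ _ _ hy)) (R.sec_ofH_mem h _)) hm) (R.sec_ofH_mem b _))

theorem W_mid [Finite Y] (n : ℕ) (a h b : H) (ξ ξ' : ℕ → Y) (g g' : T) (hg : g ∈ S.Vr H ξ)
    (hg' : g' ∈ S.Vr H ξ') (hn : S.ract h.1 (S.ract g' ξ') n ≠ ξ n) :
    ∃ m, EW R.SL R.W m
      (R.ofH a * R.ofV ξ g hg * R.ofH h * R.ofV ξ' g' hg' * R.ofH b) := by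
  induction n generalizing a h b ξ ξ' g g' with
  | zero =>
    refine EW_of_sec R.SL R.W_sec _ (fun x => ⟨0, ?_⟩)
    rcases R.W_step a h b ξ ξ' g g' hg hg' x with h1 | ⟨h1, _⟩
    · exact h1
    · exact absurd h1 hn
  | succ n ih =>
    refine EW_of_sec R.SL R.W_sec _ (fun x => ?_)
    rcases R.W_step a h b ξ ξ' g g' hg hg' x with h1 | ⟨_, a₁, b₁, h1⟩
    · exact ⟨0, h1⟩
    · rw [h1]
      refine ih a₁ ⟨S.sec h.1 (S.ract g' ξ' 0), R.hc h.1 h.2 _⟩ b₁ _ _ _ _ _ _ ?_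
      rw [S.ract_shf, S.ract_shf]
      exact hn

theorem W_mul [Finite Y] (x : L) (hx : x ∈ R.W) (x' : L) (hx' : x' ∈ R.W) :
    ∃ m, EW R.SL R.W m (x * x') := by
  classical
  rcases hx with hx | ⟨a, b, ξ, g, hg, rfl⟩
  · rcases hx' with hx' | ⟨a', b', ξ', g', hg', rfl⟩
    · exact ⟨0, Or.inl (mul_mem hx hx')⟩
    · refine ⟨0, ?_⟩
      change x * (R.ofH a' * R.ofV ξ' g' hg' * R.ofH b') ∈ R.W
      rw [← mul_assoc, ← mul_assoc]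
      exact R.W_of (mul_mem hx ⟨_, rfl⟩) ⟨_, rfl⟩ _ _ _
  · rcases hx' with hx' | ⟨a', b', ξ', g', hg', rfl⟩
    · refine ⟨0, ?_⟩
      change R.ofH a * R.ofV ξ g hg * R.ofH b * x' ∈ R.W
      rw [mul_assoc]
      exact R.W_of ⟨_, rfl⟩ (mul_mem ⟨_, rfl⟩ hx') _ _ _
    · have e : R.ofH a * R.ofV ξ g hg * R.ofH b * (R.ofH a' * R.ofV ξ' g' hg' * R.ofH b') =
          R.ofH a * R.ofV ξ g hg * R.ofH (b * a') * R.ofV ξ' g' hg' * R.ofH b' := by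
        rw [map_mul]
        simp only [mul_assoc]
      rw [e]
      by_cases hm : S.ract (b * a').1 (S.ract g' ξ') = ξ
      · subst hm
        have hV : (b * a').1 ∈ S.Vr H (S.ract g' ξ') := S.H_sub_Vr R.hc R.hfin _ (b * a').2
        refine ⟨0, ?_⟩
        have e2 : R.ofH (b * a') = R.ofV (S.ract g' ξ') (b * a').1 hV :=
          (R.ofV_H _ _ (b * a').2 hV).symm
        have e3 : R.ofH a * R.ofV (S.ract (b * a').1 (S.ract g' ξ')) g hg * R.ofH (b * a') *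
            R.ofV ξ' g' hg' * R.ofH b' = R.ofH a * (R.ofV (S.ract (b * a').1 (S.ract g' ξ')) g hg *
              (R.ofV (S.ract g' ξ') (b * a').1 hV * R.ofV ξ' g' hg')) * R.ofH b' := by
          rw [e2]
          simp only [mul_assoc]
        rw [e3, R.ofV_mul]
        have e4 : R.ofV (S.ract (b * a').1 (S.ract g' ξ')) g hg =
            R.ofV (S.ract ((b * a').1 * g') ξ') g (by rw [S.ract_mul]; exact hg) :=
          R.ofV_congr (S.ract_mul _ _ _).symm rfl _ _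
        rw [e4, R.ofV_mul]
        exact R.W_of ⟨_, rfl⟩ ⟨_, rfl⟩ _ _ _
      · obtain ⟨n, hn⟩ := Function.ne_iff.1 hm
        exact R.W_mid n a (b * a') b' ξ ξ' g g' hg hg' hn

theorem W_inv (x : L) (hx : x ∈ R.W) : x⁻¹ ∈ R.W := by
  rcases hx with hx | ⟨a, b, ξ, g, hg, rfl⟩
  · exact Or.inl (inv_mem hx)
  · have e : (R.ofH a * R.ofV ξ g hg * R.ofH b)⁻¹ =
        R.ofH b⁻¹ * R.ofV (S.ract g ξ) g⁻¹ (S.Vr_inv hg) * R.ofH a⁻¹ := by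
      rw [← R.ofV_inv ξ g hg, map_inv, map_inv]; group
    rw [e]
    exact R.W_of ⟨_, rfl⟩ ⟨_, rfl⟩ _ _ _

theorem W_one (x : L) (hx : x ∈ R.W) (hπ : R.π x = 1) : x = 1 := by
  rcases hx with ⟨h, rfl⟩ | ⟨a, b, ξ, g, hg, rfl⟩
  · rw [R.π_ofH] at hπ
    have h1 : h = 1 := Subtype.ext hπ
    rw [h1, map_one]
  · rw [map_mul, map_mul, R.π_ofH, R.π_ofH, R.π_ofV] at hπ
    have hgH : g ∈ H := by
      have h1 : g = a.1⁻¹ * b.1⁻¹ := by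
        have h2 : g = a.1⁻¹ * (a.1 * g * b.1) * b.1⁻¹ := by group
        rw [h2, hπ, mul_one]
      rw [h1]
      exact mul_mem (inv_mem a.2) (inv_mem b.2)
    rw [R.ofV_H ξ g hgH hg, ← map_mul, ← map_mul]
    have h3 : a * ⟨g, hgH⟩ * b = 1 := Subtype.ext hπ
    rw [h3, map_one]

/-- Data for the abstract extension lemma. -/
noncomputable def data [Finite Y] : WData S L where
  SL := R.SL
  π := R.π
  σ_eq := R.SL_σ
  sec_eq := R.SL_sec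
  W := R.W
  one_W := Or.inl (one_mem _)
  W_sec := R.W_sec
  W_inv := R.W_inv
  W_mul := R.W_mul
  W_one := R.W_one
  gen := by
    rw [eq_top_iff, ← R.gens]
    apply (Subgroup.closure_le _).2
    rintro _ (⟨h, rfl⟩ | ⟨ξ, g, hg, rfl⟩)
    · exact Subgroup.subset_closure ⟨0, Or.inl ⟨h, rfl⟩⟩
    · refine Subgroup.subset_closure ⟨0, Or.inr ⟨1, 1, ξ, g, hg, ?_⟩⟩
      rw [map_one, one_mul, mul_one]

/-- the group generated by `H` and the elements of all sets `Vr H ξ` -/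
theorem goodR_range [Finite Y] (hf : S.Faithful) (hL : FPB L) : S.GoodR R.π.range where
  closed := R.data.closed_range
  fin := by
    rw [MonoidHom.range_eq_map, ← R.gens, MonoidHom.map_closure, Subgroup.closure_le]
    rintro _ ⟨_, ⟨h, rfl⟩ | ⟨ξ, g, hg, rfl⟩, rfl⟩
    · rw [R.π_ofH]; exact R.hfin h.2
    · rw [R.π_ofV]; exact S.Vr_sub_finR R.hfin hg
  fpb := R.data.fpb_range hf hL

theorem le_range : H ≤ R.π.range := fun h hh => ⟨R.ofH ⟨h, hh⟩, R.π_ofH _⟩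

theorem Vr_sub_range (ξ : ℕ → Y) : S.Vr H ξ ⊆ R.π.range := fun g hg => ⟨R.ofV ξ g hg, R.π_ofV _ _ _⟩

theorem up_le_range [Finite Y] (hf : S.Faithful) : S.up H ≤ R.π.range := by
  intro h hh
  rcases isEmpty_or_nonempty Y with hY | ⟨⟨y⟩⟩
  · have h1 : h = 1 := hf h (fun v => Subsingleton.elim _ _)
    rw [h1]
    exact one_mem _
  · exact R.Vr_sub_range (fun _ => y) (S.up_sub_Vr R.hc R.hfin _ hh)

/-- deep sections -/
theorem range_secL [Finite Y] {g : T} (hg : g ∈ R.π.range) :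
    ∃ n, ∀ v : List Y, v.length = n → S.secL g v ∈ H ∨
      ∃ a ∈ H, ∃ b ∈ H, ∃ ξ : ℕ → Y, ∃ c ∈ S.Vr H ξ, S.secL g v = a * c * b := by
  obtain ⟨n, hn⟩ := R.data.range_secL hg
  refine ⟨n, fun v hv => ?_⟩
  obtain ⟨q, hq, hq2⟩ := hn v hv
  rw [hq2]
  change R.π q ∈ H ∨ _
  rcases hq with ⟨h, rfl⟩ | ⟨a, b, ξ, c, hc, rfl⟩
  · left
    rw [R.π_ofH]; exact h.2
  · right
    refine ⟨a, a.2, b, b.2, ξ, c, hc, ?_⟩
    change R.π _ = _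
    rw [map_mul, map_mul, R.π_ofH, R.π_ofH, R.π_ofV]

end RL

end SS

end Vale.Agent.P192
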