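import Vale.Agent.P192.H826.RaysB
import Vale.Agent.P192.H260.Gpd

/-!
# P192: the theorem on arbitrary rays
-/

namespace Vale.Agent.P192

universe u v w

namespace SS

variable {T : Type u} {Y : Type v} [Group T]

/-- the rays, with the action of `T` coming from `S` -/
def Ry (_S : SS T Y) : Type v := ℕ → Y

instance (S : SS T Y) : MulAction T S.Ry where
  smul := S.ract
  one_smul := S.ract_one
  mul_smul := S.ract_mul

/-- the groupoid of the rays -/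
def gpd (S : SS T Y) {H : Subgroup T} (hc : ∀ h ∈ H, ∀ y, S.sec h y ∈ H) (hfin : H ≤ S.finR)
    (hconn : ∀ ξ η : ℕ → Y, ∃ g ∈ S.Vr H ξ, S.ract g ξ = η) : H260.Gpd T S.Ry where
  H := H
  V := fun ξ => S.Vr H ξ
  one_mem := S.Vr_one H
  mul_mem := fun hg hg' => S.Vr_mul hg hg'
  inv_mem := fun hg => S.Vr_inv hg
  sub := fun ξ _ hh => S.H_sub_Vr hc hfin ξ hh
  conn := hconn

/-- the universal group of the groupoid of the rays -/
def gpdRL (S : SS T Y) {H : Subgroup T} (hc : ∀ h ∈ H, ∀ y, S.sec h y ∈ H) (hfin : H ≤ S.finR)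
    (hconn : ∀ ξ η : ℕ → Y, ∃ g ∈ S.Vr H ξ, S.ract g ξ = η) : S.RL H (S.gpd hc hfin hconn).L where
  hc := hc
  hfin := hfin
  ofH := (S.gpd hc hfin hconn).ofH
  ofV := fun ξ g hg => (S.gpd hc hfin hconn).ofV ξ g hg
  ofV_mul := fun ξ g g' hg hg' => (S.gpd hc hfin hconn).ofV_mul (x := ξ) hg hg'
  ofV_H := fun ξ h hh hV => (S.gpd hc hfin hconn).ofV_H' ξ hh hV
  liftW := fun f F h1 h2 => ⟨(S.gpd hc hfin hconn).lift f F h1
      (fun ξ h => h2 ξ h.1 h.2 (S.H_sub_Vr hc hfin ξ h.2)),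
    fun h => (S.gpd hc hfin hconn).lift_ofH f F _ _ h,
    fun ξ g hg => (S.gpd hc hfin hconn).lift_ofV f F _ _ ξ g hg⟩
  liftT := ⟨(S.gpd hc hfin hconn).π, fun h => (S.gpd hc hfin hconn).π_ofH h,
    fun ξ g hg => (S.gpd hc hfin hconn).π_ofV ξ g hg⟩
  gens := by
    rw [← (S.gpd hc hfin hconn).closure_gens]
    congr 1
    ext x
    constructor
    · rintro (⟨h, rfl⟩ | h)
      · exact Or.inl ⟨h, rfl⟩
      · exact Or.inr h
    · rintro (⟨h, rfl⟩ | h)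
      · exact Or.inl ⟨h, rfl⟩
      · exact Or.inr h

/-- **The theorem on arbitrary rays**, with the description of deep sections. -/
theorem rays' (S : SS T Y) [Finite Y] (hf : S.Faithful)
    (hconn : ∀ ξ η : ℕ → Y, ∃ g, S.off ξ g ⊆ {1} ∧ S.ract g ξ = η) {H : Subgroup T}
    (hH : S.GoodR H) :
    ∃ H' : Subgroup T, S.GoodR H' ∧ H ≤ H' ∧ S.up H ≤ H' ∧ (∀ ξ, S.Vr H ξ ⊆ H') ∧
      ∀ g ∈ H', ∃ n, ∀ v : List Y, v.length = n → S.secL g v ∈ H ∨
        ∃ a ∈ H, ∃ b ∈ H, ∃ ξ : ℕ → Y, ∃ c ∈ S.Vr H ξ, S.secL g v = a * c * b := by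
  rcases isEmpty_or_nonempty Y with hY | hY
  · refine ⟨H, hH, le_rfl, ?_, ?_, ?_⟩
    · intro h _
      have h1 : h = 1 := hf h (fun v => Subsingleton.elim _ _)
      rw [h1]
      exact one_mem _
    · intro ξ
      exact (hY.false (ξ 0)).elim
    · intro g hg
      exact ⟨0, fun v _ => Or.inl (S.secL_mem hH.closed v hg)⟩
  · have hconn' : ∀ ξ η : ℕ → Y, ∃ g ∈ S.Vr H ξ, S.ract g ξ = η := by
      intro ξ η
      obtain ⟨g, hg1, hg2⟩ := hconn ξ η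
      refine ⟨g, ⟨hg1.trans ?_, (Set.finite_singleton (1 : T)).subset hg1⟩, hg2⟩
      rintro _ rfl
      exact one_mem _
    have hne : Nonempty S.Ry := ⟨fun _ => hY.some⟩
    have hL : FPB (S.gpd hH.closed hH.fin hconn').L :=
      (S.gpd hH.closed hH.fin hconn').fpb_L hH.fpb (fun ξ => S.fpb_rs hf hH.fpb ξ)
    let R := S.gpdRL hH.closed hH.fin hconn'
    exact ⟨R.π.range, R.goodR_range hf hL, R.le_range, R.up_le_range hf, R.Vr_sub_range,
      fun g hg => R.range_secL hg⟩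

/-- **The theorem on arbitrary rays.** -/
theorem rays (S : SS T Y) [Finite Y] (hf : S.Faithful)
    (hconn : ∀ ξ η : ℕ → Y, ∃ g, S.off ξ g ⊆ {1} ∧ S.ract g ξ = η) {H : Subgroup T}
    (hH : S.GoodR H) :
    ∃ H' : Subgroup T, S.GoodR H' ∧ H ≤ H' ∧ S.up H ≤ H' ∧ ∀ ξ, S.Vr H ξ ⊆ H' := by
  obtain ⟨H', h1, h2, h3, h4, _⟩ := S.rays' hf hconn hH
  exact ⟨H', h1, h2, h3, h4⟩

end SS

end Vale.Agent.P192
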