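import Vale.Agent.P192.H124.Short

/-!
# P192: finite-state automorphisms of relative polynomial activity have countably many
singular rays, explicit form
-/

namespace Vale.Agent.P192

/-- a finite-state automorphism with polynomially many sections outside of `H` has countably many
singular rays -/
theorem relpoly_short (X : Type) [Finite X] (H : Subgroup (Equiv.Perm (List X)))
    (g : Equiv.Perm (List X))
    (g1 : ∀ w, (g w).length = w.length) (g2 : ∀ v w, g v <+: g (v ++ w))
    (g3 : {f | ∃ v, Sec g v f}.Finite)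
    (g4 : ∃ C k : ℕ, ∀ n, {v : List X | v.length = n ∧ ¬ ∃ h ∈ H, Sec g v h}.ncard ≤
      C * (n + 1) ^ k) :
    (∀ ξ : ℕ → X, {f | ∃ n x, x ≠ ξ n ∧ Sec g (pre ξ n ++ [x]) f}.Finite) ∧
      {ξ : ℕ → X | ∀ n, ¬ ∃ h ∈ H, Sec g (pre ξ n) h}.Countable := by
  refine ⟨fun ξ => g3.subset ?_, ?_⟩
  · rintro f ⟨n, x, -, hf⟩
    exact ⟨_, hf⟩
  · let K : Subgroup (TreeAut X) := H.subgroupOf (TreeAut X)
    have hK : ∀ g : TreeAut X, g ∈ K ↔ (g : Equiv.Perm (List X)) ∈ H := fun g => Iff.rfl
    let g' : TreeAut X := ⟨g, mem_treeAut_of' g1 g2⟩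
    have hfs : FiniteState g' := finiteState_of (g := g') g3
    obtain ⟨C, k, hC⟩ := g4
    have hpa : RelActivity K g' := by
      refine ⟨C, k, fun n => ?_⟩
      refine le_trans (Set.ncard_le_ncard ?_ (words_finite n _)) (hC n)
      rintro v ⟨hv, hne⟩
      refine ⟨hv, ?_⟩
      rintro ⟨h, hh, he⟩
      apply hne
      rw [hK, sect_eq_of (g := g') (k := h) he]
      exact hh
    refine (relActivity_countable K g' hfs hpa).mono ?_
    intro ξ hξ n hn
    exact hξ n ⟨_, hn, fun w => sect_spec g' _ w⟩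

end Vale.Agent.P192
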