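import Vale.Agent.P192.H826.InfD

/-!
# P192: self-similar groups whose ray stabilizers are in the class

`A` is a group of automorphisms closed under sections.  If for all subgroups `H` of `A` in the
class closed under sections and all rays `ξ` the group of the elements of `A` fixing `ξ` with all
sections off `ξ` in `H` is in the class, then for all these `H` the group of the elements of `A`
with countably many rays along which all sections are outside `H` is in the class.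
-/

namespace Vale.Agent.P192

universe u v w

namespace SS

variable {T : Type u} {Y : Type v} [Group T] (S : SS T Y)

/-- the elements of `A` with all sections off `ξ` in `H` -/
def VA (A H : Subgroup T) (ξ : ℕ → Y) : Set T := {g | g ∈ A ∧ S.off ξ g ⊆ H}

theorem H_sub_VA {A H : Subgroup T} (hle : H ≤ A) (hc : ∀ h ∈ H, ∀ y, S.sec h y ∈ H)
    (ξ : ℕ → Y) {h : T} (hh : h ∈ H) : h ∈ S.VA A H ξ := by
  refine ⟨hle hh, ?_⟩
  rintro _ ⟨n, y', _, rfl⟩
  exact hc _ (S.st_mem hc ξ n hh) _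

/-- the family of the groupoid -/
def famA {A H : Subgroup T} (hA : ∀ g ∈ A, ∀ y, S.sec g y ∈ A)
    (hAr : ∀ g ∈ A, (Set.range (S.sec g)).Finite) (hle : H ≤ A)
    (hc : ∀ h ∈ H, ∀ y, S.sec h y ∈ H) : S.VFam H where
  V := S.VA A H
  hc := hc
  vmul := fun ξ g g' hg hg' => by
    refine ⟨mul_mem hg'.1 hg.1, (S.off_mul ξ g' g).trans ?_⟩
    rintro _ ⟨a, ha, b, hb, rfl⟩
    exact mul_mem (hg'.2 ha) (hg.2 hb)
  vinv := fun ξ g hg => by
    refine ⟨inv_mem hg.1, (S.off_inv ξ g).trans ?_⟩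
    rintro _ ⟨a, ha, rfl⟩
    exact inv_mem (hg.2 ha)
  H_le := fun ξ _ hh => S.H_sub_VA hle hc ξ hh
  sec_mem := fun ξ g hg => ⟨hA _ hg.1 _, (S.off_sec_subset ξ g).trans hg.2⟩
  sec_mem' := fun _ _ hg y hy => hg.2 ⟨0, y, hy, rfl⟩
  finH := fun _ hh => hAr _ (hle hh)
  finV := fun _ _ hg => hAr _ hg.1

/-- **One step**: the group generated by the directed elements of `A`. -/
theorem oneStepA (hf : S.Faithful) (hσ : FPB S.σ.range) {A H : Subgroup T}
    (hA : ∀ g ∈ A, ∀ y, S.sec g y ∈ A) (hAr : ∀ g ∈ A, (Set.range (S.sec g)).Finite)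
    (hle : H ≤ A) (hc : ∀ h ∈ H, ∀ y, S.sec h y ∈ H) (hH : FPB H)
    (hst : ∀ (ξ : ℕ → Y) (K : Subgroup T), (∀ g ∈ K, g ∈ S.VA A H ξ ∧ S.ract g ξ = ξ) → FPB K) :
    ∃ H' : Subgroup T, H ≤ H' ∧ H' ≤ A ∧ (∀ h ∈ H', ∀ y, S.sec h y ∈ H') ∧ FPB H' ∧
      ∀ ξ, S.VA A H ξ ⊆ H' := by
  let F := S.famA hA hAr hle hc
  refine ⟨F.π.range, F.le_range, F.range_le hle (fun ξ g hg => hg.1), F.closed_range, ?_,
    F.V_sub_range⟩
  exact F.fpb_range hf hσ hH (fun ξ => hst ξ _ (fun g hg => hg))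

/-- all ray stabilizers are in the class -/
def StabA (A : Subgroup T) : Prop :=
  ∀ H : Subgroup T, H ≤ A → (∀ h ∈ H, ∀ y, S.sec h y ∈ H) → FPB H →
    ∀ (ξ : ℕ → Y) (K : Subgroup T), (∀ g ∈ K, g ∈ S.VA A H ξ ∧ S.ract g ξ = ξ) → FPB K

/-- maximal groups -/
theorem maxA (hf : S.Faithful) (hσ : FPB S.σ.range) {A H : Subgroup T}
    (hA : ∀ g ∈ A, ∀ y, S.sec g y ∈ A) (hAr : ∀ g ∈ A, (Set.range (S.sec g)).Finite)
    (hst : S.StabA A) (hle : H ≤ A) (hc : ∀ h ∈ H, ∀ y, S.sec h y ∈ H) (hH : FPB H) :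
    ∃ R : Subgroup T, H ≤ R ∧ R ≤ A ∧ (∀ h ∈ R, ∀ y, S.sec h y ∈ R) ∧ FPB R ∧
      ∀ ξ, S.VA A R ξ ⊆ R := by
  have hclos : ∀ (c : Set (Subgroup T)), IsChain (· ≤ ·) c → c.Nonempty →
      (∀ K ∈ c, ∀ h ∈ K, ∀ y, S.sec h y ∈ K) → ∀ h ∈ sSup c, ∀ y, S.sec h y ∈ sSup c := by
    intro c hch hne hcc g hg y
    obtain ⟨K', hK', hgK⟩ := (Subgroup.mem_sSup_of_directedOn hne hch.directedOn).1 hg
    exact (Subgroup.mem_sSup_of_directedOn hne hch.directedOn).2 ⟨K', hK', hcc K' hK' g hgK y⟩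
  obtain ⟨R, hHR, hmax⟩ := zorn_le_nonempty₀
    {K : Subgroup T | K ≤ A ∧ (∀ h ∈ K, ∀ y, S.sec h y ∈ K) ∧ FPB K}
    (fun c hcc hch K hK => ⟨sSup c, ⟨sSup_le fun L hL => (hcc hL).1,
      hclos c hch ⟨K, hK⟩ fun L hL => (hcc hL).2.1,
      fpb_sSup_chain hch ⟨K, hK⟩ fun L hL => (hcc hL).2.2⟩, fun L hL => le_sSup hL⟩)
    H ⟨hle, hc, hH⟩
  obtain ⟨h1, h2, h3⟩ := hmax.prop
  refine ⟨R, hHR, h1, h2, h3, fun ξ g hg => ?_⟩
  obtain ⟨R', hle', h1', h2', h3', hV⟩ := S.oneStepA hf hσ hA hAr h1 h2 h3 (hst R h1 h2 h3)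
  exact hmax.le_of_ge ⟨h1', h2', h3'⟩ hle' (hV ξ hg)

/-- one step of the diagonal argument -/
theorem diag_stepA {A R : Subgroup T} (hA : ∀ g ∈ A, ∀ y, S.sec g y ∈ A)
    (hc : ∀ h ∈ R, ∀ y, S.sec h y ∈ R)
    (hV : ∀ ξ, S.VA A R ξ ⊆ R)
    {g : T} (hg : g ∈ A) (ξ : ℕ → Y) (l : ℕ) (h : S.st ξ l g ∉ R) (η : ℕ → Y) :
    ∃ (ξ' : ℕ → Y) (l' : ℕ), l < l' ∧ (∀ i < l, ξ' i = ξ i) ∧ S.st ξ' l' g ∉ R ∧
      ∃ i < l', ξ' i ≠ η i := by
  classical
  have hst : ∀ n, S.st ξ n g ∈ A := fun n => S.st_mem hA ξ n hg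
  by_cases hne : ∃ i < l, ξ i ≠ η i
  · obtain ⟨i, hi, hie⟩ := hne
    obtain ⟨y, hy⟩ : ∃ y, S.sec (S.st ξ l g) y ∉ R := by
      by_contra hcon
      push Not at hcon
      refine h (hV ξ ⟨hst l, (S.off_subset ξ _).trans (Set.union_subset ?_ ?_)⟩)
      · rintro _ ⟨y, rfl⟩
        exact hcon y
      · rintro _ ⟨n, y', _, rfl⟩
        exact hc _ (S.st_mem hc _ n (hcon _)) _
    refine ⟨Function.update ξ l y, l + 1, Nat.lt_succ_self l, ?_, ?_, i, Nat.lt_succ_of_lt hi, ?_⟩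
    · intro j hj
      exact Function.update_of_ne hj.ne _ _
    · rw [S.st_succ, Function.update_self, S.st_congr (η := ξ)
        (fun j hj => Function.update_of_ne hj.ne _ _)]
      exact hy
    · rw [Function.update_of_ne hi.ne]
      exact hie
  · push Not at hne
    have hξη : S.st ξ l g = S.st η l g := S.st_congr hne g
    have hnV : S.st ξ l g ∉ S.VA A R (fun i => η (l + i)) := fun h' => h (hV _ h')
    have hnsub : ¬ S.off (fun i => η (l + i)) (S.st ξ l g) ⊆ R := fun h' => hnV ⟨hst l, h'⟩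
    rw [Set.not_subset] at hnsub
    obtain ⟨_, ⟨n, y', hy', rfl⟩, hk⟩ := hnsub
    rw [hξη, ← S.st_add] at hk
    refine ⟨Function.update η (l + n) y', l + n + 1, by omega, ?_, ?_, l + n, by omega, ?_⟩
    · intro i hi
      rw [Function.update_of_ne (by omega)]
      exact (hne i hi).symm
    · rw [S.st_succ, Function.update_self, S.st_congr (η := η)
        (fun j hj => Function.update_of_ne hj.ne _ _)]
      exact hk
    · rw [Function.update_self]
      exact hy'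

/-- **The diagonal argument**: an element with countably many singular rays is in `R`. -/
theorem mem_of_countableA {A R : Subgroup T} (hA : ∀ g ∈ A, ∀ y, S.sec g y ∈ A)
    (hc : ∀ h ∈ R, ∀ y, S.sec h y ∈ R) (hV : ∀ ξ, S.VA A R ξ ⊆ R)
    {g : T} (hg : g ∈ A) (hE : (S.ex R g).Countable) [Nonempty Y] : g ∈ R := by
  classical
  by_contra hgR
  -- an enumeration of the singular rays
  obtain ⟨e, he⟩ : ∃ e : ℕ → (ℕ → Y), S.ex R g ⊆ Set.range e := by
    rcases (S.ex R g).eq_empty_or_nonempty with h0 | h0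
    · exact ⟨fun _ _ => Classical.arbitrary Y, by rw [h0]; exact Set.empty_subset _⟩
    · obtain ⟨e, he⟩ := hE.exists_eq_range h0
      exact ⟨e, he.le⟩
  -- the sequence of words
  let P : Type v := {p : (ℕ → Y) × ℕ // S.st p.1 p.2 g ∉ R}
  have step : ∀ (n : ℕ) (p : P), ∃ q : P, p.1.2 < q.1.2 ∧ (∀ i < p.1.2, q.1.1 i = p.1.1 i) ∧
      ∃ i < q.1.2, q.1.1 i ≠ e n i := by
    intro n p
    obtain ⟨ξ', l', h1, h2, h3, h4⟩ := S.diag_stepA hA hc hV hg p.1.1 p.1.2 p.2 (e n)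
    exact ⟨⟨(ξ', l'), h3⟩, h1, h2, h4⟩
  choose F hF1 hF2 hF3 using step
  let p : ℕ → P := fun n => Nat.rec ⟨(fun _ => Classical.arbitrary Y, 0), hgR⟩ (fun n q => F n q) n
  have hp : ∀ n, p (n + 1) = F n (p n) := fun n => rfl
  have hlen : ∀ n, n ≤ (p n).1.2 := by
    intro n
    induction n with
    | zero => exact Nat.zero_le _
    | succ n ih =>
      have := hF1 n (p n)
      rw [← hp] at this
      omega
  have hmono : ∀ n k, (p n).1.2 ≤ (p (n + k)).1.2 ∧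
      ∀ i < (p n).1.2, (p (n + k)).1.1 i = (p n).1.1 i := by
    intro n k
    induction k with
    | zero => exact ⟨le_rfl, fun i _ => rfl⟩
    | succ k ih =>
      have h1 := hF1 (n + k) (p (n + k))
      have h2 := hF2 (n + k) (p (n + k))
      rw [← hp] at h1 h2
      refine ⟨ih.1.trans h1.le, fun i hi => ?_⟩
      exact (h2 i (lt_of_lt_of_le hi ih.1)).trans (ih.2 i hi)
  -- the limit ray
  let ζ : ℕ → Y := fun i => (p (i + 1)).1.1 i
  have hζ : ∀ n, ∀ i < (p n).1.2, ζ i = (p n).1.1 i := by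
    intro n i hi
    change (p (i + 1)).1.1 i = (p n).1.1 i
    rcases le_total (i + 1) n with h | h
    · obtain ⟨k, rfl⟩ := Nat.exists_eq_add_of_le h
      refine ((hmono (i + 1) k).2 i ?_).symm
      have := hlen (i + 1)
      omega
    · obtain ⟨k, hk⟩ := Nat.exists_eq_add_of_le h
      rw [hk]
      exact (hmono n k).2 i hi
  have hζE : ζ ∈ S.ex R g := by
    intro n hn
    have h1 : S.st ζ (p n).1.2 g ∈ R := S.st_mem_mono hc (hlen n) hn
    rw [S.st_congr (hζ n)] at h1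
    exact (p n).2 h1
  obtain ⟨n, hn⟩ := he hζE
  obtain ⟨i, hi, hne⟩ := hF3 n (p n)
  rw [← hp] at hi hne
  apply hne
  rw [← hζ (n + 1) i hi, hn]

/-- the elements of `A` with countably many rays along which all sections are outside `H` -/
def cntA (A H : Subgroup T) (hc : ∀ h ∈ H, ∀ y, S.sec h y ∈ H) : Subgroup T where
  carrier := {g | g ∈ A ∧ (S.ex H g).Countable}
  one_mem' := by
    refine ⟨one_mem _, ?_⟩
    have : S.ex H 1 = ∅ := by
      rw [Set.eq_empty_iff_forall_notMem]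
      intro ξ hξ
      apply hξ 0
      exact one_mem H
    rw [this]
    exact Set.countable_empty
  mul_mem' := by
    intro a b ha hb
    refine ⟨mul_mem ha.1 hb.1, ((hb.2.union ?_)).mono (S.ex_mul hc a b)⟩
    exact ha.2.preimage_of_injOn (S.ract_injective b).injOn
  inv_mem' := by
    intro a ha
    refine ⟨inv_mem ha.1, Set.Countable.mono (S.ex_inv a) ?_⟩
    exact ha.2.preimage_of_injOn (S.ract_injective a⁻¹).injOn

theorem cntA_sec {A H : Subgroup T} (hA : ∀ g ∈ A, ∀ y, S.sec g y ∈ A)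
    (hc : ∀ h ∈ H, ∀ y, S.sec h y ∈ H) :
    ∀ g ∈ S.cntA A H hc, ∀ y, S.sec g y ∈ S.cntA A H hc := by
  intro g hg y
  refine ⟨hA g hg.1 y, Set.Countable.mono (S.ex_sec hc g y) ?_⟩
  exact hg.2.preimage_of_injOn (cns_injective y).injOn

/-- **The countable theorem for self-similar groups with ray stabilizers in the class.** -/
theorem fpb_cntA (hf : S.Faithful) (hσ : FPB S.σ.range) {A H : Subgroup T}
    (hA : ∀ g ∈ A, ∀ y, S.sec g y ∈ A) (hAr : ∀ g ∈ A, (Set.range (S.sec g)).Finite)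
    (hst : S.StabA A) (hle : H ≤ A) (hc : ∀ h ∈ H, ∀ y, S.sec h y ∈ H) (hH : FPB H) :
    FPB (S.cntA A H hc) := by
  rcases isEmpty_or_nonempty Y with hY | hY
  · have h1 : ∀ h : T, h = 1 := fun h => hf h (fun v => Subsingleton.elim _ _)
    have : Subsingleton (S.cntA A H hc) :=
      ⟨fun a b => Subtype.ext ((h1 a.1).trans (h1 b.1).symm)⟩
    exact fpb_of_finite _
  · obtain ⟨R, hHR, hRA, hRc, hR, hV⟩ := S.maxA hf hσ hA hAr hst hle hc hH
    refine fpb_mono (L := R) ?_ hR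
    intro g hg
    refine S.mem_of_countableA hA hRc hV hg.1 (hg.2.mono ?_)
    exact fun ξ hξ n hn => hξ n (hHR hn)

end SS

end Vale.Agent.P192
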