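import Vale.Agent.P192.H826.VA
import Vale.Agent.P192.H124.InfExplicit

/-!
# P192: self-similar groups whose ray stabilizers are in the class, explicit form
-/

namespace Vale.Agent.P192

theorem pre_succ {X : Type} (ξ : ℕ → X) (n : ℕ) : pre ξ (n + 1) = pre ξ n ++ [ξ n] := by
  unfold pre
  rw [List.range_succ, List.map_append]
  rfl

/-- the action on the prefixes of the rays -/
theorem app_pre {X : Type} (P : Subgroup (Equiv.Perm X)) (t : TP X P) (ξ : ℕ → X) (n : ℕ) :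
    incl X P t (pre ξ n) = pre ((ssP X P).ract t ξ) n := by
  induction n with
  | zero =>
    change incl X P t [] = []
    have h := ta_length t.1 []
    exact List.length_eq_zero_iff.1 h
  | succ n ih =>
    rw [pre_succ, pre_succ, ← ih]
    have h4 := sect_spec t.1 (pre ξ n) [ξ n]
    have h3 : [(ssP X P).σ ((ssP X P).st ξ n t) (ξ n)] = _ := ssX_σ ((ssP X P).st ξ n t).1 (ξ n)
    rw [ssP_st] at h3
    change incl X P t (pre ξ n ++ [ξ n]) = incl X P t (pre ξ n) ++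
      [(ssP X P).σ ((ssP X P).st ξ n t) (ξ n)]
    rw [h3]
    exact h4

theorem pre_injective {X : Type} {ξ η : ℕ → X} (h : ∀ n, pre ξ n = pre η n) : ξ = η := by
  funext n
  have h1 := h (n + 1)
  rw [pre_succ, pre_succ, h n] at h1
  exact (List.cons.inj (List.append_cancel_left h1)).1

/-- sections of the elements of `TP X P` -/
theorem incl_sec {X : Type} (P : Subgroup (Equiv.Perm X)) (t : TP X P) (v : List X)
    (k : Equiv.Perm (List X)) :
    Sec (incl X P t) v k ↔ incl X P ((ssP X P).secL t v) = k := by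
  have e : incl X P ((ssP X P).secL t v) = (sect t.1 v : Equiv.Perm (List X)) := by
    rw [← ssP_secL]
    rfl
  rw [e]
  constructor
  · intro h
    have h1 : sect t.1 v = sect t.1 v := rfl
    apply Equiv.ext
    intro w
    exact List.append_cancel_left ((sect_spec t.1 v w).symm.trans (h w))
  · rintro rfl w
    exact sect_spec t.1 v w

theorem secL_pre {T Y : Type} [Group T] (S : SS T Y) (t : T) (ξ : ℕ → Y) (n : ℕ) :
    S.secL t (pre ξ n) = S.st ξ n t := by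
  induction n with
  | zero => rfl
  | succ n ih =>
    rw [pre_succ, S.secL_append, ih]
    rfl

/-- **Self-similar groups whose ray stabilizers are in the class.** -/
theorem stab_short (X : Type) (P : Subgroup (Equiv.Perm X)) (hP : FPB P)
    (A : Subgroup (Equiv.Perm (List X)))
    (a1 : ∀ g ∈ A, ∀ v, ∃ p ∈ P, ∀ x, g (v ++ [x]) = g v ++ [p x])
    (a2 : ∀ g ∈ A, ∀ v, ∃ k ∈ A, Sec g v k)
    (a3 : ∀ g ∈ A, {f | ∃ x, Sec g [x] f}.Finite)
    (a4 : ∀ H ≤ A, FPB H → (∀ h ∈ H, ∀ v, ∃ k ∈ H, Sec h v k) → ∀ K ≤ A,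
      (∃ ξ : ℕ → X, ∀ g ∈ K, ∀ n, g (pre ξ n) = pre ξ n ∧
        ∀ x, x ≠ ξ n → ∃ k ∈ H, Sec g (pre ξ n ++ [x]) k) → FPB K)
    (H : Subgroup (Equiv.Perm (List X))) (hle : H ≤ A) (k4 : FPB H)
    (k2 : ∀ h ∈ H, ∀ v, ∃ k ∈ H, Sec h v k) :
    ∃ C ≤ A, FPB C ∧ (∀ g ∈ C, ∀ v, ∃ k ∈ C, Sec g v k) ∧
      ∀ g ∈ A, g ∈ C ↔ {ξ : ℕ → X | ∀ n, ¬ ∃ k ∈ H, Sec g (pre ξ n) k}.Countable := by
  have hc := toTP_closed (P := P) k2
  have hA := toTP_closed (P := P) a2
  have hAr : ∀ g ∈ toTP P A, (Set.range ((ssP X P).sec g)).Finite := by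
    intro g hg
    have h := a3 _ hg
    have hinj : Function.Injective
        (fun s : TP X P => (((s : TreeAut X) : Equiv.Perm (List X)) : List X → List X)) := by
      intro a b hab
      exact Subtype.ext (ta_ext fun w => congrFun hab w)
    refine Set.Finite.of_finite_image (h.subset ?_) hinj.injOn
    rintro _ ⟨_, ⟨x, rfl⟩, rfl⟩
    exact ⟨x, (incl_sec P g [x] _).2 rfl⟩
  have hst : (ssP X P).StabA (toTP P A) := by
    intro H₀ hH₀ hc₀ hF₀ ξ K₀ hK₀
    have hmap : ∀ L : Subgroup (TP X P), L ≤ toTP P A → L.map (incl X P) ≤ A := by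
      rintro L hL _ ⟨g, hg, rfl⟩
      exact hL hg
    have hFmap : ∀ L : Subgroup (TP X P), FPB L → FPB (L.map (incl X P)) := fun L hL =>
      fpb_of_equiv ((L.equivMapOfInjective (incl X P) (incl_injective X P)).symm) hL
    have hF := a4 (H₀.map (incl X P)) (hmap _ hH₀) (hFmap _ hF₀) ?_ (K₀.map (incl X P))
      (hmap _ fun g hg => (hK₀ g hg).1.1) ⟨ξ, ?_⟩
    · exact fpb_of_equiv (K₀.equivMapOfInjective (incl X P) (incl_injective X P)) hF
    · rintro _ ⟨g, hg, rfl⟩ v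
      exact ⟨_, ⟨_, (ssP X P).secL_mem hc₀ v hg, rfl⟩, (incl_sec P g v _).2 rfl⟩
    · rintro _ ⟨g, hg, rfl⟩ n
      obtain ⟨⟨hgA, hoff⟩, hfix⟩ := hK₀ g hg
      refine ⟨by rw [app_pre, hfix], fun x hx => ?_⟩
      refine ⟨_, ⟨_, hoff ⟨n, x, hx, rfl⟩, rfl⟩, ?_⟩
      rw [incl_sec, (ssP X P).secL_append, secL_pre]
      rfl
  have hD := (ssP X P).fpb_cntA (ssP_faithful P) (ssP_fpb hP) hA hAr hst
    (H := toTP P H) (fun g hg => hle hg) hc (fpb_toTP k4)
  refine ⟨((ssP X P).cntA (toTP P A) (toTP P H) hc).map (incl X P), ?_, ?_, ?_, ?_⟩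
  · rintro _ ⟨g, hg, rfl⟩
    exact hg.1
  · exact fpb_of_equiv ((((ssP X P).cntA (toTP P A) (toTP P H) hc).equivMapOfInjective (incl X P)
      (incl_injective X P)).symm) hD
  · rintro _ ⟨g, hg, rfl⟩ v
    exact ⟨_, ⟨_, (ssP X P).secL_mem ((ssP X P).cntA_sec hA hc) v hg, rfl⟩,
      (incl_sec P g v _).2 rfl⟩
  · intro g hgA
    obtain ⟨t, rfl⟩ := (mem_TP_iff P g).2 (a1 g hgA)
    have key : {ξ : ℕ → X | ∀ n, ¬ ∃ k ∈ H,
        Sec ((t : TreeAut X) : Equiv.Perm (List X)) (pre ξ n) k} = (ssP X P).ex (toTP P H) t :=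
      (ex_toTP P H t).symm
    rw [key]
    constructor
    · rintro ⟨t', ht', he⟩
      have : t' = t := incl_injective X P he
      rw [← this]
      exact ht'.2
    · intro h
      exact ⟨t, ⟨hgA, h⟩, rfl⟩

end Vale.Agent.P192
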